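import Mathlib
import Crest.Prelude.Def_QuadraticTransport

/-!
# Optimal transport stability (row S0109+S0110): shared basic definitions

See the blueprint (team DB, shared_files `ot_blueprint.md`).
-/

set_option autoImplicit false
open MeasureTheory
open scoped ENNReal NNReal RealInnerProductSpace

namespace Crest.Agent.OT

/-- Ambient Euclidean space. -/
abbrev Eu (d : ℕ) := EuclideanSpace ℝ (Fin d)

variable {d : ℕ}

/-- `φ` is a (sub)potential of `T` on `K`: at almost every point of `K`, `T x` is a subgradient of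
`φ`, globally. -/
def IsPot (K : Set (Eu d)) (φ : Eu d → ℝ) (T : Eu d → Eu d) : Prop :=
  ∀ᵐ x ∂(volume.restrict K), ∀ x', φ x + ⟪T x, x' - x⟫ ≤ φ x'

variable {I : Type} [Fintype I]

/-- Finite max of affine functions with slopes `y l` and heights `c l`. -/
noncomputable def pot (y : I → Eu d) (c : I → ℝ) (x : Eu d) : ℝ :=
  ⨆ l, (⟪x, y l⟫ - c l)

/-- The power cell of index `l` inside `K`. -/
def cell (K : Set (Eu d)) (y : I → Eu d) (c : I → ℝ) (l : I) : Set (Eu d) :=
  {x | x ∈ K ∧ ∀ j, ⟪x, y j⟫ - c j ≤ ⟪x, y l⟫ - c l}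

lemma le_pot (y : I → Eu d) (c : I → ℝ) (x : Eu d) (l : I) :
    ⟪x, y l⟫ - c l ≤ pot y c x :=
  le_ciSup (f := fun l => ⟪x, y l⟫ - c l) (Set.finite_range _).bddAbove l

lemma pot_le [Nonempty I] (y : I → Eu d) (c : I → ℝ) (x : Eu d) (b : ℝ)
    (h : ∀ l, ⟪x, y l⟫ - c l ≤ b) : pot y c x ≤ b :=
  ciSup_le h

lemma exists_pot_eq [Nonempty I] (y : I → Eu d) (c : I → ℝ) (x : Eu d) :
    ∃ l, ⟪x, y l⟫ - c l = pot y c x := by
  obtain ⟨l, hl⟩ := Finite.exists_max (fun l => ⟪x, y l⟫ - c l)
  refine ⟨l, le_antisymm (le_pot y c x l) (pot_le y c x _ hl)⟩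

lemma pot_eq_of_mem_cell [Nonempty I] {K : Set (Eu d)} {y : I → Eu d} {c : I → ℝ} {l : I} {x : Eu d}
    (hx : x ∈ cell K y c l) : pot y c x = ⟪x, y l⟫ - c l :=
  le_antisymm (pot_le y c x _ hx.2) (le_pot y c x l)

lemma continuous_pot [Nonempty I] (y : I → Eu d) (c : I → ℝ) : Continuous (pot y c) := by
  unfold pot
  -- a finite supremum of continuous functions
  have : (fun x => ⨆ l, (⟪x, y l⟫ - c l)) =
      (fun x => (Finset.univ : Finset I).sup' Finset.univ_nonempty
        (fun l => ⟪x, y l⟫ - c l)) := by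
    funext x
    apply le_antisymm
    · exact ciSup_le (fun l => Finset.le_sup' (fun l => ⟪x, y l⟫ - c l) (Finset.mem_univ l))
    · exact Finset.sup'_le _ _ (fun l _ =>
        le_ciSup (f := fun l => ⟪x, y l⟫ - c l) (Set.finite_range _).bddAbove l)
  rw [this]
  refine Continuous.finset_sup'_apply Finset.univ_nonempty (fun l _ => ?_)
  fun_prop

lemma measurableSet_cell {K : Set (Eu d)} (hK : MeasurableSet K) (y : I → Eu d) (c : I → ℝ)
    (l : I) : MeasurableSet (cell K y c l) := by
  have : cell K y c l = K ∩ ⋂ j, {x | ⟪x, y j⟫ - c j ≤ ⟪x, y l⟫ - c l} := by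
    ext x; simp [cell]
  rw [this]
  refine hK.inter (MeasurableSet.iInter fun j => ?_)
  exact (isClosed_le (by fun_prop) (by fun_prop)).measurableSet

lemma cell_subset (K : Set (Eu d)) (y : I → Eu d) (c : I → ℝ) (l : I) : cell K y c l ⊆ K :=
  fun _ hx => hx.1

lemma exists_mem_cell [Nonempty I] {K : Set (Eu d)} (y : I → Eu d) (c : I → ℝ) {x : Eu d}
    (hx : x ∈ K) : ∃ l, x ∈ cell K y c l := by
  obtain ⟨l, hl⟩ := exists_pot_eq y c x
  exact ⟨l, hx, fun j => by rw [hl]; exact le_pot y c x j⟩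

/-- An affine hyperplane is Lebesgue null. -/
lemma volume_hyperplane {v : Eu d} (hv : v ≠ 0) (b : ℝ) :
    volume {x : Eu d | ⟪v, x⟫ = b} = 0 := by
  classical
  have hvv : ⟪v, v⟫ ≠ 0 := by simpa [inner_self_eq_zero] using hv
  set S : Submodule ℝ (Eu d) := LinearMap.ker (innerₛₗ ℝ v) with hS
  have hStop : S ≠ ⊤ := by
    intro h
    have : v ∈ S := by rw [h]; trivial
    simp only [hS, LinearMap.mem_ker, innerₛₗ_apply_apply] at this
    exact hvv this
  have h0 : volume (S : Set (Eu d)) = 0 := Measure.addHaar_submodule volume S hStop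
  set x₀ : Eu d := (b / ⟪v, v⟫) • v with hx₀
  have hsub : {x : Eu d | ⟪v, x⟫ = b} = (fun x => x + (-x₀)) ⁻¹' (S : Set (Eu d)) := by
    ext x
    simp only [Set.mem_ofPred_eq, Set.mem_preimage, SetLike.mem_coe, hS, LinearMap.mem_ker,
      innerₛₗ_apply_apply, inner_add_right, inner_neg_right, hx₀, inner_smul_right]
    field_simp
    constructor
    · intro h; linarith
    · intro h; linarith
  rw [hsub, measure_preimage_add_right]
  exact h0

/-- Two cells of an injective atom map overlap in a null set. -/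
lemma cell_inter_null {K : Set (Eu d)} {y : I → Eu d} (hy : Function.Injective y) (c : I → ℝ)
    {l j : I} (hlj : l ≠ j) : volume (cell K y c l ∩ cell K y c j) = 0 := by
  have hne : y l - y j ≠ 0 := sub_ne_zero.mpr (fun h => hlj (hy h))
  have hsub : cell K y c l ∩ cell K y c j ⊆ {x | ⟪y l - y j, x⟫ = c l - c j} := by
    intro x hx
    have h1 := hx.1.2 j
    have h2 := hx.2.2 l
    simp only [Set.mem_ofPred_eq, inner_sub_left]
    rw [real_inner_comm x (y l), real_inner_comm x (y j)]
    linarith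
  exact measure_mono_null hsub (volume_hyperplane hne _)

end Crest.Agent.OT
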