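import Mathlib
import Crest.Agent.Lib.OT.Basic

/-!
# Discretization lemmas for the assembly of the OT row (module M7)

* `exists_index_selection`: measurable selection of an index from a finite measurable cover;
* `map_comp_index`, `integral_comp_index`: push-forwards and integrals of finite-valued maps;
* `exists_perturbation`: small perturbations making two families of atoms injective;
* `exists_discretization`: discretization of a coupling by finitely many pairs of atoms;
* `exists_cell_index`, `isPot_index`, `map_cell_index`: index maps of power cells.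
-/

set_option autoImplicit false
open MeasureTheory Set
open scoped ENNReal NNReal RealInnerProductSpace

namespace Crest.Agent.OT

section Selection

variable {α : Type*} [MeasurableSpace α] {I : Type} [Fintype I]

/-- Measurable selection of an index from a finite measurable cover. -/
lemma exists_index_selection [Nonempty I] (S : I → Set α) (hS : ∀ l, MeasurableSet (S l))
    (hcov : ∀ x, ∃ l, x ∈ S l) :
    ∃ L : α → I, (∀ x, x ∈ S (L x)) ∧ ∀ l, MeasurableSet (L ⁻¹' {l}) := by
  classical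
  let _ : LinearOrder I := LinearOrder.lift' (Fintype.equivFin I) (Equiv.injective _)
  let F : α → Finset I := fun x => Finset.univ.filter (fun l => x ∈ S l)
  have hF : ∀ x, (F x).Nonempty := fun x => by
    obtain ⟨l, hl⟩ := hcov x
    exact ⟨l, by simp [F, hl]⟩
  refine ⟨fun x => (F x).min' (hF x), fun x => ?_, fun l => ?_⟩
  · have := Finset.min'_mem (F x) (hF x)
    simpa [F] using this
  · have : (fun x => (F x).min' (hF x)) ⁻¹' {l} = S l ∩ ⋂ k ∈ {k | k < l}, (S k)ᶜ := by
      ext x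
      simp only [mem_preimage, mem_singleton_iff, mem_inter_iff, mem_iInter, mem_compl_iff,
        mem_ofPred_eq]
      constructor
      · rintro rfl
        refine ⟨?_, fun k hk hx => ?_⟩
        · have := Finset.min'_mem (F x) (hF x)
          simpa [F] using this
        · have hk' : k ∈ F x := by simp [F, hx]
          exact absurd (Finset.min'_le (F x) k hk') (not_le.2 hk)
      · rintro ⟨h1, h2⟩
        apply le_antisymm
        · exact Finset.min'_le (F x) l (by simp [F, h1])
        · by_contra hlt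
          have hmem := Finset.min'_mem (F x) (hF x)
          have hmem' : x ∈ S ((F x).min' (hF x)) := by simpa [F] using hmem
          exact h2 _ (not_le.1 hlt) hmem'
    rw [this]
    exact (hS l).inter (MeasurableSet.biInter (to_countable _) fun k _ => (hS k).compl)

lemma measurable_comp_index {E : Type*} [MeasurableSpace E] (L : α → I)
    (hL : ∀ l, MeasurableSet (L ⁻¹' {l})) (y : I → E) : Measurable (fun x => y (L x)) := by
  intro s _
  have : (fun x => y (L x)) ⁻¹' s = ⋃ l ∈ {l | y l ∈ s}, L ⁻¹' {l} := by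
    ext x; simp
  rw [this]
  exact MeasurableSet.biUnion (to_countable _) (fun l _ => hL l)

lemma map_comp_index {E : Type*} [MeasurableSpace E] (ρ : Measure α) (L : α → I)
    (hL : ∀ l, MeasurableSet (L ⁻¹' {l})) (y : I → E) :
    ρ.map (fun x => y (L x)) = ∑ l, ρ (L ⁻¹' {l}) • Measure.dirac (y l) := by
  classical
  ext s hs
  rw [Measure.map_apply (measurable_comp_index L hL y) hs, Measure.finsetSum_apply]
  have h1 : (fun x => y (L x)) ⁻¹' s = ⋃ l ∈ (Finset.univ.filter fun l => y l ∈ s), L ⁻¹' {l} := by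
    ext x; simp
  rw [h1, measure_biUnion_finset _ (fun l _ => hL l)]
  · rw [Finset.sum_filter]
    refine Finset.sum_congr rfl (fun l _ => ?_)
    simp only [Measure.smul_apply, smul_eq_mul, Measure.dirac_apply' _ hs]
    by_cases h : y l ∈ s <;> simp [h]
  · intro a _ b _ hab
    refine Set.disjoint_left.2 (fun x hx hx' => hab ?_)
    simp only [mem_preimage, mem_singleton_iff] at hx hx'
    exact hx.symm.trans hx'

lemma sum_measure_fibers (ρ : Measure α) (L : α → I) (hL : ∀ l, MeasurableSet (L ⁻¹' {l})) :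
    ∑ l, ρ (L ⁻¹' {l}) = ρ univ := by
  classical
  have h1 : (univ : Set α) = ⋃ l ∈ (Finset.univ : Finset I), L ⁻¹' {l} := by
    ext x; simp
  rw [h1, measure_biUnion_finset _ (fun l _ => hL l)]
  intro a _ b _ hab
  refine Set.disjoint_left.2 (fun x hx hx' => hab ?_)
  simp only [mem_preimage, mem_singleton_iff] at hx hx'
  exact hx.symm.trans hx'

lemma integral_comp_index (ρ : Measure α) [IsFiniteMeasure ρ] (L : α → I)
    (hL : ∀ l, MeasurableSet (L ⁻¹' {l})) (f : I → ℝ) :
    ∫ x, f (L x) ∂ρ = ∑ l, (ρ (L ⁻¹' {l})).toReal * f l := by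
  classical
  have h1 : (fun x => f (L x)) = fun x => ∑ l, (L ⁻¹' {l}).indicator (fun _ => f l) x := by
    funext x
    rw [Finset.sum_eq_single (L x)]
    · simp
    · intro b _ hb
      rw [Set.indicator_of_notMem]
      simpa using fun h => hb h.symm
    · simp
  rw [h1, integral_finsetSum]
  · refine Finset.sum_congr rfl (fun l _ => ?_)
    rw [integral_indicator (hL l)]
    simp [Measure.real, mul_comm]
  · intro l _
    exact (integrable_const _).indicator (hL l)

end Selection

variable {d : ℕ}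

/-- A family of points can be perturbed arbitrarily little so as to be injective, simultaneously
for two families, with the same perturbation. -/
lemma exists_perturbation (hd : 1 ≤ d) {I : Type} [Fintype I] (a b : I → Eu d) {τ : ℝ}
    (hτ : 0 < τ) :
    ∃ ε : I → Eu d, (∀ l, ‖ε l‖ ≤ τ) ∧ Function.Injective (fun l => a l + ε l) ∧
      Function.Injective (fun l => b l + ε l) := by
  classical
  let e : Eu d := EuclideanSpace.single ⟨0, hd⟩ (1 : ℝ)
  have he : ‖e‖ = 1 := by simp [e]
  have he0 : e ≠ 0 := by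
    intro h; rw [h] at he; simp at he
  let n : I → ℕ := fun l => (Fintype.equivFin I l : ℕ)
  have hn : Function.Injective n := fun l l' h =>
    (Fintype.equivFin I).injective (Fin.ext h)
  let N : ℝ := (Fintype.card I : ℝ) + 1
  have hN : 0 < N := by positivity
  have hnN : ∀ l, (n l : ℝ) ≤ N := fun l => by
    have : n l < Fintype.card I := (Fintype.equivFin I l).2
    have h' : (n l : ℝ) ≤ (Fintype.card I : ℝ) := by exact_mod_cast this.le
    simp only [N]; linarith
  -- bad parameters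
  have hsub : ∀ (v : I → Eu d) (l l' : I), l ≠ l' →
      ({s : ℝ | v l + (s * n l) • e = v l' + (s * n l') • e}).Subsingleton := by
    intro v l l' hll s hs s' hs'
    simp only [mem_ofPred_eq] at hs hs'
    have h1 : ((s - s') * ((n l : ℝ) - n l')) • e = 0 := by
      have h2 : (s * n l) • e - (s * n l') • e = v l' - v l := by
        rw [eq_sub_iff_add_eq]
        have : v l + (s * n l) • e = v l' + (s * n l') • e := hs
        rw [sub_add_eq_add_sub, sub_eq_iff_eq_add]
        rw [add_comm ((s * n l) • e)]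
        rw [this]
      have h3 : (s' * n l) • e - (s' * n l') • e = v l' - v l := by
        rw [eq_sub_iff_add_eq]
        have : v l + (s' * n l) • e = v l' + (s' * n l') • e := hs'
        rw [sub_add_eq_add_sub, sub_eq_iff_eq_add]
        rw [add_comm ((s' * n l) • e)]
        rw [this]
      have h4 : ((s - s') * ((n l : ℝ) - n l')) • e =
          ((s * n l) • e - (s * n l') • e) - ((s' * n l) • e - (s' * n l') • e) := by
        simp only [← sub_smul]
        congr 1
        ring
      rw [h4, h2, h3, sub_self]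
    have h5 : (n l : ℝ) - n l' ≠ 0 := by
      intro h
      have : (n l : ℝ) = n l' := by linarith
      exact hll (hn (by exact_mod_cast this))
    have h6 := (smul_eq_zero.1 h1).resolve_right he0
    have h7 := (mul_eq_zero.1 h6).resolve_right h5
    linarith
  let Bad : Set ℝ := (⋃ p ∈ {p : I × I | p.1 ≠ p.2},
      {s : ℝ | a p.1 + (s * n p.1) • e = a p.2 + (s * n p.2) • e}) ∪
    (⋃ p ∈ {p : I × I | p.1 ≠ p.2},
      {s : ℝ | b p.1 + (s * n p.1) • e = b p.2 + (s * n p.2) • e})
  have hBad : Bad.Finite := by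
    refine Set.Finite.union ?_ ?_
    · exact Set.Finite.biUnion (Set.toFinite _) (fun p hp => (hsub a _ _ hp).finite)
    · exact Set.Finite.biUnion (Set.toFinite _) (fun p hp => (hsub b _ _ hp).finite)
  have hpos : 0 < τ / N := div_pos hτ hN
  obtain ⟨s, hsI, hsB⟩ := ((Set.Ioo_infinite hpos).sdiff hBad).nonempty
  refine ⟨fun l => (s * n l) • e, fun l => ?_, ?_, ?_⟩
  · rw [norm_smul, he, mul_one, Real.norm_eq_abs, abs_of_nonneg (by
      have := hsI.1; positivity)]
    have h1 : s * n l ≤ (τ / N) * N := by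
      apply mul_le_mul hsI.2.le (hnN l) (by positivity) hpos.le
    rwa [div_mul_cancel₀ _ hN.ne'] at h1
  · intro l l' hll
    by_contra hne
    apply hsB
    refine Or.inl ?_
    simp only [mem_iUnion]
    exact ⟨(l, l'), hne, hll⟩
  · intro l l' hll
    by_contra hne
    apply hsB
    refine Or.inr ?_
    simp only [mem_iUnion]
    exact ⟨(l, l'), hne, hll⟩

/-- A compact set has a measurable `δ`-discretization with values in a finite subset. -/
lemma exists_net {Y : Set (Eu d)} (hYc : IsCompact Y) (hYn : Y.Nonempty) {δ : ℝ} (hδ : 0 < δ) :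
    ∃ (t : Finset (Eu d)) (Q : Eu d → t), (↑t ⊆ Y) ∧ t.Nonempty ∧
      (∀ i : t, MeasurableSet (Q ⁻¹' {i})) ∧ ∀ y ∈ Y, ‖y - (Q y : Eu d)‖ ≤ δ := by
  classical
  obtain ⟨t, htY, htf, hcov⟩ := hYc.finite_cover_balls hδ
  lift t to Finset (Eu d) using htf
  have htn : t.Nonempty := by
    obtain ⟨y, hy⟩ := hYn
    have := hcov hy
    simp only [mem_iUnion] at this
    obtain ⟨a, ha, _⟩ := this
    exact ⟨a, ha⟩
  have : Nonempty t := ⟨⟨htn.choose, htn.choose_spec⟩⟩
  obtain ⟨Q, hQ1, hQ2⟩ := exists_index_selection (I := t)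
    (fun a => Metric.ball (a : Eu d) δ ∪ Yᶜ)
    (fun a => Metric.isOpen_ball.measurableSet.union hYc.isClosed.measurableSet.compl)
    (fun x => by
      by_cases hx : x ∈ Y
      · have := hcov hx
        simp only [mem_iUnion] at this
        obtain ⟨a, ha, hxa⟩ := this
        exact ⟨⟨a, ha⟩, Or.inl hxa⟩
      · exact ⟨⟨htn.choose, htn.choose_spec⟩, Or.inr hx⟩)
  refine ⟨t, Q, htY, htn, hQ2, fun y hy => ?_⟩
  rcases hQ1 y with h | h
  · rw [Metric.mem_ball, dist_eq_norm] at h
    exact h.le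
  · exact absurd hy h

/-- Discretization of a probability measure `π` carried by `Y × Y`: finitely many pairs of atoms
`(y l, z l)`, both families injective, with masses `m l`, and a measurable index map `L`. -/
theorem exists_discretization (hd : 1 ≤ d) {Y : Set (Eu d)} (hYc : IsCompact Y) (hYn : Y.Nonempty)
    (π : Measure (Eu d × Eu d)) [IsProbabilityMeasure π]
    (h₁ : ∀ᵐ p ∂π, p.1 ∈ Y) (h₂ : ∀ᵐ p ∂π, p.2 ∈ Y) {δ : ℝ} (hδ : 0 < δ) :
    ∃ (I : Type) (_ : Fintype I) (_ : Nonempty I) (y z : I → Eu d) (m : I → ℝ)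
      (L : Eu d × Eu d → I),
      Function.Injective y ∧ Function.Injective z ∧ (∀ l, 0 < m l) ∧ ∑ l, m l = 1 ∧
      (∀ l, MeasurableSet (L ⁻¹' {l})) ∧ (∀ l, π (L ⁻¹' {l}) = ENNReal.ofReal (m l)) ∧
      (∀ᵐ p ∂π, ‖p.1 - y (L p)‖ ≤ 2 * δ ∧ ‖p.2 - z (L p)‖ ≤ 2 * δ) ∧
      (∀ l, ∃ q ∈ Y, ‖y l - q‖ ≤ δ) ∧ (∀ l, ∃ q ∈ Y, ‖z l - q‖ ≤ δ) := by
  classical
  obtain ⟨t, Q, htY, htn, hQm, hQ⟩ := exists_net hYc hYn hδ
  -- the index map to pairs
  let L₀ : Eu d × Eu d → t × t := fun p => (Q p.1, Q p.2)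
  have hL₀ : ∀ l : t × t, MeasurableSet (L₀ ⁻¹' {l}) := by
    rintro ⟨i, j⟩
    have : L₀ ⁻¹' {(i, j)} = (Prod.fst ⁻¹' (Q ⁻¹' {i})) ∩ (Prod.snd ⁻¹' (Q ⁻¹' {j})) := by
      ext p
      simp [L₀, Prod.ext_iff]
    rw [this]
    exact (measurable_fst (hQm i)).inter (measurable_snd (hQm j))
  -- index set: pairs with positive mass
  let I : Type := {l : t × t // 0 < (π (L₀ ⁻¹' {l})).toReal}
  let m : I → ℝ := fun l => (π (L₀ ⁻¹' {l.1})).toReal
  have hsum0 : ∑ l : t × t, (π (L₀ ⁻¹' {l})).toReal = 1 := by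
    rw [← ENNReal.toReal_sum (fun _ _ => measure_ne_top _ _), sum_measure_fibers π L₀ hL₀]
    simp
  have hsum : ∑ l : I, m l = 1 := by
    have h := Finset.sum_subtype_eq_sum_filter (s := (Finset.univ : Finset (t × t)))
      (p := fun l => 0 < (π (L₀ ⁻¹' {l})).toReal) (fun l => (π (L₀ ⁻¹' {l})).toReal)
    rw [← hsum0, ← Finset.sum_filter_of_ne (p := fun l => 0 < (π (L₀ ⁻¹' {l})).toReal)
      (s := (Finset.univ : Finset (t × t))) (f := fun l => (π (L₀ ⁻¹' {l})).toReal)]
    · rw [← h]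
      simp only [m, I]
      have : (Finset.subtype (fun l => 0 < (π (L₀ ⁻¹' {l})).toReal) Finset.univ) = Finset.univ := by
        ext; simp
      rw [this]
    · intro l _ hne
      exact lt_of_le_of_ne ENNReal.toReal_nonneg (Ne.symm hne)
  have hI : Nonempty I := by
    by_contra hne
    rw [not_nonempty_iff] at hne
    simp at hsum
  let l₀ : I := hI.some
  -- the measurable retraction
  let F : t × t → I := fun l => if h : 0 < (π (L₀ ⁻¹' {l})).toReal then ⟨l, h⟩ else l₀
  let L : Eu d × Eu d → I := fun p => F (L₀ p)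
  have hF : ∀ l : I, F l.1 = l := fun l => by
    simp only [F]
    rw [dif_pos l.2]
  -- a.e. the retraction does nothing
  have hae : ∀ᵐ p ∂π, (L p).1 = L₀ p := by
    have hnull : ∀ l ∈ {l : t × t | ¬ 0 < (π (L₀ ⁻¹' {l})).toReal}, π (L₀ ⁻¹' {l}) = 0 := by
      intro l hl
      simp only [mem_ofPred_eq, not_lt] at hl
      have h0 : (π (L₀ ⁻¹' {l})).toReal = 0 := le_antisymm hl ENNReal.toReal_nonneg
      rcases (ENNReal.toReal_eq_zero_iff _).1 h0 with h | h
      · exact h
      · exact absurd h (measure_ne_top _ _)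
    have hU : π (⋃ l ∈ {l : t × t | ¬ 0 < (π (L₀ ⁻¹' {l})).toReal}, L₀ ⁻¹' {l}) = 0 :=
      (measure_biUnion_null_iff (to_countable _)).2 hnull
    filter_upwards [compl_mem_ae_iff.2 hU] with p hp
    simp only [mem_compl_iff, mem_iUnion, not_exists, mem_preimage, mem_singleton_iff] at hp
    have h1 : 0 < (π (L₀ ⁻¹' {L₀ p})).toReal := by
      by_contra h
      exact hp (L₀ p) h rfl
    simp only [L, F]
    rw [dif_pos h1]
  -- the atoms
  obtain ⟨ε, hε, hyinj, hzinj⟩ := exists_perturbation hd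
    (fun l : I => ((l.1.1 : t) : Eu d)) (fun l : I => ((l.1.2 : t) : Eu d)) hδ
  have hfib : ∀ l : I, L ⁻¹' {l} =ᵐ[π] L₀ ⁻¹' {l.1} := by
    intro l
    filter_upwards [hae] with p hp
    apply propext
    change L p = l ↔ L₀ p = l.1
    constructor
    · intro h
      rw [← hp, h]
    · intro h
      apply Subtype.ext
      rw [hp, h]
  have hLm : ∀ l : I, MeasurableSet (L ⁻¹' {l}) := by
    intro l
    have : L ⁻¹' {l} = ⋃ l' ∈ {l' : t × t | F l' = l}, L₀ ⁻¹' {l'} := by
      ext p
      simp [L]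
    rw [this]
    exact MeasurableSet.biUnion (to_countable _) (fun l' _ => hL₀ l')
  refine ⟨I, inferInstance, hI, fun l => ((l.1.1 : t) : Eu d) + ε l,
    fun l => ((l.1.2 : t) : Eu d) + ε l, m, L, hyinj, hzinj, fun l => l.2, hsum, hLm, ?_, ?_, ?_, ?_⟩
  · intro l
    rw [measure_congr (hfib l)]
    simp only [m]
    rw [ENNReal.ofReal_toReal (measure_ne_top _ _)]
  · filter_upwards [hae, h₁, h₂] with p hp hp1 hp2
    have hpL : (L p).1 = L₀ p := hp
    have e1 : ((L p).1.1 : Eu d) = Q p.1 := by rw [hpL]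
    have e2 : ((L p).1.2 : Eu d) = Q p.2 := by rw [hpL]
    constructor
    · have h1 := hQ p.1 hp1
      have h2 := hε (L p)
      calc ‖p.1 - (((L p).1.1 : Eu d) + ε (L p))‖
          = ‖(p.1 - (Q p.1 : Eu d)) - ε (L p)‖ := by rw [e1, sub_add_eq_sub_sub]
        _ ≤ ‖p.1 - (Q p.1 : Eu d)‖ + ‖ε (L p)‖ := norm_sub_le _ _
        _ ≤ 2 * δ := by linarith
    · have h1 := hQ p.2 hp2
      have h2 := hε (L p)
      calc ‖p.2 - (((L p).1.2 : Eu d) + ε (L p))‖
          = ‖(p.2 - (Q p.2 : Eu d)) - ε (L p)‖ := by rw [e2, sub_add_eq_sub_sub]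
        _ ≤ ‖p.2 - (Q p.2 : Eu d)‖ + ‖ε (L p)‖ := norm_sub_le _ _
        _ ≤ 2 * δ := by linarith
  · intro l
    refine ⟨_, htY l.1.1.2, ?_⟩
    simpa using hε l
  · intro l
    refine ⟨_, htY l.1.2.2, ?_⟩
    simpa using hε l

section Cells

variable {I : Type} [Fintype I] [Nonempty I]

/-- A measurable index map of the power diagram on the whole space. -/
lemma exists_cell_index (y : I → Eu d) (c : I → ℝ) :
    ∃ L : Eu d → I, (∀ l, MeasurableSet (L ⁻¹' {l})) ∧
      ∀ x j, ⟪x, y j⟫ - c j ≤ ⟪x, y (L x)⟫ - c (L x) := by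
  obtain ⟨L, h1, h2⟩ := exists_index_selection (I := I)
    (fun l => {x : Eu d | ∀ j, ⟪x, y j⟫ - c j ≤ ⟪x, y l⟫ - c l})
    (fun l => by
      have : {x : Eu d | ∀ j, ⟪x, y j⟫ - c j ≤ ⟪x, y l⟫ - c l} =
          ⋂ j, {x : Eu d | ⟪x, y j⟫ - c j ≤ ⟪x, y l⟫ - c l} := by
        ext x; simp
      rw [this]
      exact MeasurableSet.iInter fun j =>
        (isClosed_le (by fun_prop) (by fun_prop)).measurableSet)
    (fun x => by
      obtain ⟨l, hl⟩ := exists_pot_eq y c x
      exact ⟨l, fun j => by rw [hl]; exact le_pot y c x j⟩)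
  exact ⟨L, h2, fun x j => h1 x j⟩

lemma isPot_index (K : Set (Eu d)) (y : I → Eu d) (c : I → ℝ) (L : Eu d → I)
    (hL : ∀ x j, ⟪x, y j⟫ - c j ≤ ⟪x, y (L x)⟫ - c (L x)) :
    IsPot K (pot y c) (fun x => y (L x)) := by
  refine Filter.Eventually.of_forall (fun x x' => ?_)
  have h1 : pot y c x = ⟪x, y (L x)⟫ - c (L x) :=
    le_antisymm (pot_le y c x _ (hL x)) (le_pot y c x _)
  have h2 := le_pot y c x' (L x)
  rw [h1, inner_sub_right, real_inner_comm x' (y (L x)), real_inner_comm x (y (L x))]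
  linarith

/-- Masses of the fibres of the index map, from masses of the cells. -/
lemma fiber_mass_eq {K : Set (Eu d)} (y : I → Eu d) (c : I → ℝ) (L : Eu d → I)
    (hLm : ∀ l, MeasurableSet (L ⁻¹' {l}))
    (hL : ∀ x j, ⟪x, y j⟫ - c j ≤ ⟪x, y (L x)⟫ - c (L x))
    (ρ : Measure (Eu d)) [IsProbabilityMeasure ρ] (hρK : ρ Kᶜ = 0) (m : I → ℝ)
    (hm : ∀ l, 0 < m l) (hsum : ∑ l, m l = 1)
    (hcell : ∀ l, ρ (cell K y c l) = ENNReal.ofReal (m l)) (l : I) :
    ρ (L ⁻¹' {l}) = ENNReal.ofReal (m l) := by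
  classical
  have hle : ∀ l, ρ (L ⁻¹' {l}) ≤ ENNReal.ofReal (m l) := by
    intro l
    rw [← hcell l]
    have hsub : L ⁻¹' {l} ⊆ cell K y c l ∪ Kᶜ := by
      intro x hx
      simp only [mem_preimage, mem_singleton_iff] at hx
      by_cases hxK : x ∈ K
      · refine Or.inl ⟨hxK, fun j => ?_⟩
        rw [← hx]
        exact hL x j
      · exact Or.inr hxK
    calc ρ (L ⁻¹' {l}) ≤ ρ (cell K y c l ∪ Kᶜ) := measure_mono hsub
      _ ≤ ρ (cell K y c l) + ρ Kᶜ := measure_union_le _ _
      _ = ρ (cell K y c l) := by rw [hρK, add_zero]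
  have hs1 : ∑ l, ρ (L ⁻¹' {l}) = 1 := by
    rw [sum_measure_fibers ρ L hLm]; simp
  have hs2 : ∑ l, ENNReal.ofReal (m l) = 1 := by
    rw [← ENNReal.ofReal_sum_of_nonneg (fun l _ => (hm l).le), hsum]; simp
  have htop : ∑ l, ρ (L ⁻¹' {l}) ≠ ⊤ := by rw [hs1]; simp
  have hreal : ∀ l, (ρ (L ⁻¹' {l})).toReal ≤ m l := fun l =>
    ENNReal.toReal_le_of_le_ofReal (hm l).le (hle l)
  have hsr : ∑ l, (ρ (L ⁻¹' {l})).toReal = ∑ l, m l := by
    rw [← ENNReal.toReal_sum (fun _ _ => measure_ne_top _ _), hs1, hsum]; simp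
  have := (Finset.sum_eq_sum_iff_of_le (fun l _ => hreal l)).1 hsr l (Finset.mem_univ l)
  rw [← this, ENNReal.ofReal_toReal (measure_ne_top _ _)]

end Cells

end Crest.Agent.OT
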