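import Mathlib
import Crest.Agent.Lib.OT.Basic

/-!
# Semi-discrete existence of heights (module M3 of the OT row)
-/

set_option autoImplicit false
open MeasureTheory Set
open scoped ENNReal NNReal RealInnerProductSpace

namespace Crest.Agent.OT

variable {d : ℕ} {I : Type} [Fintype I] [Nonempty I]

set_option linter.unusedSectionVars false
set_option linter.unusedVariables false

lemma pot_shift_const (y : I → Eu d) (c : I → ℝ) (κ : ℝ) (x : Eu d) :
    pot y (fun l => c l + κ) x = pot y c x - κ := by
  apply le_antisymm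
  · refine pot_le _ _ _ _ (fun l => ?_)
    have := le_pot y c x l
    linarith
  · have : pot y c x ≤ pot y (fun l => c l + κ) x + κ := by
      refine pot_le _ _ _ _ (fun l => ?_)
      have h := le_pot y (fun l => c l + κ) x l
      have h' : ⟪x, y l⟫ - (c l + κ) ≤ pot y (fun l => c l + κ) x := h
      linarith
    linarith

lemma pot_lip (y : I → Eu d) (c c' : I → ℝ) (δ : ℝ) (h : ∀ l, |c l - c' l| ≤ δ) (x : Eu d) :
    |pot y c x - pot y c' x| ≤ δ := by
  rw [abs_le]
  constructor
  · have : pot y c' x ≤ pot y c x + δ := by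
      refine pot_le _ _ _ _ (fun l => ?_)
      have h1 := le_pot y c x l
      have h2 := abs_le.1 (h l)
      linarith [h2.1, h2.2]
    linarith
  · have : pot y c x ≤ pot y c' x + δ := by
      refine pot_le _ _ _ _ (fun l => ?_)
      have h1 := le_pot y c' x l
      have h2 := abs_le.1 (h l)
      linarith [h2.1, h2.2]
    linarith

/-- Bound on the inner products on the compact set. -/
lemma exists_inner_bound {K : Set (Eu d)} (hKc : IsCompact K) (y : I → Eu d) :
    ∃ R : ℝ, 0 ≤ R ∧ ∀ x ∈ K, ∀ l, |⟪x, y l⟫| ≤ R := by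
  obtain ⟨R₀, hR₀⟩ := hKc.isBounded.exists_norm_le
  refine ⟨|R₀| * ∑ l, ‖y l‖, by positivity, fun x hx l => ?_⟩
  calc |⟪x, y l⟫| ≤ ‖x‖ * ‖y l‖ := abs_real_inner_le_norm _ _
    _ ≤ |R₀| * ∑ l, ‖y l‖ := by
      refine mul_le_mul ((hR₀ x hx).trans (le_abs_self _)) ?_ (norm_nonneg _) (abs_nonneg _)
      exact Finset.single_le_sum (f := fun l => ‖y l‖) (fun _ _ => norm_nonneg _) (Finset.mem_univ l)

variable {K : Set (Eu d)}

lemma ae_mem_K {ν : Measure (Eu d)} (hνK : ν Kᶜ = 0) : ∀ᵐ x ∂ν, x ∈ K := by
  rw [ae_iff]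
  exact hνK

lemma integrable_pot (hKc : IsCompact K) (y : I → Eu d) (c : I → ℝ)
    (ν : Measure (Eu d)) [IsProbabilityMeasure ν] (hνK : ν Kᶜ = 0) :
    Integrable (pot y c) ν := by
  obtain ⟨R, hR0, hR⟩ := exists_inner_bound hKc y
  refine Integrable.of_bound (continuous_pot y c).aestronglyMeasurable (R + ∑ l, |c l|) ?_
  filter_upwards [ae_mem_K hνK] with x hx
  have hsum : ∀ l, |c l| ≤ ∑ l, |c l| := fun l =>
    Finset.single_le_sum (f := fun l => |c l|) (fun _ _ => abs_nonneg _) (Finset.mem_univ l)
  rw [Real.norm_eq_abs, abs_le]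
  constructor
  · obtain ⟨l⟩ := ‹Nonempty I›
    have h1 := le_pot y c x l
    have h2 := abs_le.1 (hR x hx l)
    have h3 := abs_le.1 (hsum l |>.trans' (le_refl _))
    have h4 := le_abs_self (c l)
    linarith [h2.1, hsum l]
  · refine pot_le _ _ _ _ (fun l => ?_)
    have h2 := abs_le.1 (hR x hx l)
    have h4 := neg_abs_le (c l)
    linarith [h2.2, hsum l]

/-- The Kantorovich functional. -/
noncomputable def kant (y : I → Eu d) (m : I → ℝ) (ν : Measure (Eu d)) (c : I → ℝ) : ℝ :=
  ∫ x, pot y c x ∂ν + ∑ l, m l * c l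

lemma kant_shift (hKc : IsCompact K) (y : I → Eu d) (m : I → ℝ) (hsum : ∑ l, m l = 1)
    (ν : Measure (Eu d)) [IsProbabilityMeasure ν] (hνK : ν Kᶜ = 0) (c : I → ℝ) (κ : ℝ) :
    kant y m ν (fun l => c l + κ) = kant y m ν c := by
  unfold kant
  simp only [pot_shift_const]
  rw [integral_sub (integrable_pot hKc y c ν hνK) (integrable_const _)]
  simp only [integral_const, probReal_univ, one_smul, mul_add, Finset.sum_add_distrib,
    ← Finset.sum_mul, hsum, one_mul]
  ring

lemma kant_continuous (hKc : IsCompact K) (y : I → Eu d) (m : I → ℝ)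
    (ν : Measure (Eu d)) [IsProbabilityMeasure ν] (hνK : ν Kᶜ = 0) :
    Continuous (kant y m ν) := by
  unfold kant
  refine Continuous.add ?_ (by fun_prop)
  have : LipschitzWith 1 (fun c : I → ℝ => ∫ x, pot y c x ∂ν) := by
    refine LipschitzWith.of_dist_le_mul (fun c c' => ?_)
    rw [Real.dist_eq, ← integral_sub (integrable_pot hKc y c ν hνK) (integrable_pot hKc y c' ν hνK)]
    have hb : ∀ᵐ x ∂ν, ‖pot y c x - pot y c' x‖ ≤ dist c c' := by
      refine Filter.Eventually.of_forall (fun x => ?_)
      rw [Real.norm_eq_abs]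
      refine pot_lip y c c' _ (fun l => ?_) x
      rw [← Real.dist_eq]
      exact dist_le_pi_dist c c' l
    have := norm_integral_le_of_norm_le_const hb
    simpa using this
  exact this.continuous

lemma kant_lower (hKc : IsCompact K) (y : I → Eu d) (m : I → ℝ) (hm : ∀ l, 0 < m l)
    (ν : Measure (Eu d)) [IsProbabilityMeasure ν] (hνK : ν Kᶜ = 0) (R : ℝ)
    (hR : ∀ x ∈ K, ∀ l, |⟪x, y l⟫| ≤ R) (c : I → ℝ) (hc0 : ∀ l, 0 ≤ c l) (l₀ : I) (hl₀ : c l₀ = 0)
    (l : I) : -R + m l * c l ≤ kant y m ν c := by
  unfold kant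
  have h1 : -R ≤ ∫ x, pot y c x ∂ν := by
    have hconst : ∫ _x : Eu d, -R ∂ν = -R := by simp
    rw [← hconst]
    refine integral_mono_ae (integrable_const _) (integrable_pot hKc y c ν hνK) ?_
    filter_upwards [ae_mem_K hνK] with x hx
    have h2 := le_pot y c x l₀
    have h3 := abs_le.1 (hR x hx l₀)
    rw [hl₀] at h2
    linarith [h3.1]
  have h2 : m l * c l ≤ ∑ l, m l * c l :=
    Finset.single_le_sum (f := fun l => m l * c l)
      (fun l _ => mul_nonneg (hm l).le (hc0 l)) (Finset.mem_univ l)
  linarith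

/-- The Kantorovich functional has a global minimiser. -/
lemma exists_kant_min (hKc : IsCompact K) (y : I → Eu d) (m : I → ℝ) (hm : ∀ l, 0 < m l)
    (hsum : ∑ l, m l = 1) (ν : Measure (Eu d)) [IsProbabilityMeasure ν] (hνK : ν Kᶜ = 0) :
    ∃ c : I → ℝ, ∀ c', kant y m ν c ≤ kant y m ν c' := by
  obtain ⟨R, hR0, hR⟩ := exists_inner_bound hKc y
  set Φ₀ := kant y m ν (fun _ => 0) with hΦ₀
  set M : ℝ := ∑ l, (|Φ₀| + R) / m l with hM
  have hM0 : 0 ≤ M := Finset.sum_nonneg (fun l _ => div_nonneg (by positivity) (hm l).le)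
  obtain ⟨c, hc, hcmin⟩ := (isCompact_Icc (a := (fun _ => 0 : I → ℝ)) (b := fun _ => M)).exists_isMinOn
    (nonempty_Icc.2 (fun _ => hM0)) (kant_continuous hKc y m ν hνK).continuousOn
  refine ⟨c, fun c' => ?_⟩
  have hc0 : kant y m ν c ≤ Φ₀ := hcmin (show (fun _ => 0 : I → ℝ) ∈ Icc _ _ from
    ⟨le_rfl, fun _ => hM0⟩)
  -- normalise c'
  obtain ⟨l₀, hl₀⟩ := Finite.exists_min c'
  set c'' : I → ℝ := fun l => c' l + (-(c' l₀)) with hc''
  have hshift : kant y m ν c'' = kant y m ν c' := kant_shift hKc y m hsum ν hνK c' _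
  have hnn : ∀ l, 0 ≤ c'' l := fun l => by
    simp only [hc'']
    linarith [hl₀ l]
  have hz : c'' l₀ = 0 := by simp [hc'']
  by_cases hcase : kant y m ν c'' ≤ Φ₀
  · have hmem : c'' ∈ Icc (fun _ => 0 : I → ℝ) (fun _ => M) := by
      refine ⟨hnn, fun l => ?_⟩
      have h1 := kant_lower hKc y m hm ν hνK R hR c'' hnn l₀ hz l
      have h2 : m l * c'' l ≤ |Φ₀| + R := by
        have := le_abs_self Φ₀
        linarith
      have h3 : c'' l ≤ (|Φ₀| + R) / m l := by
        rw [le_div_iff₀ (hm l)]
        linarith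
      refine h3.trans ?_
      exact Finset.single_le_sum (f := fun l => (|Φ₀| + R) / m l)
        (fun l _ => div_nonneg (by positivity) (hm l).le) (Finset.mem_univ l)
    have := hcmin hmem
    rw [← hshift]
    exact this
  · push Not at hcase
    rw [← hshift]
    linarith

/-- The pointwise comparison of potentials after lowering one height. -/
lemma pot_update_le [DecidableEq I] (y : I → Eu d) (c : I → ℝ) (l : I) (t : ℝ) (ht : 0 ≤ t)
    {x : Eu d} (hx : x ∈ K) :
    pot y (Function.update c l (c l - t)) x ≤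
      pot y c x + (cell K y (Function.update c l (c l - t)) l).indicator (fun _ => t) x := by
  set c' := Function.update c l (c l - t) with hc'
  have hcl : c' l = c l - t := by simp [hc']
  have hcj : ∀ j, j ≠ l → c' j = c j := fun j hj => by simp [hc', hj]
  by_cases hmem : x ∈ cell K y c' l
  · rw [indicator_of_mem hmem, pot_eq_of_mem_cell hmem, hcl]
    have := le_pot y c x l
    linarith
  · rw [indicator_of_notMem hmem, add_zero]
    obtain ⟨j, hj⟩ := exists_pot_eq y c' x
    have hjl : j ≠ l := by
      rintro rfl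
      exact hmem ⟨hx, fun j' => by rw [hj]; exact le_pot y c' x j'⟩
    rw [← hj, hcj j hjl]
    exact le_pot y c x j

/-- Semi-discrete existence of heights. -/
theorem exists_heights {K : Set (Eu d)} (hKc : IsCompact K)
    (y : I → Eu d) (hy : Function.Injective y) (m : I → ℝ) (hm : ∀ l, 0 < m l)
    (hsum : ∑ l, m l = 1)
    (ν : Measure (Eu d)) [IsProbabilityMeasure ν] (hac : ν ≪ volume) (hνK : ν Kᶜ = 0) :
    ∃ c : I → ℝ, ∀ l, ν (cell K y c l) = ENNReal.ofReal (m l) := by
  classical
  obtain ⟨c, hc⟩ := exists_kant_min hKc y m hm hsum ν hνK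
  have hKm : MeasurableSet K := hKc.measurableSet
  refine ⟨c, ?_⟩
  -- lower bound for perturbed cells
  have hpert : ∀ (l : I) (t : ℝ), 0 < t →
      ENNReal.ofReal (m l) ≤ ν (cell K y (Function.update c l (c l - t)) l) := by
    intro l t ht
    set c' := Function.update c l (c l - t) with hc'
    have h1 := hc c'
    have hmeas : MeasurableSet (cell K y c' l) := measurableSet_cell hKm y c' l
    have hint : ∫ x, pot y c' x ∂ν ≤ ∫ x, pot y c x ∂ν + ν.real (cell K y c' l) * t := by
      have hind : ∫ x, (cell K y c' l).indicator (fun _ => t) x ∂ν = ν.real (cell K y c' l) * t := by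
        rw [integral_indicator_const _ hmeas]
        simp
      rw [← hind, ← integral_add (integrable_pot hKc y c ν hνK)
        ((integrable_const t).indicator hmeas)]
      refine integral_mono_ae (integrable_pot hKc y c' ν hνK)
        ((integrable_pot hKc y c ν hνK).add ((integrable_const t).indicator hmeas)) ?_
      filter_upwards [ae_mem_K hνK] with x hx
      exact pot_update_le y c l t ht.le hx
    have hsumdiff : ∑ j, m j * c' j = ∑ j, m j * c j - m l * t := by
      have : ∀ j, m j * c' j = m j * c j - (if j = l then m l * t else 0) := by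
        intro j
        by_cases hj : j = l
        · subst hj
          simp [hc']
          ring
        · simp [hc', hj]
      simp only [this, Finset.sum_sub_distrib, Finset.sum_ite_eq', Finset.mem_univ, if_true]
    have h2 : m l * t ≤ ν.real (cell K y c' l) * t := by
      unfold kant at h1
      rw [hsumdiff] at h1
      linarith
    have h3 : m l ≤ ν.real (cell K y c' l) := le_of_mul_le_mul_right h2 ht
    rw [ENNReal.ofReal_le_iff_le_toReal (measure_ne_top _ _)]
    exact h3
  -- pass to the limit
  have hlow : ∀ l, ENNReal.ofReal (m l) ≤ ν (cell K y c l) := by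
    intro l
    set A : ℕ → Set (Eu d) := fun n =>
      cell K y (Function.update c l (c l - 1 / ((n : ℝ) + 1))) l with hA
    have hcell : ∀ (t : ℝ) (x : Eu d), x ∈ cell K y (Function.update c l (c l - t)) l ↔
        x ∈ K ∧ ∀ j, j ≠ l → ⟪x, y j⟫ - c j ≤ ⟪x, y l⟫ - c l + t := by
      intro t x
      constructor
      · rintro ⟨hx, h⟩
        refine ⟨hx, fun j hj => ?_⟩
        have := h j
        simp only [Function.update_self, Function.update_of_ne hj] at this
        linarith
      · rintro ⟨hx, h⟩
        refine ⟨hx, fun j => ?_⟩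
        by_cases hj : j = l
        · subst hj
          exact le_rfl
        · simp only [Function.update_self, Function.update_of_ne hj]
          have := h j hj
          linarith
    have hanti : Antitone A := by
      intro n n' hnn x hx
      rw [hA] at hx ⊢
      simp only at hx ⊢
      rw [hcell] at hx ⊢
      refine ⟨hx.1, fun j hj => (hx.2 j hj).trans ?_⟩
      have : (1 : ℝ) / ((n' : ℝ) + 1) ≤ 1 / ((n : ℝ) + 1) := by
        apply one_div_le_one_div_of_le (by positivity)
        have : (n : ℝ) ≤ n' := by exact_mod_cast hnn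
        linarith
      linarith
    have hinter : ⋂ n, A n = cell K y c l := by
      ext x
      simp only [mem_iInter, hA]
      constructor
      · intro h
        have hx : x ∈ K := ((hcell _ x).1 (h 0)).1
        refine ⟨hx, fun j => ?_⟩
        by_cases hj : j = l
        · subst hj
          exact le_rfl
        · refine le_of_forall_pos_le_add (fun ε hε => ?_)
          obtain ⟨n, hn⟩ := exists_nat_one_div_lt hε
          have := ((hcell _ x).1 (h n)).2 j hj
          linarith
      · rintro ⟨hx, h⟩ n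
        refine (hcell _ x).2 ⟨hx, fun j _ => (h j).trans ?_⟩
        have : (0 : ℝ) ≤ 1 / ((n : ℝ) + 1) := by positivity
        linarith
    have htend := tendsto_measure_iInter_atTop (μ := ν)
      (fun n => (measurableSet_cell hKm y _ l).nullMeasurableSet) hanti ⟨0, measure_ne_top _ _⟩
    rw [hinter] at htend
    refine ge_of_tendsto' htend (fun n => ?_)
    exact hpert l _ (by positivity)
  -- total mass
  have hdisj : Pairwise (Function.onFun (AEDisjoint ν) (cell K y c)) := by
    intro l j hlj
    exact hac (cell_inter_null hy c hlj)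
  have htot : ∑ l, ν (cell K y c l) ≤ 1 := by
    have := measure_iUnion₀ hdisj
      (fun l => (measurableSet_cell hKm y c l).nullMeasurableSet)
    rw [tsum_fintype] at this
    rw [← this]
    exact prob_le_one
  have hsum1 : ∑ l, ENNReal.ofReal (m l) = 1 := by
    rw [← ENNReal.ofReal_sum_of_nonneg (fun l _ => (hm l).le), hsum, ENNReal.ofReal_one]
  intro l
  by_contra hne
  have hlt : ENNReal.ofReal (m l) < ν (cell K y c l) := lt_of_le_of_ne (hlow l) (Ne.symm hne)
  have hstrict : ∑ l, ENNReal.ofReal (m l) < ∑ l, ν (cell K y c l) := by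
    rw [← Finset.add_sum_erase _ _ (Finset.mem_univ l),
      ← Finset.add_sum_erase (a := l) (f := fun l => ν (cell K y c l)) _ (Finset.mem_univ l)]
    refine ENNReal.add_lt_add_of_lt_of_le ?_ hlt (Finset.sum_le_sum fun j _ => hlow j)
    exact ENNReal.sum_ne_top.2 (fun j _ => ENNReal.ofReal_ne_top)
  rw [hsum1] at hstrict
  exact absurd htot (not_le.mpr hstrict)

end Crest.Agent.OT
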