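import Mathlib
import Crest.Agent.Lib.OT.Basic
import Crest.Agent.Lib.OT.Exist
import Crest.Agent.Lib.OT.Discretize

/-!
# Assembly of the stability theorem (module M7 of the OT row)

`assembly` deduces the final statement of S0109 from the module theorems (potentials of optimal
maps, Gagliardo-Nirenberg, crude stability, and the variance bound for finitely many atoms), which
are taken as hypotheses with exactly the signatures of the blueprint.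
-/

set_option autoImplicit false
open MeasureTheory Set Filter Topology
open scoped ENNReal NNReal RealInnerProductSpace
open Crest.AnalysisR.OT

namespace Crest.Agent.OT

variable {d : ℕ}

lemma uniform_isProb {K : Set (Eu d)} (hKc : IsCompact K) (hKi : (interior K).Nonempty) :
    IsProbabilityMeasure (uniformProbOn K) := by
  constructor
  have h0 : volume K ≠ 0 := by
    have h1 : 0 < volume (interior K) := isOpen_interior.measure_pos volume hKi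
    exact (lt_of_lt_of_le h1 (measure_mono interior_subset)).ne'
  have h2 : volume K ≠ ⊤ := hKc.measure_lt_top.ne
  simp only [uniformProbOn, Measure.smul_apply, smul_eq_mul, Measure.restrict_apply_univ]
  exact ENNReal.inv_mul_cancel h0 h2

lemma uniform_ac (K : Set (Eu d)) : uniformProbOn K ≪ volume :=
  (Measure.absolutelyContinuous_of_le Measure.restrict_le_self).smul_left _

lemma uniform_compl {K : Set (Eu d)} (hKc : IsCompact K) : uniformProbOn K Kᶜ = 0 := by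
  simp [uniformProbOn, Measure.restrict_apply hKc.isClosed.measurableSet.compl]

/-- The type of the crude bound, for fixed `K`, `R`, `C`. -/
def CrudeStmt (K : Set (Eu d)) (R C : ℝ) : Prop :=
  ∀ (φ₀ φ₁ : Eu d → ℝ) (T₀ T₁ : Eu d → Eu d), Continuous φ₀ → Continuous φ₁ → Measurable T₀ →
    Measurable T₁ → IsPot K φ₀ T₀ → IsPot K φ₁ T₁ → (∀ᵐ x ∂(volume.restrict K), ‖T₀ x‖ ≤ R) →
    (∀ᵐ x ∂(volume.restrict K), ‖T₁ x‖ ≤ R) → ∀ π : Measure (Eu d × Eu d),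
    π.map Prod.fst = (uniformProbOn K).map T₀ → π.map Prod.snd = (uniformProbOn K).map T₁ →
    (∫ x in K, ‖T₀ x - T₁ x‖ ^ 2) ^ 2 ≤ C * ∫ p, ‖p.1 - p.2‖ ∂π

/-- The type of the Gagliardo-Nirenberg bound, for fixed `K`, `R`, `C`. -/
def GnStmt (K : Set (Eu d)) (R C : ℝ) : Prop :=
  ∀ (φ₀ φ₁ : Eu d → ℝ) (T₀ T₁ : Eu d → Eu d), Continuous φ₀ → Continuous φ₁ → Measurable T₀ →
    Measurable T₁ → IsPot K φ₀ T₀ → IsPot K φ₁ T₁ → (∀ᵐ x ∂(volume.restrict K), ‖T₀ x‖ ≤ R) →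
    (∀ᵐ x ∂(volume.restrict K), ‖T₁ x‖ ≤ R) →
    ∀ a : ℝ, (∫ x in K, ‖T₀ x - T₁ x‖ ^ 2) ^ 3 ≤ C * ∫ x in K, (φ₀ x - φ₁ x - a) ^ 2

/-- The type of the variance bound for finitely many atoms, for fixed `K`, `C`. -/
def AtomsStmt (K : Set (Eu d)) (C : ℝ) : Prop :=
  ∀ {I : Type} [Fintype I] [Nonempty I] (y z : I → Eu d) (m : I → ℝ),
    Function.Injective y → Function.Injective z → (∀ l, 0 < m l) → ∑ l, m l = 1 →
    ∀ c0 c1 : I → ℝ,
    (∀ l, uniformProbOn K (cell K y c0 l) = ENNReal.ofReal (m l)) →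
    (∀ l, uniformProbOn K (cell K z c1 l) = ENNReal.ofReal (m l)) →
    ∃ a : ℝ, ∫ x in K, (pot y c0 x - pot z c1 x - a) ^ 2 ≤ C * ∑ l, m l * ‖y l - z l‖ ^ 2

lemma CrudeStmt.mono {K : Set (Eu d)} {R C C' : ℝ} (h : CrudeStmt K R C) (hC : C ≤ C') :
    CrudeStmt K R C' := by
  intro φ₀ φ₁ T₀ T₁ h1 h2 h3 h4 h5 h6 h7 h8 π h9 h10
  refine (h φ₀ φ₁ T₀ T₁ h1 h2 h3 h4 h5 h6 h7 h8 π h9 h10).trans ?_
  exact mul_le_mul_of_nonneg_right hC (integral_nonneg fun p => norm_nonneg _)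

lemma GnStmt.mono {K : Set (Eu d)} {R C C' : ℝ} (h : GnStmt K R C) (hC : C ≤ C') :
    GnStmt K R C' := by
  intro φ₀ φ₁ T₀ T₁ h1 h2 h3 h4 h5 h6 h7 h8 a
  refine (h φ₀ φ₁ T₀ T₁ h1 h2 h3 h4 h5 h6 h7 h8 a).trans ?_
  exact mul_le_mul_of_nonneg_right hC (integral_nonneg fun p => sq_nonneg _)

lemma AtomsStmt.mono {K : Set (Eu d)} {C C' : ℝ} (h : AtomsStmt K C) (hC : C ≤ C') :
    AtomsStmt K C' := by
  intro I _ _ y z m h1 h2 h3 h4 c0 c1 h5 h6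
  obtain ⟨a, ha⟩ := h y z m h1 h2 h3 h4 c0 c1 h5 h6
  refine ⟨a, ha.trans ?_⟩
  exact mul_le_mul_of_nonneg_right hC
    (Finset.sum_nonneg fun l _ => mul_nonneg (h3 l).le (sq_nonneg _))

/-- One-sided approximation: the transport map `T` is close to a power-diagram map whose target is
the discretized measure. -/
lemma one_side_bound {K : Set (Eu d)} (hKc : IsCompact K) (hKi : (interior K).Nonempty)
    {R C : ℝ} (hC0 : 0 ≤ C) (hC : CrudeStmt K R C)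
    {π : Measure (Eu d × Eu d)} [IsProbabilityMeasure π] (f : Eu d × Eu d → Eu d)
    (hf : Measurable f) {φ : Eu d → ℝ} {T : Eu d → Eu d} (hφ : Continuous φ) (hT : Measurable T)
    (hpot : IsPot K φ T) (hTR : ∀ᵐ x ∂(volume.restrict K), ‖T x‖ ≤ R)
    (hmap : π.map f = (uniformProbOn K).map T)
    {I : Type} [Fintype I] [Nonempty I] (y : I → Eu d) (m : I → ℝ) (hm : ∀ l, 0 < m l)
    (hsum : ∑ l, m l = 1) (L : Eu d × Eu d → I) (hLm : ∀ l, MeasurableSet (L ⁻¹' {l}))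
    (hLmass : ∀ l, π (L ⁻¹' {l}) = ENNReal.ofReal (m l)) {ε : ℝ}
    (hclose : ∀ᵐ p ∂π, ‖f p - y (L p)‖ ≤ ε) (hyR : ∀ l, ‖y l‖ ≤ R) (c : I → ℝ)
    (hcell : ∀ l, uniformProbOn K (cell K y c l) = ENNReal.ofReal (m l)) :
    ∃ T' : Eu d → Eu d, Measurable T' ∧ IsPot K (pot y c) T' ∧ (∀ x, ‖T' x‖ ≤ R) ∧
      (∫ x in K, ‖T x - T' x‖ ^ 2) ^ 2 ≤ C * ε := by
  classical
  have := uniform_isProb hKc hKi
  obtain ⟨L', hL'm, hL'⟩ := exists_cell_index y c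
  have hT'm : Measurable (fun x => y (L' x)) := measurable_comp_index L' hL'm y
  have hyLm : Measurable (fun p => y (L p)) := measurable_comp_index L hLm y
  refine ⟨fun x => y (L' x), hT'm, isPot_index K y c L' hL', fun x => hyR _, ?_⟩
  have hpm : Measurable (fun p : Eu d × Eu d => (f p, y (L p))) := hf.prodMk hyLm
  have h1 : (π.map (fun p => (f p, y (L p)))).map Prod.fst = (uniformProbOn K).map T := by
    rw [Measure.map_map measurable_fst hpm, ← hmap]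
    rfl
  have h2 : (π.map (fun p => (f p, y (L p)))).map Prod.snd =
      (uniformProbOn K).map (fun x => y (L' x)) := by
    rw [Measure.map_map measurable_snd hpm]
    have e1 : Prod.snd ∘ (fun p : Eu d × Eu d => (f p, y (L p))) = fun p => y (L p) := rfl
    rw [e1, map_comp_index π L hLm y, map_comp_index _ L' hL'm y]
    refine Finset.sum_congr rfl (fun l _ => ?_)
    rw [hLmass l, fiber_mass_eq y c L' hL'm hL' (uniformProbOn K) (uniform_compl hKc) m hm hsum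
      hcell l]
  have h3 := hC φ (pot y c) T (fun x => y (L' x)) hφ (continuous_pot y c) hT hT'm hpot
    (isPot_index K y c L' hL') hTR (Eventually.of_forall fun x => hyR _) _ h1 h2
  refine h3.trans (mul_le_mul_of_nonneg_left ?_ hC0)
  rw [integral_map hpm.aemeasurable (by fun_prop)]
  have h4 : ∫ p, ‖f p - y (L p)‖ ∂π ≤ ∫ _, ε ∂π := by
    refine integral_mono_of_nonneg (Eventually.of_forall fun p => norm_nonneg _)
      (integrable_const _) hclose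
  simpa using h4

lemma integrable_sq_norm_sub {K : Set (Eu d)} (hKc : IsCompact K) {R : ℝ} {U V : Eu d → Eu d}
    (hU : Measurable U) (hV : Measurable V) (hUR : ∀ᵐ x ∂(volume.restrict K), ‖U x‖ ≤ R)
    (hVR : ∀ᵐ x ∂(volume.restrict K), ‖V x‖ ≤ R) :
    Integrable (fun x => ‖U x - V x‖ ^ 2) (volume.restrict K) := by
  have : IsFiniteMeasure (volume.restrict K) := ⟨by simpa using hKc.measure_lt_top⟩
  refine Integrable.of_bound (C := (R + R) ^ 2) (by fun_prop) ?_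
  filter_upwards [hUR, hVR] with x h1 h2
  have h3 : ‖U x - V x‖ ≤ R + R := (norm_sub_le _ _).trans (add_le_add h1 h2)
  rw [Real.norm_eq_abs, abs_of_nonneg (by positivity)]
  exact pow_le_pow_left₀ (norm_nonneg _) h3 2

lemma le_cbrt_of_cube_le {B Z : ℝ} (hB : 0 ≤ B) (h : B ^ 3 ≤ Z) : B ≤ Z ^ (1 / 3 : ℝ) := by
  have h1 : B = (B ^ 3) ^ (1 / 3 : ℝ) := by
    rw [← Real.rpow_natCast, ← Real.rpow_mul hB]
    norm_num
  rw [h1]
  exact Real.rpow_le_rpow (by positivity) h (by norm_num)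

/-- The bound for a fixed discretization scale `δ`. -/
lemma step_bound (hd : 1 ≤ d) {K : Set (Eu d)} (hKc : IsCompact K) (hKi : (interior K).Nonempty)
    {Y : Set (Eu d)} (hYc : IsCompact Y) (hYn : Y.Nonempty) {R C₁ C₂ C₃ : ℝ}
    (hYR : ∀ q ∈ Y, ‖q‖ + 1 ≤ R) (hC₁0 : 0 ≤ C₁) (hC₂0 : 0 ≤ C₂) (hC₃0 : 0 ≤ C₃)
    (hC₁ : AtomsStmt K C₁) (hC₂ : GnStmt K R C₂) (hC₃ : CrudeStmt K R C₃)
    {π : Measure (Eu d × Eu d)} [IsProbabilityMeasure π]
    (h₁ : ∀ᵐ p ∂π, p.1 ∈ Y) (h₂ : ∀ᵐ p ∂π, p.2 ∈ Y)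
    {T₀ T₁ : Eu d → Eu d} {φ₀ φ₁ : Eu d → ℝ} (hφ₀ : Continuous φ₀) (hφ₁ : Continuous φ₁)
    (hT₀ : Measurable T₀) (hT₁ : Measurable T₁) (hp₀ : IsPot K φ₀ T₀) (hp₁ : IsPot K φ₁ T₁)
    (hT₀R : ∀ᵐ x ∂(volume.restrict K), ‖T₀ x‖ ≤ R) (hT₁R : ∀ᵐ x ∂(volume.restrict K), ‖T₁ x‖ ≤ R)
    (hm₀ : π.map Prod.fst = (uniformProbOn K).map T₀)
    (hm₁ : π.map Prod.snd = (uniformProbOn K).map T₁)
    {δ : ℝ} (hδ : 0 < δ) (hδ1 : δ ≤ 1) :
    ∫ x in K, ‖T₀ x - T₁ x‖ ^ 2 ≤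
      3 * (√(C₃ * (2 * δ)) + (C₂ * (C₁ * (2 * ∫ p, ‖p.1 - p.2‖ ^ 2 ∂π + 32 * δ ^ 2))) ^ (1 / 3 : ℝ)
        + √(C₃ * (2 * δ))) := by
  classical
  have hρ := uniform_isProb hKc hKi
  have : IsFiniteMeasure (volume.restrict K) := ⟨by simpa using hKc.measure_lt_top⟩
  obtain ⟨I, _, _, y, z, m, L, hy, hz, hm, hsum, hLm, hLmass, hclose, hyY, hzY⟩ :=
    exists_discretization hd hYc hYn π h₁ h₂ hδ
  have hyR : ∀ l, ‖y l‖ ≤ R := fun l => by
    obtain ⟨q, hq, hyq⟩ := hyY l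
    have h1 := hYR q hq
    have h2 : ‖y l‖ ≤ ‖y l - q‖ + ‖q‖ := by
      simpa using norm_add_le (y l - q) q
    linarith
  have hzR : ∀ l, ‖z l‖ ≤ R := fun l => by
    obtain ⟨q, hq, hyq⟩ := hzY l
    have h1 := hYR q hq
    have h2 : ‖z l‖ ≤ ‖z l - q‖ + ‖q‖ := by
      simpa using norm_add_le (z l - q) q
    linarith
  obtain ⟨c0, hc0⟩ := exists_heights hKc y hy m hm hsum (uniformProbOn K) (uniform_ac K)
    (uniform_compl hKc)
  obtain ⟨c1, hc1⟩ := exists_heights hKc z hz m hm hsum (uniformProbOn K) (uniform_ac K)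
    (uniform_compl hKc)
  obtain ⟨S₀, hS₀m, hS₀p, hS₀R, hS₀⟩ := one_side_bound hKc hKi hC₃0 hC₃ Prod.fst measurable_fst
    hφ₀ hT₀ hp₀ hT₀R hm₀ y m hm hsum L hLm hLmass
    (hclose.mono fun p hp => hp.1) hyR c0 hc0
  obtain ⟨S₁, hS₁m, hS₁p, hS₁R, hS₁⟩ := one_side_bound hKc hKi hC₃0 hC₃ Prod.snd measurable_snd
    hφ₁ hT₁ hp₁ hT₁R hm₁ z m hm hsum L hLm hLmass
    (hclose.mono fun p hp => hp.2) hzR c1 hc1
  have hS₀R' : ∀ᵐ x ∂(volume.restrict K), ‖S₀ x‖ ≤ R := Eventually.of_forall hS₀R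
  have hS₁R' : ∀ᵐ x ∂(volume.restrict K), ‖S₁ x‖ ≤ R := Eventually.of_forall hS₁R
  obtain ⟨a, ha⟩ := hC₁ y z m hy hz hm hsum c0 c1 hc0 hc1
  have hB := hC₂ _ _ S₀ S₁ (continuous_pot y c0) (continuous_pot z c1) hS₀m hS₁m hS₀p hS₁p
    hS₀R' hS₁R' a
  -- the sum over atoms is at most the cost
  have hR0 : 0 ≤ R := by
    obtain ⟨q, hq⟩ := hYn
    have := hYR q hq
    have := norm_nonneg q
    linarith
  have hcost_int : Integrable (fun p : Eu d × Eu d => ‖p.1 - p.2‖ ^ 2) π := by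
    refine Integrable.of_bound (C := ((R + R) ^ 2)) (by fun_prop) ?_
    filter_upwards [h₁, h₂] with p hp1 hp2
    have h1 := hYR _ hp1
    have h2 := hYR _ hp2
    have h3 : ‖p.1 - p.2‖ ≤ R + R := (norm_sub_le _ _).trans (by linarith)
    rw [Real.norm_eq_abs, abs_of_nonneg (by positivity)]
    exact pow_le_pow_left₀ (norm_nonneg _) h3 2
  have hS : ∑ l, m l * ‖y l - z l‖ ^ 2 ≤ 2 * ∫ p, ‖p.1 - p.2‖ ^ 2 ∂π + 32 * δ ^ 2 := by
    have h1 : ∑ l, m l * ‖y l - z l‖ ^ 2 = ∫ p, ‖y (L p) - z (L p)‖ ^ 2 ∂π := by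
      rw [integral_comp_index π L hLm (fun l => ‖y l - z l‖ ^ 2)]
      refine Finset.sum_congr rfl (fun l _ => ?_)
      rw [hLmass l, ENNReal.toReal_ofReal (hm l).le]
    have h2 : ∫ p, ‖y (L p) - z (L p)‖ ^ 2 ∂π ≤
        ∫ p, (2 * ‖p.1 - p.2‖ ^ 2 + 32 * δ ^ 2) ∂π := by
      refine integral_mono_of_nonneg (Eventually.of_forall fun p => by positivity)
        ((hcost_int.const_mul 2).add (integrable_const _)) ?_
      filter_upwards [hclose] with p hp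
      have h3 : ‖y (L p) - z (L p)‖ ≤ ‖p.1 - p.2‖ + 4 * δ := by
        have e : y (L p) - z (L p) =
            (p.1 - p.2) - (p.1 - y (L p)) + (p.2 - z (L p)) := by abel
        rw [e]
        refine (norm_add_le _ _).trans ?_
        have := norm_sub_le (p.1 - p.2) (p.1 - y (L p))
        linarith [hp.1, hp.2]
      have h4 : ‖y (L p) - z (L p)‖ ^ 2 ≤ (‖p.1 - p.2‖ + 4 * δ) ^ 2 :=
        pow_le_pow_left₀ (norm_nonneg _) h3 2
      nlinarith [sq_nonneg (‖p.1 - p.2‖ - 4 * δ)]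
    rw [h1]
    refine h2.trans (le_of_eq ?_)
    rw [integral_add (hcost_int.const_mul 2) (integrable_const _), integral_const_mul]
    simp
  -- combine
  set D : ℝ := ∫ p, ‖p.1 - p.2‖ ^ 2 ∂π with hD
  have hB' : (∫ x in K, ‖S₀ x - S₁ x‖ ^ 2) ^ 3 ≤ C₂ * (C₁ * (2 * D + 32 * δ ^ 2)) := by
    refine hB.trans (mul_le_mul_of_nonneg_left ?_ hC₂0)
    exact ha.trans (mul_le_mul_of_nonneg_left hS hC₁0)
  have i₁ := integrable_sq_norm_sub hKc hT₀ hS₀m hT₀R hS₀R'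
  have i₂ := integrable_sq_norm_sub hKc hS₀m hS₁m hS₀R' hS₁R'
  have i₃ := integrable_sq_norm_sub hKc hT₁ hS₁m hT₁R hS₁R'
  have n₁ : 0 ≤ ∫ x in K, ‖T₀ x - S₀ x‖ ^ 2 := integral_nonneg fun x => by positivity
  have n₂ : 0 ≤ ∫ x in K, ‖S₀ x - S₁ x‖ ^ 2 := integral_nonneg fun x => by positivity
  have n₃ : 0 ≤ ∫ x in K, ‖T₁ x - S₁ x‖ ^ 2 := integral_nonneg fun x => by positivity
  have b₁ : ∫ x in K, ‖T₀ x - S₀ x‖ ^ 2 ≤ √(C₃ * (2 * δ)) :=
    (le_abs_self _).trans (Real.abs_le_sqrt hS₀)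
  have b₃ : ∫ x in K, ‖T₁ x - S₁ x‖ ^ 2 ≤ √(C₃ * (2 * δ)) :=
    (le_abs_self _).trans (Real.abs_le_sqrt hS₁)
  have b₂ := le_cbrt_of_cube_le n₂ hB'
  have tri : ∫ x in K, ‖T₀ x - T₁ x‖ ^ 2 ≤
      3 * ((∫ x in K, ‖T₀ x - S₀ x‖ ^ 2) + (∫ x in K, ‖S₀ x - S₁ x‖ ^ 2) +
        ∫ x in K, ‖T₁ x - S₁ x‖ ^ 2) := by
    have i12 : Integrable (fun x => ‖T₀ x - S₀ x‖ ^ 2 + ‖S₀ x - S₁ x‖ ^ 2) (volume.restrict K) :=
      i₁.add i₂
    have i123 : Integrable (fun x => ‖T₀ x - S₀ x‖ ^ 2 + ‖S₀ x - S₁ x‖ ^ 2 + ‖T₁ x - S₁ x‖ ^ 2)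
        (volume.restrict K) := i12.add i₃
    rw [← integral_add i₁ i₂, ← integral_add i12 i₃, ← integral_const_mul]
    refine integral_mono_of_nonneg (Eventually.of_forall fun x => by positivity)
      (i123.const_mul 3) (Eventually.of_forall fun x => ?_)
    have h1 : ‖T₀ x - T₁ x‖ ≤ ‖T₀ x - S₀ x‖ + ‖S₀ x - S₁ x‖ + ‖T₁ x - S₁ x‖ := by
      have e : T₀ x - T₁ x = (T₀ x - S₀ x) + (S₀ x - S₁ x) - (T₁ x - S₁ x) := by abel
      rw [e]
      refine (norm_sub_le _ _).trans ?_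
      have := norm_add_le (T₀ x - S₀ x) (S₀ x - S₁ x)
      linarith
    have h2 := pow_le_pow_left₀ (norm_nonneg _) h1 2
    nlinarith [sq_nonneg (‖T₀ x - S₀ x‖ - ‖S₀ x - S₁ x‖),
      sq_nonneg (‖T₀ x - S₀ x‖ - ‖T₁ x - S₁ x‖), sq_nonneg (‖S₀ x - S₁ x‖ - ‖T₁ x - S₁ x‖)]
  refine tri.trans ?_
  linarith

/-- The assembly theorem: the final statement of S0109 from the module theorems. -/
theorem assembly (hd : 1 ≤ d) {K : Set (Eu d)} (hKc : IsCompact K) (hKi : (interior K).Nonempty)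
    {Y : Set (Eu d)} (hYc : IsCompact Y) (hYn : Y.Nonempty)
    (hpot : ∀ {μ : Measure (Eu d)}, IsProbabilityOn Y μ → ∀ {T : Eu d → Eu d},
      IsOptimalMap (uniformProbOn K) μ T →
      ∃ φ : Eu d → ℝ, Continuous φ ∧ IsPot K φ T ∧ ∀ᵐ x ∂(volume.restrict K), T x ∈ Y)
    (hgn : ∀ R : ℝ, ∃ C : ℝ, GnStmt K R C) (hcrude : ∀ R : ℝ, ∃ C : ℝ, CrudeStmt K R C)
    (hatoms : ∃ C : ℝ, AtomsStmt K C) :
    ∃ C : ℝ≥0, ∀ μ ν : Measure (Eu d), IsProbabilityOn Y μ → IsProbabilityOn Y ν →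
      ∀ Tμ Tν : Eu d → Eu d,
        IsOptimalMap (uniformProbOn K) μ Tμ → IsOptimalMap (uniformProbOn K) ν Tν →
        ∀ π : Measure (Eu d × Eu d), IsPairCoupling μ ν π →
          ∫⁻ x, ‖Tμ x - Tν x‖ₑ ^ 2 ∂(uniformProbOn K) ≤ C * quadCost π ^ (1 / 3 : ℝ) := by
  classical
  -- radius
  obtain ⟨R₀, hR₀⟩ := hYc.isBounded.exists_norm_le
  have hYR : ∀ q ∈ Y, ‖q‖ + 1 ≤ R₀ + 1 := fun q hq => by linarith [hR₀ q hq]
  set R : ℝ := R₀ + 1 with hR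
  have hR0 : 0 ≤ R := by
    obtain ⟨q, hq⟩ := hYn
    have := hYR q hq
    have := norm_nonneg q
    linarith
  -- constants
  obtain ⟨C₂', hC₂'⟩ := hgn R
  obtain ⟨C₃', hC₃'⟩ := hcrude R
  obtain ⟨C₁', hC₁'⟩ := hatoms
  have hC₂ := hC₂'.mono (le_max_left C₂' 0)
  have hC₃ := hC₃'.mono (le_max_left C₃' 0)
  have hC₁ : AtomsStmt K (max C₁' 0) := AtomsStmt.mono hC₁' (le_max_left C₁' 0)
  set C₁ := max C₁' 0
  set C₂ := max C₂' 0
  set C₃ := max C₃' 0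
  have hC₁0 : 0 ≤ C₁ := le_max_right _ _
  have hC₂0 : 0 ≤ C₂ := le_max_right _ _
  have hC₃0 : 0 ≤ C₃ := le_max_right _ _
  have hvol0 : volume K ≠ 0 := by
    have h1 : 0 < volume (interior K) := isOpen_interior.measure_pos volume hKi
    exact (lt_of_lt_of_le h1 (measure_mono interior_subset)).ne'
  have hvolT : (volume K)⁻¹ ≠ ⊤ := ENNReal.inv_ne_top.2 hvol0
  have hρ := uniform_isProb hKc hKi
  have : IsFiniteMeasure (volume.restrict K) := ⟨by simpa using hKc.measure_lt_top⟩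
  refine ⟨(volume K)⁻¹.toNNReal * (3 * (C₂ * (C₁ * 2)) ^ (1 / 3 : ℝ)).toNNReal, ?_⟩
  intro μ ν hμ hν Tμ Tν hTμ hTν π hπ
  obtain ⟨φ₀, hφ₀, hp₀, hY₀⟩ := hpot hμ hTμ
  obtain ⟨φ₁, hφ₁, hp₁, hY₁⟩ := hpot hν hTν
  have hT₀R : ∀ᵐ x ∂(volume.restrict K), ‖Tμ x‖ ≤ R := by
    filter_upwards [hY₀] with x hx
    linarith [hYR _ hx]
  have hT₁R : ∀ᵐ x ∂(volume.restrict K), ‖Tν x‖ ≤ R := by
    filter_upwards [hY₁] with x hx
    linarith [hYR _ hx]
  -- π is a probability measure concentrated on Y × Y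
  have hμP := hμ.1
  have hπP : IsProbabilityMeasure π := by
    constructor
    have : π univ = (π.map Prod.fst) univ := by
      rw [Measure.map_apply measurable_fst MeasurableSet.univ]; rfl
    rw [this, hπ.1]
    exact measure_univ
  have hYm : MeasurableSet Y := hYc.isClosed.measurableSet
  have h₁ : ∀ᵐ p ∂π, p.1 ∈ Y := by
    have : π (Prod.fst ⁻¹' Yᶜ) = 0 := by
      rw [← Measure.map_apply measurable_fst hYm.compl, hπ.1]; exact hμ.2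
    exact this
  have h₂ : ∀ᵐ p ∂π, p.2 ∈ Y := by
    have : π (Prod.snd ⁻¹' Yᶜ) = 0 := by
      rw [← Measure.map_apply measurable_snd hYm.compl, hπ.2]; exact hν.2
    exact this
  have hm₀ : π.map Prod.fst = (uniformProbOn K).map Tμ := by rw [hπ.1, hTμ.2.1]
  have hm₁ : π.map Prod.snd = (uniformProbOn K).map Tν := by rw [hπ.2, hTν.2.1]
  set D : ℝ := ∫ p, ‖p.1 - p.2‖ ^ 2 ∂π with hD
  have hD0 : 0 ≤ D := integral_nonneg fun p => by positivity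
  -- limit
  have hstep : ∀ δ ∈ Ioc (0:ℝ) 1, ∫ x in K, ‖Tμ x - Tν x‖ ^ 2 ≤
      3 * (√(C₃ * (2 * δ)) + (C₂ * (C₁ * (2 * D + 32 * δ ^ 2))) ^ (1 / 3 : ℝ)
        + √(C₃ * (2 * δ))) := fun δ hδ =>
    step_bound hd hKc hKi hYc hYn hYR hC₁0 hC₂0 hC₃0 hC₁ hC₂ hC₃ h₁ h₂ hφ₀ hφ₁ hTμ.1 hTν.1
      hp₀ hp₁ hT₀R hT₁R hm₀ hm₁ hδ.1 hδ.2
  have hcont : Continuous (fun δ : ℝ =>
      3 * (√(C₃ * (2 * δ)) + (C₂ * (C₁ * (2 * D + 32 * δ ^ 2))) ^ (1 / 3 : ℝ)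
        + √(C₃ * (2 * δ)))) := by
    refine continuous_const.mul (Continuous.add (Continuous.add ?_ ?_) ?_)
    · exact Real.continuous_sqrt.comp (by fun_prop)
    · exact Continuous.rpow_const (by fun_prop) (fun _ => Or.inr (by norm_num))
    · exact Real.continuous_sqrt.comp (by fun_prop)
  have hlim : ∫ x in K, ‖Tμ x - Tν x‖ ^ 2 ≤
      3 * (√(C₃ * (2 * 0)) + (C₂ * (C₁ * (2 * D + 32 * 0 ^ 2))) ^ (1 / 3 : ℝ)
        + √(C₃ * (2 * 0))) := by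
    refine ge_of_tendsto (hcont.continuousAt.tendsto.mono_left nhdsWithin_le_nhds :
      Tendsto _ (𝓝[>] (0:ℝ)) _) ?_
    filter_upwards [Ioc_mem_nhdsGT (zero_lt_one' ℝ)] with δ hδ using hstep δ hδ
  have hE : ∫ x in K, ‖Tμ x - Tν x‖ ^ 2 ≤ 3 * (C₂ * (C₁ * 2)) ^ (1 / 3 : ℝ) * D ^ (1 / 3 : ℝ) := by
    refine hlim.trans (le_of_eq ?_)
    have e1 : C₂ * (C₁ * (2 * D + 32 * 0 ^ 2)) = (C₂ * (C₁ * 2)) * D := by ring
    rw [e1, Real.mul_rpow (by positivity) hD0]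
    simp
    ring
  -- translate to lintegrals
  have hfi : Integrable (fun x => ‖Tμ x - Tν x‖ ^ 2) (volume.restrict K) :=
    integrable_sq_norm_sub hKc hTμ.1 hTν.1 hT₀R hT₁R
  have hleft : ∫⁻ x, ‖Tμ x - Tν x‖ₑ ^ 2 ∂(uniformProbOn K) =
      (volume K)⁻¹ * ENNReal.ofReal (∫ x in K, ‖Tμ x - Tν x‖ ^ 2) := by
    rw [uniformProbOn, lintegral_smul_measure, smul_eq_mul,
      ofReal_integral_eq_lintegral_ofReal hfi (Eventually.of_forall fun x => by positivity)]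
    congr 1
    refine lintegral_congr fun x => ?_
    rw [ENNReal.ofReal_pow (norm_nonneg _), ofReal_norm]
  have hcost_int : Integrable (fun p : Eu d × Eu d => ‖p.1 - p.2‖ ^ 2) π := by
    refine Integrable.of_bound (C := ((R + R) ^ 2)) (by fun_prop) ?_
    filter_upwards [h₁, h₂] with p hp1 hp2
    have h1 := hYR _ hp1
    have h2 := hYR _ hp2
    have h3 : ‖p.1 - p.2‖ ≤ R + R := (norm_sub_le _ _).trans (by linarith)
    rw [Real.norm_eq_abs, abs_of_nonneg (by positivity)]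
    exact pow_le_pow_left₀ (norm_nonneg _) h3 2
  have hright : quadCost π = ENNReal.ofReal D := by
    rw [hD, ofReal_integral_eq_lintegral_ofReal hcost_int
      (Eventually.of_forall fun x => by positivity), quadCost]
    refine lintegral_congr fun x => ?_
    rw [ENNReal.ofReal_pow (norm_nonneg _), ofReal_norm]
  rw [hleft, hright, ENNReal.ofReal_rpow_of_nonneg hD0 (by norm_num)]
  have hcoe : (((volume K)⁻¹.toNNReal * (3 * (C₂ * (C₁ * 2)) ^ (1 / 3 : ℝ)).toNNReal : ℝ≥0) : ℝ≥0∞)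
      = (volume K)⁻¹ * ENNReal.ofReal (3 * (C₂ * (C₁ * 2)) ^ (1 / 3 : ℝ)) := by
    rw [ENNReal.coe_mul, ENNReal.coe_toNNReal hvolT]
    rfl
  rw [hcoe, mul_assoc]
  refine mul_le_mul_right ?_ _
  rw [← ENNReal.ofReal_mul (by positivity)]
  exact ENNReal.ofReal_le_ofReal hE

end Crest.Agent.OT
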