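import Mathlib
import Crest.Agent.Lib.OT.Basic

/-!
# OT module M5: Gagliardo-Nirenberg type bound and crude stability (difference quotients).
-/

set_option autoImplicit false
open MeasureTheory Set
open scoped ENNReal NNReal RealInnerProductSpace

namespace Crest.Agent.OT

variable {d : ℕ}

/-- The shifted intersection `K ∩ (K - h)`. -/
def Ksh (K : Set (Eu d)) (h : Eu d) : Set (Eu d) := K ∩ (fun x => x + h) ⁻¹' K

lemma measurableSet_Ksh {K : Set (Eu d)} (hK : MeasurableSet K) (h : Eu d) :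
    MeasurableSet (Ksh K h) :=
  hK.inter (measurable_add_const h hK)

lemma Ksh_subset (K : Set (Eu d)) (h : Eu d) : Ksh K h ⊆ K := inter_subset_left

lemma Ksh_zero (K : Set (Eu d)) : Ksh K (0 : Eu d) = K := by
  ext x; simp [Ksh]

lemma preimage_Ksh_neg (K : Set (Eu d)) (h : Eu d) :
    (fun x => x + h) ⁻¹' (Ksh K (-h)) = Ksh K h := by
  ext x
  simp only [Ksh, mem_preimage, mem_inter_iff, add_neg_cancel_right]
  tauto

/-- (A) the boundary-layer volume estimate. -/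
lemma exists_shift_bound {K : Set (Eu d)} (hKc : IsCompact K) (hKv : Convex ℝ K)
    (hKi : (interior K).Nonempty) :
    ∃ CK : ℝ, 0 ≤ CK ∧ ∀ h : Eu d, volume.real (K \ Ksh K h) ≤ CK * ‖h‖ := by
  obtain ⟨x₀, hx₀⟩ := hKi
  obtain ⟨ρ, hρ, hball⟩ := Metric.nhds_basis_closedBall.mem_iff.1 (mem_interior_iff_mem_nhds.1 hx₀)
  have hKm : MeasurableSet K := hKc.measurableSet
  have hKfin : volume K ≠ ∞ := hKc.measure_lt_top.ne
  set V := volume.real K with hV
  have hV0 : 0 ≤ V := measureReal_nonneg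
  refine ⟨(d + 1) * V / ρ, by positivity, fun h => ?_⟩
  have hsh : MeasurableSet (Ksh K h) := measurableSet_Ksh hKm h
  have hle : volume.real (K \ Ksh K h) ≤ V := measureReal_mono sdiff_subset hKfin
  rcases eq_or_ne h 0 with rfl | hne
  · simp [Ksh_zero]
  have hnpos : 0 < ‖h‖ := norm_pos_iff.2 hne
  by_cases hcase : ρ ≤ ‖h‖
  · refine hle.trans ?_
    have : V * 1 ≤ (d + 1) * V / ρ * ‖h‖ := by
      have h1 : 1 ≤ ‖h‖ / ρ := (one_le_div hρ).2 hcase
      have h2 : (d + 1) * V / ρ * ‖h‖ = (d + 1) * V * (‖h‖ / ρ) := by ring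
      rw [h2]
      have h3 : V * 1 ≤ (d + 1) * V * 1 := by
        have : (0:ℝ) ≤ d := Nat.cast_nonneg d
        nlinarith
      exact h3.trans (by gcongr)
    linarith
  push Not at hcase
  set lam := ‖h‖ / ρ with hlam
  have hlam0 : 0 < lam := div_pos hnpos hρ
  have hlam1 : lam < 1 := (div_lt_one hρ).2 hcase
  set g := AffineMap.homothety x₀ (1 - lam) with hg
  have hgK : g '' K ⊆ Ksh K h := by
    rintro _ ⟨z, hz, rfl⟩
    have hx0K : x₀ ∈ K := hball (Metric.mem_closedBall_self hρ.le)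
    have hgz : g z = (1 - lam) • z + lam • x₀ := by
      simp only [hg, AffineMap.homothety_apply, vsub_eq_sub, vadd_eq_add, smul_sub, sub_smul, one_smul]
      abel
    refine ⟨?_, ?_⟩
    · rw [hgz]
      exact hKv hz hx0K (by linarith) hlam0.le (by ring)
    · have hp : x₀ + lam⁻¹ • h ∈ K := by
        apply hball
        rw [Metric.mem_closedBall, dist_eq_norm]
        simp only [add_sub_cancel_left, norm_smul, norm_inv, Real.norm_eq_abs, abs_of_pos hlam0]
        rw [hlam]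
        field_simp
        exact le_rfl
      have : g z + h = (1 - lam) • z + lam • (x₀ + lam⁻¹ • h) := by
        rw [hgz, smul_add, smul_smul, mul_inv_cancel₀ hlam0.ne', one_smul]
        abel
      simp only [mem_preimage]
      rw [this]
      exact hKv hz hp (by linarith) hlam0.le (by ring)
  have hvol : volume.real (g '' K) = (1 - lam) ^ d * V := by
    have := Measure.addHaar_image_homothety (μ := (volume : Measure (Eu d))) x₀ (1 - lam) K
    simp only [Measure.real, hg, this, finrank_euclideanSpace_fin, ENNReal.toReal_mul]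
    rw [ENNReal.toReal_ofReal (abs_nonneg _), abs_of_nonneg (pow_nonneg (by linarith) _)]
    rfl
  have hKshfin : volume (Ksh K h) ≠ ∞ := ne_top_of_le_ne_top hKfin (measure_mono (Ksh_subset K h))
  have hge : (1 - lam) ^ d * V ≤ volume.real (Ksh K h) := by
    rw [← hvol]
    exact measureReal_mono hgK hKshfin
  have hdiff : volume.real (K \ Ksh K h) = V - volume.real (Ksh K h) := by
    have := measureReal_sdiff_add_inter (μ := (volume : Measure (Eu d))) (s := K) (t := Ksh K h) hsh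
    rw [inter_eq_right.2 (Ksh_subset K h)] at this
    linarith
  have hbern : 1 + (d : ℝ) * (-lam) ≤ (1 + (-lam)) ^ d :=
    one_add_mul_le_pow (by linarith) d
  have hbern' : 1 - (d : ℝ) * lam ≤ (1 - lam) ^ d := by
    have e1 : (1 + (-lam)) = 1 - lam := by ring
    rw [e1] at hbern
    linarith
  rw [hdiff]
  have h5 : V - (1 - lam) ^ d * V ≤ d * lam * V := by nlinarith
  have h6 : (d + 1) * V / ρ * ‖h‖ = (d + 1) * lam * V := by
    rw [hlam]; field_simp
  rw [h6]
  have : d * lam * V ≤ (d + 1) * lam * V := by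
    have : 0 ≤ lam * V := by positivity
    nlinarith
  linarith

/-- (C) a.e. properties transfer to shifted points. -/
lemma ae_shift {K : Set (Eu d)} (hK : MeasurableSet K) {P : Eu d → Prop}
    (hP : ∀ᵐ x ∂(volume.restrict K), P x) (h : Eu d) :
    ∀ᵐ x ∂(volume.restrict (Ksh K h)), P x ∧ P (x + h) := by
  rw [ae_restrict_iff' hK] at hP
  have hP2 : ∀ᵐ x ∂(volume : Measure (Eu d)), x + h ∈ K → P (x + h) :=
    (measurePreserving_add_right (volume : Measure (Eu d)) h).quasiMeasurePreserving.ae hP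
  rw [ae_restrict_iff' (measurableSet_Ksh hK h)]
  filter_upwards [hP, hP2] with x h1 h2 hx
  exact ⟨h1 hx.1, h2 hx.2⟩

/-- Shift change of variables. -/
lemma integral_shift_eq (K : Set (Eu d)) (h : Eu d) (u : Eu d → ℝ) :
    ∫ x in Ksh K h, u (x + h) = ∫ y in Ksh K (-h), u y := by
  have := (measurePreserving_add_right (volume : Measure (Eu d)) h).setIntegral_preimage_emb
    (measurableEmbedding_addRight h) u (Ksh K (-h))
  rw [preimage_Ksh_neg] at this
  exact this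

/-- A bounded function: integrable on a finite volume set. -/
lemma integrableOn_of_ae_bdd {K : Set (Eu d)} (hKfin : volume K ≠ ∞) {u : Eu d → ℝ}
    (hum : Measurable u) {B : ℝ} (hu : ∀ᵐ x ∂(volume.restrict K), |u x| ≤ B) :
    IntegrableOn u K :=
  Measure.integrableOn_of_bounded hKfin hum.aestronglyMeasurable (M := B)
    (by simpa [Real.norm_eq_abs] using hu)

lemma abs_setIntegral_le {S : Set (Eu d)} (hSfin : volume S ≠ ∞) {u : Eu d → ℝ} {B : ℝ}
    (hu : ∀ᵐ x ∂(volume.restrict S), |u x| ≤ B) :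
    ∫ x in S, u x ≤ B * volume.real S := by
  have := norm_setIntegral_le_of_norm_le_const_ae (μ := volume) (s := S) (f := u) (C := B)
    hSfin.lt_top (by simpa [Real.norm_eq_abs] using hu)
  exact (le_abs_self _).trans (by simpa [Real.norm_eq_abs] using this)

/-- (B) integral of a difference under a shift. -/
lemma integral_shift_diff_le {K : Set (Eu d)} (hK : MeasurableSet K) (hKfin : volume K ≠ ∞)
    {u : Eu d → ℝ} (hum : Measurable u) {B : ℝ} (hu : ∀ᵐ x ∂(volume.restrict K), |u x| ≤ B)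
    (h : Eu d) :
    ∫ x in Ksh K h, (u (x + h) - u x) ≤
      B * (volume.real (K \ Ksh K (-h)) + volume.real (K \ Ksh K h)) := by
  have hint := integrableOn_of_ae_bdd hKfin hum hu
  have hfin : ∀ k : Eu d, volume (Ksh K k) ≠ ∞ := fun k =>
    ne_top_of_le_ne_top hKfin (measure_mono (Ksh_subset K k))
  have hfin' : ∀ k : Eu d, volume (K \ Ksh K k) ≠ ∞ := fun k =>
    ne_top_of_le_ne_top hKfin (measure_mono sdiff_subset)
  have hsub : ∀ k : Eu d, IntegrableOn u (Ksh K k) := fun k => hint.mono_set (Ksh_subset K k)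
  have hshift : IntegrableOn (fun x => u (x + h)) (Ksh K h) := by
    refine integrableOn_of_ae_bdd (hfin h) (hum.comp (measurable_add_const h)) (B := B) ?_
    filter_upwards [ae_shift hK hu h] with x hx using hx.2
  have e1 : ∫ x in Ksh K h, (u (x + h) - u x) =
      (∫ y in Ksh K (-h), u y) - ∫ y in Ksh K h, u y := by
    rw [integral_sub hshift (hsub h), integral_shift_eq]
  have split : ∀ k : Eu d, (∫ y in Ksh K k, u y) + ∫ y in K \ Ksh K k, u y = ∫ y in K, u y := by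
    intro k
    have := integral_inter_add_sdiff (μ := (volume : Measure (Eu d))) (s := K) (t := Ksh K k)
      (f := u) (measurableSet_Ksh hK k) hint
    rwa [inter_eq_right.2 (Ksh_subset K k)] at this
  have b1 : ∫ y in K \ Ksh K h, u y ≤ B * volume.real (K \ Ksh K h) := by
    refine abs_setIntegral_le (hfin' h) ?_
    exact ae_restrict_of_ae_restrict_of_subset sdiff_subset hu
  have b2 : - ∫ y in K \ Ksh K (-h), u y ≤ B * volume.real (K \ Ksh K (-h)) := by
    rw [← integral_neg]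
    refine abs_setIntegral_le (hfin' (-h)) ?_
    filter_upwards [ae_restrict_of_ae_restrict_of_subset sdiff_subset hu] with x hx
    simpa using hx
  rw [e1, mul_add]
  have s1 := split h
  have s2 := split (-h)
  linarith

/-- (D) the core directional inequality. -/
lemma core_dir {K : Set (Eu d)} (hK : MeasurableSet K) (hKfin : volume K ≠ ∞) {R : ℝ} (hR : 0 ≤ R)
    {T₀ T₁ : Eu d → Eu d} (hT₀ : Measurable T₀) (hT₁ : Measurable T₁)
    (hb₀ : ∀ᵐ x ∂(volume.restrict K), ‖T₀ x‖ ≤ R) (hb₁ : ∀ᵐ x ∂(volume.restrict K), ‖T₁ x‖ ≤ R)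
    {CK : ℝ} (hCK : ∀ h : Eu d, volume.real (K \ Ksh K h) ≤ CK * ‖h‖)
    {e : Eu d} (he : ‖e‖ = 1) {r : ℝ} (hr : 0 < r) {Ξ : Eu d → ℝ}
    (hΞ : IntegrableOn (fun x => max ⟪T₀ x - T₁ x, e⟫ 0 * Ξ x) (Ksh K (r • e)))
    (hmono : ∀ᵐ x ∂(volume.restrict (Ksh K (r • e))), 0 ≤ ⟪T₁ (x + r • e) - T₁ x, r • e⟫)
    (hyp : ∀ᵐ x ∂(volume.restrict (Ksh K (r • e))),
      r * ⟪T₀ x - T₁ x, e⟫ ≤ Ξ x + ⟪T₁ (x + r • e) - T₁ x, r • e⟫) :
    r * ∫ x in K, (max ⟪T₀ x - T₁ x, e⟫ 0) ^ 2 ≤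
      (∫ x in Ksh K (r • e), max ⟪T₀ x - T₁ x, e⟫ 0 * Ξ x) + (8 * R ^ 2 * CK) * r ^ 2 := by
  set h : Eu d := r • e with hh
  have hnh : ‖h‖ = r := by rw [hh, norm_smul, he, mul_one, Real.norm_eq_abs, abs_of_pos hr]
  set w : Eu d → ℝ := fun x => max ⟪T₀ x - T₁ x, e⟫ 0 with hw
  have hwm : Measurable w := ((hT₀.sub hT₁).inner measurable_const).max measurable_const
  have hfin : volume (Ksh K h) ≠ ∞ := ne_top_of_le_ne_top hKfin (measure_mono (Ksh_subset K h))
  have hfin' : volume (K \ Ksh K h) ≠ ∞ := ne_top_of_le_ne_top hKfin (measure_mono sdiff_subset)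
  have hwb : ∀ᵐ x ∂(volume.restrict K), 0 ≤ w x ∧ w x ≤ 2 * R := by
    filter_upwards [hb₀, hb₁] with x h0 h1
    refine ⟨le_max_right _ _, max_le ?_ (by positivity)⟩
    calc ⟪T₀ x - T₁ x, e⟫ ≤ ‖T₀ x - T₁ x‖ * ‖e‖ := real_inner_le_norm _ _
      _ = ‖T₀ x - T₁ x‖ := by rw [he, mul_one]
      _ ≤ ‖T₀ x‖ + ‖T₁ x‖ := norm_sub_le _ _
      _ ≤ 2 * R := by linarith
  have hw2b : ∀ᵐ x ∂(volume.restrict K), |w x ^ 2| ≤ 4 * R ^ 2 := by
    filter_upwards [hwb] with x hx
    rw [abs_of_nonneg (by positivity)]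
    nlinarith [hx.1, hx.2]
  have hw2m : Measurable (fun x => w x ^ 2) := hwm.pow_const 2
  have hw2int : IntegrableOn (fun x => w x ^ 2) K := integrableOn_of_ae_bdd hKfin hw2m hw2b
  -- the monotone term
  set u : Eu d → ℝ := fun y => ⟪T₁ y, h⟫ with hu
  have hum : Measurable u := hT₁.inner measurable_const
  have hub : ∀ᵐ x ∂(volume.restrict K), |u x| ≤ R * r := by
    filter_upwards [hb₁] with x hx
    calc |u x| ≤ ‖T₁ x‖ * ‖h‖ := abs_real_inner_le_norm _ _
      _ ≤ R * r := by rw [hnh]; gcongr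
  have hm := integral_shift_diff_le hK hKfin hum hub h
  have hmeq : ∀ x, ⟪T₁ (x + h) - T₁ x, h⟫ = u (x + h) - u x := fun x => by
    simp [hu, inner_sub_left]
  have hmint : IntegrableOn (fun x => u (x + h) - u x) (Ksh K h) := by
    refine integrableOn_of_ae_bdd hfin ((hum.comp (measurable_add_const h)).sub hum)
      (B := R * r + R * r) ?_
    filter_upwards [ae_shift hK hub h] with x hx
    exact (abs_sub _ _).trans (add_le_add hx.2 hx.1)
  have hvol1 := hCK h
  have hvol2 := hCK (-h)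
  rw [norm_neg] at hvol2
  rw [hnh] at hvol1 hvol2
  have hRr : 0 ≤ R * r := by positivity
  have hmbd : ∫ x in Ksh K h, (u (x + h) - u x) ≤ R * r * (2 * (CK * r)) := by
    refine hm.trans ?_
    gcongr
    linarith
  -- pointwise inequality
  have hpt : ∀ᵐ x ∂(volume.restrict (Ksh K h)),
      r * w x ^ 2 ≤ w x * Ξ x + 2 * R * (u (x + h) - u x) := by
    have hwb' := ae_restrict_of_ae_restrict_of_subset (Ksh_subset K h) hwb
    filter_upwards [hwb', hmono, hyp] with x hx hmon hy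
    rw [hmeq] at hmon hy
    by_cases hpos : 0 < ⟪T₀ x - T₁ x, e⟫
    · have hwe : w x = ⟪T₀ x - T₁ x, e⟫ := max_eq_left hpos.le
      have h1 : r * w x ≤ Ξ x + (u (x + h) - u x) := by rw [hwe]; exact hy
      have h2 : w x * (r * w x) ≤ w x * (Ξ x + (u (x + h) - u x)) :=
        mul_le_mul_of_nonneg_left h1 hx.1
      have h3 : w x * (u (x + h) - u x) ≤ 2 * R * (u (x + h) - u x) :=
        mul_le_mul_of_nonneg_right hx.2 hmon
      nlinarith
    · have hwe : w x = 0 := max_eq_right (not_lt.1 hpos)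
      rw [hwe]
      have : 0 ≤ 2 * R * (u (x + h) - u x) := by positivity
      simpa using this
  have hint_left : IntegrableOn (fun x => r * w x ^ 2) (Ksh K h) :=
    (hw2int.mono_set (Ksh_subset K h)).const_mul r
  have hint_right : IntegrableOn (fun x => w x * Ξ x + 2 * R * (u (x + h) - u x)) (Ksh K h) :=
    hΞ.add (hmint.const_mul _)
  have hmain : r * ∫ x in Ksh K h, w x ^ 2 ≤
      (∫ x in Ksh K h, w x * Ξ x) + 2 * R * ∫ x in Ksh K h, (u (x + h) - u x) := by
    have := integral_mono_ae hint_left hint_right hpt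
    rw [integral_const_mul, integral_add hΞ (hmint.const_mul _), integral_const_mul] at this
    exact this
  have hsplit : (∫ y in Ksh K h, w y ^ 2) + ∫ y in K \ Ksh K h, w y ^ 2 = ∫ y in K, w y ^ 2 := by
    have := integral_inter_add_sdiff (μ := (volume : Measure (Eu d))) (s := K) (t := Ksh K h)
      (f := fun y => w y ^ 2) (measurableSet_Ksh hK h) hw2int
    rwa [inter_eq_right.2 (Ksh_subset K h)] at this
  have houter : ∫ y in K \ Ksh K h, w y ^ 2 ≤ 4 * R ^ 2 * (CK * r) := by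
    refine (abs_setIntegral_le hfin' (ae_restrict_of_ae_restrict_of_subset sdiff_subset hw2b)).trans ?_
    gcongr
  change r * ∫ x in K, w x ^ 2 ≤ (∫ x in Ksh K h, w x * Ξ x) + 8 * R ^ 2 * CK * r ^ 2
  rw [← hsplit, mul_add]
  have h2R : 2 * R * ∫ x in Ksh K h, (u (x + h) - u x) ≤ 2 * R * (R * r * (2 * (CK * r))) :=
    mul_le_mul_of_nonneg_left hmbd (by positivity)
  have h3 : r * ∫ y in K \ Ksh K h, w y ^ 2 ≤ r * (4 * R ^ 2 * (CK * r)) :=
    mul_le_mul_of_nonneg_left houter hr.le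
  nlinarith

/-- (E) norm square as a sum over the `2d` directions. -/
lemma norm_sq_eq_sum_pos (v : Eu d) :
    ‖v‖ ^ 2 = ∑ j : Fin d, ((max ⟪v, EuclideanSpace.single j (1 : ℝ)⟫ 0) ^ 2 +
      (max ⟪v, -EuclideanSpace.single j (1 : ℝ)⟫ 0) ^ 2) := by
  rw [EuclideanSpace.norm_sq_eq]
  refine Finset.sum_congr rfl fun j _ => ?_
  have e1 : ⟪v, EuclideanSpace.single j (1 : ℝ)⟫ = v j := by
    simp [EuclideanSpace.inner_single_right]
  rw [inner_neg_right, e1, Real.norm_eq_abs, sq_abs]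
  rcases le_total 0 (v j) with h | h
  · rw [max_eq_left h, max_eq_right (by linarith)]; ring
  · rw [max_eq_right h, max_eq_left (by linarith)]; ring

lemma E_le_of_dirs {K : Set (Eu d)} (hKfin : volume K ≠ ∞) {R : ℝ} (hR : 0 ≤ R)
    {T₀ T₁ : Eu d → Eu d} (hT₀ : Measurable T₀) (hT₁ : Measurable T₁)
    (hb₀ : ∀ᵐ x ∂(volume.restrict K), ‖T₀ x‖ ≤ R) (hb₁ : ∀ᵐ x ∂(volume.restrict K), ‖T₁ x‖ ≤ R)
    {B : ℝ} (hB : ∀ e : Eu d, ‖e‖ = 1 → ∫ x in K, (max ⟪T₀ x - T₁ x, e⟫ 0) ^ 2 ≤ B) :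
    ∫ x in K, ‖T₀ x - T₁ x‖ ^ 2 ≤ 2 * d * B := by
  have hint : ∀ e : Eu d, ‖e‖ = 1 → IntegrableOn (fun x => (max ⟪T₀ x - T₁ x, e⟫ 0) ^ 2) K := by
    intro e he
    refine integrableOn_of_ae_bdd hKfin
      ((((hT₀.sub hT₁).inner measurable_const).max measurable_const).pow_const 2)
      (B := (2 * R) ^ 2) ?_
    filter_upwards [hb₀, hb₁] with x h0 h1
    have hle : max ⟪T₀ x - T₁ x, e⟫ 0 ≤ 2 * R := by
      refine max_le ?_ (by positivity)
      calc ⟪T₀ x - T₁ x, e⟫ ≤ ‖T₀ x - T₁ x‖ * ‖e‖ := real_inner_le_norm _ _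
        _ = ‖T₀ x - T₁ x‖ := by rw [he, mul_one]
        _ ≤ ‖T₀ x‖ + ‖T₁ x‖ := norm_sub_le _ _
        _ ≤ 2 * R := by linarith
    have h0le : 0 ≤ max ⟪T₀ x - T₁ x, e⟫ 0 := le_max_right _ _
    rw [abs_of_nonneg (by positivity)]
    exact pow_le_pow_left₀ h0le hle 2
  have hs : ∀ j : Fin d, ‖(EuclideanSpace.single j (1 : ℝ) : Eu d)‖ = 1 := fun j => by simp
  have hs' : ∀ j : Fin d, ‖(-EuclideanSpace.single j (1 : ℝ) : Eu d)‖ = 1 := fun j => by
    rw [norm_neg]; simp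
  have e1 : ∫ x in K, ‖T₀ x - T₁ x‖ ^ 2 = ∑ j : Fin d,
      ((∫ x in K, (max ⟪T₀ x - T₁ x, EuclideanSpace.single j (1 : ℝ)⟫ 0) ^ 2) +
       ∫ x in K, (max ⟪T₀ x - T₁ x, -EuclideanSpace.single j (1 : ℝ)⟫ 0) ^ 2) := by
    simp_rw [norm_sq_eq_sum_pos]
    rw [integral_finsetSum]
    · refine Finset.sum_congr rfl fun j _ => ?_
      exact integral_add (hint _ (hs j)) (hint _ (hs' j))
    · exact fun j _ => (hint _ (hs j)).add (hint _ (hs' j))
  rw [e1]
  calc _ ≤ ∑ j : Fin d, (B + B) := by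
        refine Finset.sum_le_sum fun j _ => add_le_add (hB _ (hs j)) (hB _ (hs' j))
    _ = 2 * d * B := by
        simp only [Finset.sum_const, Finset.card_univ, Fintype.card_fin, nsmul_eq_mul]
        ring

/-- Consequences of the potential inequality at the two endpoints of a shift. -/
lemma pot_shift_gn {K : Set (Eu d)} (hK : MeasurableSet K) {φ : Eu d → ℝ} {T : Eu d → Eu d}
    (hp : IsPot K φ T) (h : Eu d) :
    ∀ᵐ x ∂(volume.restrict (Ksh K h)), ⟪T x, h⟫ ≤ φ (x + h) - φ x ∧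
      φ (x + h) - φ x ≤ ⟪T (x + h), h⟫ := by
  filter_upwards [ae_shift hK hp h] with x hx
  have h1 := hx.1 (x + h)
  have h2 := hx.2 x
  rw [add_sub_cancel_left] at h1
  have e : x - (x + h) = -h := by abel
  rw [e, inner_neg_right] at h2
  constructor <;> linarith

/-- GN directional estimate. -/
lemma gn_dir {K : Set (Eu d)} (hKc : IsCompact K) {R : ℝ} (hR : 0 ≤ R)
    {φ₀ φ₁ : Eu d → ℝ} {T₀ T₁ : Eu d → Eu d} (hφ₀ : Continuous φ₀) (hφ₁ : Continuous φ₁)
    (hT₀ : Measurable T₀) (hT₁ : Measurable T₁) (hp₀ : IsPot K φ₀ T₀) (hp₁ : IsPot K φ₁ T₁)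
    (hb₀ : ∀ᵐ x ∂(volume.restrict K), ‖T₀ x‖ ≤ R) (hb₁ : ∀ᵐ x ∂(volume.restrict K), ‖T₁ x‖ ≤ R)
    {CK : ℝ} (hCK : ∀ h : Eu d, volume.real (K \ Ksh K h) ≤ CK * ‖h‖) (a : ℝ)
    {e : Eu d} (he : ‖e‖ = 1) {r : ℝ} (hr : 0 < r) :
    ∫ x in K, (max ⟪T₀ x - T₁ x, e⟫ 0) ^ 2 ≤
      4 * (∫ x in K, (φ₀ x - φ₁ x - a) ^ 2) / r ^ 2 + 2 * (8 * R ^ 2 * CK) * r := by
  have hK : MeasurableSet K := hKc.measurableSet
  have hKfin : volume K ≠ ∞ := hKc.measure_lt_top.ne
  set h : Eu d := r • e with hh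
  set f : Eu d → ℝ := fun x => φ₀ x - φ₁ x - a with hf
  have hfc : Continuous f := (hφ₀.sub hφ₁).sub continuous_const
  have hfm : Measurable f := hfc.measurable
  obtain ⟨M, hM⟩ := hKc.exists_bound_of_continuousOn hfc.continuousOn
  have hM0 : ∀ x ∈ K, |f x| ≤ M := fun x hx => by simpa [Real.norm_eq_abs] using hM x hx
  set w : Eu d → ℝ := fun x => max ⟪T₀ x - T₁ x, e⟫ 0 with hw
  have hwm : Measurable w := ((hT₀.sub hT₁).inner measurable_const).max measurable_const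
  have hfin : volume (Ksh K h) ≠ ∞ := ne_top_of_le_ne_top hKfin (measure_mono (Ksh_subset K h))
  have hwb : ∀ᵐ x ∂(volume.restrict K), 0 ≤ w x ∧ w x ≤ 2 * R := by
    filter_upwards [hb₀, hb₁] with x h0 h1
    refine ⟨le_max_right _ _, max_le ?_ (by positivity)⟩
    calc ⟪T₀ x - T₁ x, e⟫ ≤ ‖T₀ x - T₁ x‖ * ‖e‖ := real_inner_le_norm _ _
      _ = ‖T₀ x - T₁ x‖ := by rw [he, mul_one]
      _ ≤ ‖T₀ x‖ + ‖T₁ x‖ := norm_sub_le _ _
      _ ≤ 2 * R := by linarith
  have hwbS := ae_restrict_of_ae_restrict_of_subset (Ksh_subset K h) hwb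
  have hSK : ∀ᵐ x ∂(volume.restrict (Ksh K h)), x ∈ K ∧ x + h ∈ K := by
    rw [ae_restrict_iff' (measurableSet_Ksh hK h)]
    exact Filter.Eventually.of_forall fun x hx => hx
  have hM00 : ∀ᵐ x ∂(volume.restrict (Ksh K h)), |f (x + h) - f x| ≤ M + M := by
    filter_upwards [hSK] with x hx
    exact (abs_sub _ _).trans (add_le_add (hM0 _ hx.2) (hM0 _ hx.1))
  have hΞ : IntegrableOn (fun x => w x * (f (x + h) - f x)) (Ksh K h) := by
    refine integrableOn_of_ae_bdd hfin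
      (hwm.mul ((hfm.comp (measurable_add_const h)).sub hfm)) (B := (2 * R) * (M + M)) ?_
    filter_upwards [hwbS, hM00] with x h1 h2
    rw [abs_mul, abs_of_nonneg h1.1]
    exact mul_le_mul h1.2 h2 (abs_nonneg _) (by positivity)
  have hpot₀ := pot_shift_gn hK hp₀ h
  have hpot₁ := pot_shift_gn hK hp₁ h
  have hcore := core_dir hK hKfin hR hT₀ hT₁ hb₀ hb₁ hCK he hr hΞ
    (by
      filter_upwards [hpot₁] with x hx
      rw [inner_sub_left]
      linarith [hx.1, hx.2])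
    (by
      filter_upwards [hpot₀, hpot₁] with x h0 h1
      have e1 : r * ⟪T₀ x - T₁ x, e⟫ = ⟪T₀ x, h⟫ - ⟪T₁ x, h⟫ := by
        rw [hh, inner_smul_right, inner_smul_right, inner_sub_left]; ring
      rw [e1, inner_sub_left]
      simp only [hf]
      linarith [h0.1, h1.2])
  set F := ∫ x in K, f x ^ 2 with hF
  have hf2m : Measurable (fun x => f x ^ 2) := hfm.pow_const 2
  have hf2int : IntegrableOn (fun x => f x ^ 2) K := by
    refine integrableOn_of_ae_bdd hKfin hf2m (B := M ^ 2) ?_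
    rw [ae_restrict_iff' hK]
    refine Filter.Eventually.of_forall fun x hx => ?_
    rw [abs_of_nonneg (by positivity)]
    exact sq_le_sq' (by linarith [abs_le.1 (hM0 x hx)]) (abs_le.1 (hM0 x hx)).2
  have hf2nn : ∀ S : Set (Eu d), 0 ≤ᵐ[volume.restrict S] fun x => f x ^ 2 := fun S =>
    Filter.Eventually.of_forall fun x => by positivity
  have hFsub : ∀ k : Eu d, ∫ x in Ksh K k, f x ^ 2 ≤ F := fun k =>
    setIntegral_mono_set hf2int (hf2nn K) (Filter.Eventually.of_forall (Ksh_subset K k))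
  have hwint : ∀ᵐ x ∂(volume.restrict K), |w x ^ 2| ≤ (2 * R) ^ 2 := by
    filter_upwards [hwb] with x hx
    rw [abs_of_nonneg (by positivity)]
    exact pow_le_pow_left₀ hx.1 hx.2 2
  have hw2int : IntegrableOn (fun x => w x ^ 2) K :=
    integrableOn_of_ae_bdd hKfin (hwm.pow_const 2) hwint
  have hwsub : ∫ x in Ksh K h, w x ^ 2 ≤ ∫ x in K, w x ^ 2 :=
    setIntegral_mono_set hw2int (Filter.Eventually.of_forall fun x => by positivity)
      (Filter.Eventually.of_forall (Ksh_subset K h))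
  -- Young
  have hshiftint : IntegrableOn (fun x => f (x + h) ^ 2) (Ksh K h) := by
    refine integrableOn_of_ae_bdd hfin (hf2m.comp (measurable_add_const h)) (B := M ^ 2) ?_
    filter_upwards [hSK] with x hx
    rw [abs_of_nonneg (by positivity)]
    exact sq_le_sq' (by linarith [abs_le.1 (hM0 _ hx.2)]) (abs_le.1 (hM0 _ hx.2)).2
  have hyoung : (∫ x in Ksh K h, w x * (f (x + h) - f x)) ≤
      (r / 2) * (∫ x in K, w x ^ 2) + (1 / r) * (F + F) := by
    have hint2 : IntegrableOn (fun x => (r / 2) * w x ^ 2 + (1 / r) * (f (x + h) ^ 2 + f x ^ 2))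
        (Ksh K h) :=
      ((hw2int.mono_set (Ksh_subset K h)).const_mul _).add
        ((hshiftint.add (hf2int.mono_set (Ksh_subset K h))).const_mul _)
    have hle := integral_mono hΞ hint2 (fun x => by
      have : w x * (f (x + h) - f x) ≤ (r / 2) * w x ^ 2 + (1 / r) * (f (x + h) ^ 2 + f x ^ 2) := by
        have hr' : r ≠ 0 := hr.ne'
        have key : (r / 2) * w x ^ 2 + (1 / r) * (f (x + h) ^ 2 + f x ^ 2) - w x * (f (x + h) - f x)
            = (1 / r) * ((r / 2 * w x - f (x + h)) ^ 2 + (r / 2 * w x + f x) ^ 2) := by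
          field_simp
          ring
        have : 0 ≤ (1 / r) * ((r / 2 * w x - f (x + h)) ^ 2 + (r / 2 * w x + f x) ^ 2) := by
          positivity
        linarith
      exact this)
    refine hle.trans ?_
    have hsum : IntegrableOn (fun x => f (x + h) ^ 2 + f x ^ 2) (Ksh K h) :=
      hshiftint.add (hf2int.mono_set (Ksh_subset K h))
    have hA1 : IntegrableOn (fun x => (r / 2) * w x ^ 2) (Ksh K h) :=
      (hw2int.mono_set (Ksh_subset K h)).const_mul _
    have hB1 : IntegrableOn (fun x => (1 / r) * (f (x + h) ^ 2 + f x ^ 2)) (Ksh K h) :=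
      hsum.const_mul _
    have hf2S : IntegrableOn (fun x => f x ^ 2) (Ksh K h) := hf2int.mono_set (Ksh_subset K h)
    rw [integral_add hA1 hB1, integral_const_mul, integral_const_mul,
      integral_add hshiftint hf2S]
    have e2 : ∫ x in Ksh K h, f (x + h) ^ 2 = ∫ x in Ksh K (-h), f x ^ 2 :=
      integral_shift_eq K h (fun x => f x ^ 2)
    rw [e2]
    have h1 := hFsub (-h)
    have h2 := hFsub h
    have hr' : 0 < 1 / r := by positivity
    have : (1 / r) * ((∫ x in Ksh K (-h), f x ^ 2) + ∫ x in Ksh K h, f x ^ 2) ≤ (1 / r) * (F + F) := by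
      gcongr
    have h3 : (r / 2) * ∫ x in Ksh K h, w x ^ 2 ≤ (r / 2) * ∫ x in K, w x ^ 2 := by
      gcongr
    linarith
  set W := ∫ x in K, w x ^ 2 with hW
  set A := 8 * R ^ 2 * CK with hA
  have hfinal : r * W ≤ (r / 2) * W + (1 / r) * (F + F) + A * r ^ 2 := by linarith
  have hrW : (r / 2) * W ≤ (1 / r) * (F + F) + A * r ^ 2 := by linarith
  have : W = (2 / r) * ((r / 2) * W) := by field_simp
  rw [this]
  calc (2 / r) * ((r / 2) * W) ≤ (2 / r) * ((1 / r) * (F + F) + A * r ^ 2) := by gcongr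
    _ = 4 * F / r ^ 2 + 2 * A * r := by field_simp; ring

/-- Gagliardo-Nirenberg type bound. -/
theorem gn_bound {K : Set (Eu d)} (hKc : IsCompact K) (hKv : Convex ℝ K)
    (hKi : (interior K).Nonempty) (R : ℝ) :
    ∃ C : ℝ, ∀ (φ₀ φ₁ : Eu d → ℝ) (T₀ T₁ : Eu d → Eu d), Continuous φ₀ → Continuous φ₁ →
      Measurable T₀ → Measurable T₁ → IsPot K φ₀ T₀ → IsPot K φ₁ T₁ →
      (∀ᵐ x ∂(volume.restrict K), ‖T₀ x‖ ≤ R) → (∀ᵐ x ∂(volume.restrict K), ‖T₁ x‖ ≤ R) →
      ∀ a : ℝ, (∫ x in K, ‖T₀ x - T₁ x‖ ^ 2) ^ 3 ≤ C * ∫ x in K, (φ₀ x - φ₁ x - a) ^ 2 := by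
  obtain ⟨CK, hCK0, hCK⟩ := exists_shift_bound hKc hKv hKi
  have hKfin : volume K ≠ ∞ := hKc.measure_lt_top.ne
  set R' := |R| with hR'
  have hR'0 : 0 ≤ R' := abs_nonneg R
  set A := 8 * R' ^ 2 * CK with hA
  have hA0 : 0 ≤ A := by positivity
  have hd0 : (0 : ℝ) ≤ d := Nat.cast_nonneg d
  set A' := 4 * (d : ℝ) * A with hA'
  have hA'0 : 0 ≤ A' := by positivity
  refine ⟨16 * d * (2 * A' + 1) ^ 2, ?_⟩
  intro φ₀ φ₁ T₀ T₁ hφ₀ hφ₁ hT₀ hT₁ hp₀ hp₁ hb₀ hb₁ a
  have hb₀' : ∀ᵐ x ∂(volume.restrict K), ‖T₀ x‖ ≤ R' := hb₀.mono fun x hx => hx.trans (le_abs_self R)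
  have hb₁' : ∀ᵐ x ∂(volume.restrict K), ‖T₁ x‖ ≤ R' := hb₁.mono fun x hx => hx.trans (le_abs_self R)
  set E := ∫ x in K, ‖T₀ x - T₁ x‖ ^ 2 with hE
  set F := ∫ x in K, (φ₀ x - φ₁ x - a) ^ 2 with hF
  have hE0 : 0 ≤ E := integral_nonneg fun x => by positivity
  have hF0 : 0 ≤ F := integral_nonneg fun x => by positivity
  have key : ∀ r : ℝ, 0 < r → E ≤ 2 * d * (4 * F / r ^ 2 + 2 * A * r) := fun r hr =>
    E_le_of_dirs hKfin hR'0 hT₀ hT₁ hb₀' hb₁'
      (fun e he => gn_dir hKc hR'0 hφ₀ hφ₁ hT₀ hT₁ hp₀ hp₁ hb₀' hb₁' hCK a he hr)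
  rcases hE0.eq_or_lt with h0 | hpos
  · rw [← h0]
    have : (0:ℝ) ^ 3 = 0 := by norm_num
    rw [this]
    positivity
  set D := 2 * A' + 1 with hD
  have hDpos : 0 < D := by positivity
  set r := E / D with hr
  have hrpos : 0 < r := div_pos hpos hDpos
  have h1 := key r hrpos
  have h2 : A' * r ≤ E / 2 := by
    rw [hr, mul_div_assoc', div_le_div_iff₀ hDpos (by norm_num)]
    nlinarith
  have h3 : 2 * d * (4 * F / r ^ 2 + 2 * A * r) = 8 * d * F / r ^ 2 + A' * r := by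
    rw [hA']; ring
  rw [h3] at h1
  have h4 : E / 2 ≤ 8 * d * F / r ^ 2 := by linarith
  have h5 : E / 2 * r ^ 2 ≤ 8 * d * F := by
    rwa [le_div_iff₀ (by positivity)] at h4
  have h6 : r ^ 2 = E ^ 2 / D ^ 2 := by rw [hr, div_pow]
  rw [h6] at h5
  have h7 : E ^ 3 = 2 * D ^ 2 * (E / 2 * (E ^ 2 / D ^ 2)) := by
    field_simp
  rw [h7]
  calc 2 * D ^ 2 * (E / 2 * (E ^ 2 / D ^ 2)) ≤ 2 * D ^ 2 * (8 * d * F) := by gcongr
    _ = 16 * d * D ^ 2 * F := by ring

/-! ### The crude bound -/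

/-- The Legendre transform relative to `K`. -/
noncomputable def lconj (K : Set (Eu d)) (φ : Eu d → ℝ) (y : Eu d) : ℝ :=
  sSup ((fun x => ⟪x, y⟫ - φ x) '' K)

lemma lconj_ge {K : Set (Eu d)} (hKc : IsCompact K) {φ : Eu d → ℝ} (hφ : Continuous φ) (y : Eu d)
    {x : Eu d} (hx : x ∈ K) : ⟪x, y⟫ - φ x ≤ lconj K φ y := by
  have hcont : Continuous (fun x => ⟪x, y⟫ - φ x) := by fun_prop
  exact le_csSup (hKc.image hcont).bddAbove (mem_image_of_mem _ hx)

lemma lconj_le {K : Set (Eu d)} (hKne : K.Nonempty) {φ : Eu d → ℝ} (y : Eu d) {b : ℝ}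
    (hb : ∀ x ∈ K, ⟪x, y⟫ - φ x ≤ b) : lconj K φ y ≤ b := by
  refine csSup_le (hKne.image _) ?_
  rintro _ ⟨x, hx, rfl⟩
  exact hb x hx

lemma lconj_lip_one {K : Set (Eu d)} (hKc : IsCompact K) (hKne : K.Nonempty) {φ : Eu d → ℝ}
    (hφ : Continuous φ) {RK : ℝ} (hRK : ∀ x ∈ K, ‖x‖ ≤ RK) (y y' : Eu d) :
    lconj K φ y ≤ lconj K φ y' + RK * ‖y - y'‖ := by
  refine lconj_le hKne y fun x hx => ?_
  have h1 := lconj_ge hKc hφ y' hx
  have h2 : ⟪x, y - y'⟫ ≤ RK * ‖y - y'‖ :=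
    (real_inner_le_norm _ _).trans (by gcongr; exact hRK x hx)
  rw [inner_sub_right] at h2
  linarith

lemma lconj_continuous {K : Set (Eu d)} (hKc : IsCompact K) (hKne : K.Nonempty) {φ : Eu d → ℝ}
    (hφ : Continuous φ) : Continuous (lconj K φ) := by
  obtain ⟨RK, hRK⟩ := hKc.exists_bound_of_continuousOn (f := fun x => x) continuous_id.continuousOn
  have hlip : LipschitzWith (Real.toNNReal RK) (lconj K φ) := by
    refine LipschitzWith.of_dist_le_mul fun y y' => ?_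
    rw [Real.dist_eq, dist_eq_norm, abs_le]
    obtain ⟨x, hx⟩ := hKne
    have hRK0 : 0 ≤ RK := (norm_nonneg _).trans (hRK x hx)
    rw [Real.coe_toNNReal _ hRK0]
    have h1 := lconj_lip_one hKc ⟨x, hx⟩ hφ hRK y y'
    have h2 := lconj_lip_one hKc ⟨x, hx⟩ hφ hRK y' y
    rw [norm_sub_rev] at h2
    constructor <;> linarith
  exact hlip.continuous

/-- Fenchel equality from the potential inequality. -/
lemma lconj_eq {K : Set (Eu d)} (hKc : IsCompact K) {φ : Eu d → ℝ} (hφ : Continuous φ)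
    {x y : Eu d} (hx : x ∈ K) (hp : ∀ x', φ x + ⟪y, x' - x⟫ ≤ φ x') :
    lconj K φ y = ⟪x, y⟫ - φ x := by
  refine le_antisymm (lconj_le ⟨x, hx⟩ y fun x' _ => ?_) (lconj_ge hKc hφ y hx)
  have := hp x'
  rw [inner_sub_right, real_inner_comm x' y, real_inner_comm x y] at this
  linarith

/-- Transfer of an integral from `K` to a coupling. -/
lemma integral_transfer {K : Set (Eu d)} (hV : volume K ≠ 0) (hfin : volume K ≠ ∞)
    {T : Eu d → Eu d} (hT : Measurable T) {k : Eu d → ℝ} (hk : Continuous k)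
    {π : Measure (Eu d × Eu d)} {q : Eu d × Eu d → Eu d} (hq : Measurable q)
    (hmap : π.map q = (Crest.AnalysisR.OT.uniformProbOn K).map T) :
    ∫ x in K, k (T x) = volume.real K * ∫ p, k (q p) ∂π := by
  have e1 : ∫ p, k (q p) ∂π = ∫ y, k y ∂(π.map q) :=
    (integral_map hq.aemeasurable hk.aestronglyMeasurable).symm
  have e2 : ∫ y, k y ∂((Crest.AnalysisR.OT.uniformProbOn K).map T) =
      ∫ x, k (T x) ∂(Crest.AnalysisR.OT.uniformProbOn K) :=
    integral_map hT.aemeasurable hk.aestronglyMeasurable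
  rw [e1, hmap, e2]
  unfold Crest.AnalysisR.OT.uniformProbOn
  rw [integral_smul_measure, smul_eq_mul, ← mul_assoc, ENNReal.toReal_inv]
  have : volume.real K * (volume K).toReal⁻¹ = 1 := by
    have hpos : (volume K).toReal ≠ 0 := ENNReal.toReal_ne_zero.2 ⟨hV, hfin⟩
    simp only [Measure.real]
    exact mul_inv_cancel₀ hpos
  rw [this, one_mul]

/-- Crude stability bound. -/
theorem crude_bound {K : Set (Eu d)} (hKc : IsCompact K) (hKv : Convex ℝ K)
    (hKi : (interior K).Nonempty) (R : ℝ) :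
    ∃ C : ℝ, ∀ (φ₀ φ₁ : Eu d → ℝ) (T₀ T₁ : Eu d → Eu d), Continuous φ₀ → Continuous φ₁ →
      Measurable T₀ → Measurable T₁ → IsPot K φ₀ T₀ → IsPot K φ₁ T₁ →
      (∀ᵐ x ∂(volume.restrict K), ‖T₀ x‖ ≤ R) → (∀ᵐ x ∂(volume.restrict K), ‖T₁ x‖ ≤ R) →
      ∀ (π : Measure (Eu d × Eu d)),
        π.map Prod.fst = (Crest.AnalysisR.OT.uniformProbOn K).map T₀ →
        π.map Prod.snd = (Crest.AnalysisR.OT.uniformProbOn K).map T₁ →
        (∫ x in K, ‖T₀ x - T₁ x‖ ^ 2) ^ 2 ≤ C * ∫ p, ‖p.1 - p.2‖ ∂π := by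
  obtain ⟨CK, hCK0, hCK⟩ := exists_shift_bound hKc hKv hKi
  have hK : MeasurableSet K := hKc.measurableSet
  have hKfin : volume K ≠ ∞ := hKc.measure_lt_top.ne
  have hKne : K.Nonempty := hKi.mono interior_subset
  have hV0 : volume K ≠ 0 := by
    obtain ⟨x, hx⟩ := hKi
    exact ((isOpen_interior.measure_pos volume ⟨x, hx⟩).trans_le
      (measure_mono interior_subset)).ne'
  obtain ⟨RK, hRK⟩ := hKc.exists_bound_of_continuousOn (f := fun x => x) continuous_id.continuousOn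
  have hRK0 : 0 ≤ RK := by
    obtain ⟨x, hx⟩ := hKne
    exact (norm_nonneg _).trans (hRK x hx)
  set R' := |R| with hR'
  have hR'0 : 0 ≤ R' := abs_nonneg R
  set A := 8 * R' ^ 2 * CK with hA
  have hA0 : 0 ≤ A := by positivity
  have hd0 : (0 : ℝ) ≤ d := Nat.cast_nonneg d
  set V := volume.real K with hV
  have hVnn : 0 ≤ V := measureReal_nonneg
  set Dn := 4 * (d : ℝ) * A + 1 with hDn
  have hDnpos : 0 < Dn := by positivity
  refine ⟨8 * d * R' * Dn * (V * (2 * RK)), ?_⟩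
  intro φ₀ φ₁ T₀ T₁ hφ₀ hφ₁ hT₀ hT₁ hp₀ hp₁ hb₀ hb₁ π hπ₀ hπ₁
  have hb₀' : ∀ᵐ x ∂(volume.restrict K), ‖T₀ x‖ ≤ R' := hb₀.mono fun x hx => hx.trans (le_abs_self R)
  have hb₁' : ∀ᵐ x ∂(volume.restrict K), ‖T₁ x‖ ≤ R' := hb₁.mono fun x hx => hx.trans (le_abs_self R)
  -- Legendre data
  have hψ₀c := lconj_continuous hKc hKne hφ₀
  have hψ₁c := lconj_continuous hKc hKne hφ₁
  set ψ₀ := lconj K φ₀ with hψ₀
  set ψ₁ := lconj K φ₁ with hψ₁
  set k : Eu d → ℝ := fun y => ψ₁ y - ψ₀ y with hk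
  have hkc : Continuous k := hψ₁c.sub hψ₀c
  obtain ⟨M, hM⟩ := hKc.exists_bound_of_continuousOn (hφ₀.sub hφ₁).continuousOn
  have hM' : ∀ x ∈ K, |φ₀ x - φ₁ x| ≤ M := fun x hx => by
    simpa [Real.norm_eq_abs] using hM x hx
  have hM0 : 0 ≤ M := by
    obtain ⟨x, hx⟩ := hKne
    exact (abs_nonneg _).trans (hM' x hx)
  have hkb : ∀ y, |k y| ≤ M := by
    intro y
    rw [abs_le]
    constructor
    · have : ψ₀ y ≤ ψ₁ y + M := by
        refine lconj_le hKne y fun x hx => ?_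
        have h1 := lconj_ge hKc hφ₁ y hx
        have h2 := (abs_le.1 (hM' x hx)).1
        linarith
      simp only [hk]; linarith
    · have : ψ₁ y ≤ ψ₀ y + M := by
        refine lconj_le hKne y fun x hx => ?_
        have h1 := lconj_ge hKc hφ₀ y hx
        have h2 := (abs_le.1 (hM' x hx)).2
        linarith
      simp only [hk]; linarith
  have hklip : ∀ y z, k y - k z ≤ 2 * RK * ‖y - z‖ := by
    intro y z
    have h1 := lconj_lip_one hKc hKne hφ₁ hRK y z
    have h2 := lconj_lip_one hKc hKne hφ₀ hRK z y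
    rw [norm_sub_rev] at h2
    simp only [hk]
    linarith
  -- the excess function
  set g₁ : Eu d → ℝ := fun x => ψ₁ (T₀ x) + φ₁ x - ⟪x, T₀ x⟫ with hg₁
  have hg₁m : Measurable g₁ :=
    ((hψ₁c.measurable.comp hT₀).add hφ₁.measurable).sub (measurable_id.inner hT₀)
  have hg₁nn : ∀ x ∈ K, 0 ≤ g₁ x := fun x hx => by
    have := lconj_ge hKc hφ₁ (T₀ x) hx
    simp only [hg₁]
    linarith
  have hg₁eq : ∀ᵐ x ∂(volume.restrict K), g₁ x = k (T₀ x) + (φ₁ x - φ₀ x) := by
    have hx₀ : ∀ᵐ x ∂(volume.restrict K), x ∈ K := ae_restrict_mem hK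
    filter_upwards [hp₀, hx₀] with x hx hxK
    have := lconj_eq hKc hφ₀ hxK hx
    simp only [hg₁, hk]
    rw [hψ₀, this]
    ring
  have hg₀eq : ∀ᵐ x ∂(volume.restrict K), 0 ≤ -k (T₁ x) + (φ₀ x - φ₁ x) := by
    have hx₀ : ∀ᵐ x ∂(volume.restrict K), x ∈ K := ae_restrict_mem hK
    filter_upwards [hp₁, hx₀] with x hx hxK
    have h1 := lconj_eq hKc hφ₁ hxK hx
    have h2 := lconj_ge hKc hφ₀ (T₁ x) hxK
    simp only [hk]
    rw [hψ₁, h1]
    rw [hψ₀]
    linarith
  have hg₁bd : ∀ᵐ x ∂(volume.restrict K), |g₁ x| ≤ M + M := by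
    have hx₀ : ∀ᵐ x ∂(volume.restrict K), x ∈ K := ae_restrict_mem hK
    filter_upwards [hg₁eq, hx₀] with x hx hxK
    rw [hx]
    refine (abs_add_le _ _).trans (add_le_add (hkb _) ?_)
    rw [abs_sub_comm]
    exact hM' x hxK
  have hg₁int : IntegrableOn g₁ K := integrableOn_of_ae_bdd hKfin hg₁m hg₁bd
  -- the integral D
  set D := ∫ x in K, (k (T₀ x) - k (T₁ x)) with hD
  have hk0m : Measurable (fun x => k (T₀ x)) := hkc.measurable.comp hT₀
  have hk1m : Measurable (fun x => k (T₁ x)) := hkc.measurable.comp hT₁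
  have hk0int : IntegrableOn (fun x => k (T₀ x)) K :=
    integrableOn_of_ae_bdd hKfin hk0m (B := M) (Filter.Eventually.of_forall fun x => hkb _)
  have hk1int : IntegrableOn (fun x => k (T₁ x)) K :=
    integrableOn_of_ae_bdd hKfin hk1m (B := M) (Filter.Eventually.of_forall fun x => hkb _)
  have hg₁D : ∫ x in K, g₁ x ≤ D := by
    refine integral_mono_ae hg₁int (hk0int.sub hk1int) ?_
    filter_upwards [hg₁eq, hg₀eq] with x h1 h2
    rw [h1]
    linarith
  have hg₁0 : 0 ≤ ∫ x in K, g₁ x := by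
    refine integral_nonneg_of_ae ?_
    filter_upwards [ae_restrict_mem hK] with x hx using hg₁nn x hx
  have hD0 : 0 ≤ D := hg₁0.trans hg₁D
  -- directional estimate
  set E := ∫ x in K, ‖T₀ x - T₁ x‖ ^ 2 with hE
  have hE0 : 0 ≤ E := integral_nonneg fun x => by positivity
  have key : ∀ r : ℝ, 0 < r → E ≤ 2 * d * (2 * R' * D / r + A * r) := by
    intro r hr
    refine E_le_of_dirs hKfin hR'0 hT₀ hT₁ hb₀' hb₁' fun e he => ?_
    set h : Eu d := r • e with hh
    set w : Eu d → ℝ := fun x => max ⟪T₀ x - T₁ x, e⟫ 0 with hw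
    have hwm : Measurable w := ((hT₀.sub hT₁).inner measurable_const).max measurable_const
    have hfin : volume (Ksh K h) ≠ ∞ := ne_top_of_le_ne_top hKfin (measure_mono (Ksh_subset K h))
    have hwb : ∀ᵐ x ∂(volume.restrict K), 0 ≤ w x ∧ w x ≤ 2 * R' := by
      filter_upwards [hb₀', hb₁'] with x h0 h1
      refine ⟨le_max_right _ _, max_le ?_ (by positivity)⟩
      calc ⟪T₀ x - T₁ x, e⟫ ≤ ‖T₀ x - T₁ x‖ * ‖e‖ := real_inner_le_norm _ _
        _ = ‖T₀ x - T₁ x‖ := by rw [he, mul_one]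
        _ ≤ ‖T₀ x‖ + ‖T₁ x‖ := norm_sub_le _ _
        _ ≤ 2 * R' := by linarith
    have hwbS := ae_restrict_of_ae_restrict_of_subset (Ksh_subset K h) hwb
    have hgbS := ae_restrict_of_ae_restrict_of_subset (Ksh_subset K h) hg₁bd
    have hΞ : IntegrableOn (fun x => w x * g₁ x) (Ksh K h) := by
      refine integrableOn_of_ae_bdd hfin (hwm.mul hg₁m) (B := (2 * R') * (M + M)) ?_
      filter_upwards [hwbS, hgbS] with x h1 h2
      rw [abs_mul, abs_of_nonneg h1.1]
      exact mul_le_mul h1.2 h2 (abs_nonneg _) (by positivity)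
    have hpot₁ := pot_shift_gn hK hp₁ h
    have hSK : ∀ᵐ x ∂(volume.restrict (Ksh K h)), x ∈ K ∧ x + h ∈ K := by
      rw [ae_restrict_iff' (measurableSet_Ksh hK h)]
      exact Filter.Eventually.of_forall fun x hx => hx
    have hcore := core_dir hK hKfin hR'0 hT₀ hT₁ hb₀' hb₁' hCK he hr hΞ
      (by
        filter_upwards [hpot₁] with x hx
        rw [inner_sub_left]
        linarith [hx.1, hx.2])
      (by
        filter_upwards [hpot₁, hSK] with x h1 hx
        have e1 : r * ⟪T₀ x - T₁ x, e⟫ = ⟪T₀ x, h⟫ - ⟪T₁ x, h⟫ := by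
          rw [hh, inner_smul_right, inner_smul_right, inner_sub_left]; ring
        rw [e1, inner_sub_left]
        have h3 := lconj_ge hKc hφ₁ (T₀ x) hx.2
        rw [inner_add_left, real_inner_comm (T₀ x) h] at h3
        simp only [hg₁]
        have h5 := h1.2
        linarith)
    have hwg : ∫ x in Ksh K h, w x * g₁ x ≤ 2 * R' * D := by
      have hgS : IntegrableOn g₁ (Ksh K h) := hg₁int.mono_set (Ksh_subset K h)
      have h1 : ∫ x in Ksh K h, w x * g₁ x ≤ ∫ x in Ksh K h, 2 * R' * g₁ x := by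
        refine integral_mono_ae hΞ (hgS.const_mul _) ?_
        have hxS : ∀ᵐ x ∂(volume.restrict (Ksh K h)), x ∈ K :=
          hSK.mono fun x hx => hx.1
        filter_upwards [hwbS, hxS] with x hx hxK
        exact mul_le_mul_of_nonneg_right hx.2 (hg₁nn x hxK)
      rw [integral_const_mul] at h1
      have h2 : ∫ x in Ksh K h, g₁ x ≤ ∫ x in K, g₁ x := by
        refine setIntegral_mono_set hg₁int ?_ (Filter.Eventually.of_forall (Ksh_subset K h))
        filter_upwards [ae_restrict_mem hK] with x hx using hg₁nn x hx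
      have h3 : ∫ x in Ksh K h, g₁ x ≤ D := h2.trans hg₁D
      exact h1.trans (by gcongr)
    set W := ∫ x in K, w x ^ 2 with hW
    have hrW : r * W ≤ 2 * R' * D + A * r ^ 2 := by
      have := hcore
      linarith
    have e : W = (1 / r) * (r * W) := by field_simp
    rw [e]
    calc (1 / r) * (r * W) ≤ (1 / r) * (2 * R' * D + A * r ^ 2) := by gcongr
      _ = 2 * R' * D / r + A * r := by field_simp
  -- transfer to the coupling
  have hprob : IsProbabilityMeasure (Crest.AnalysisR.OT.uniformProbOn K) := by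
    refine ⟨?_⟩
    unfold Crest.AnalysisR.OT.uniformProbOn
    simp [hV0, hKfin, ENNReal.inv_mul_cancel]
  have hπuniv : π univ = 1 := by
    have : π univ = (π.map Prod.fst) univ := by
      rw [Measure.map_apply measurable_fst MeasurableSet.univ]; rfl
    rw [this, hπ₀, Measure.map_apply hT₀ MeasurableSet.univ]
    exact measure_univ
  haveI hπfin : IsFiniteMeasure π := ⟨by rw [hπuniv]; exact ENNReal.one_lt_top⟩
  have hρae : ∀ {P : Eu d → Prop}, (∀ᵐ x ∂(volume.restrict K), P x) →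
      ∀ᵐ x ∂(Crest.AnalysisR.OT.uniformProbOn K), P x := by
    intro P hP
    unfold Crest.AnalysisR.OT.uniformProbOn
    exact Measure.ae_smul_measure hP _
  have hπb : ∀ {q : Eu d × Eu d → Eu d} {T : Eu d → Eu d}, Measurable q → Measurable T →
      π.map q = (Crest.AnalysisR.OT.uniformProbOn K).map T →
      (∀ᵐ x ∂(volume.restrict K), ‖T x‖ ≤ R') → ∀ᵐ p ∂π, ‖q p‖ ≤ R' := by
    intro q T hq hT hmap hb
    have h1 : ∀ᵐ y ∂((Crest.AnalysisR.OT.uniformProbOn K).map T), ‖y‖ ≤ R' := by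
      rw [ae_map_iff hT.aemeasurable (measurableSet_le measurable_norm measurable_const)]
      exact hρae hb
    rw [← hmap] at h1
    exact ae_of_ae_map hq.aemeasurable h1
  have hπ1 := hπb measurable_fst hT₀ hπ₀ hb₀'
  have hπ2 := hπb measurable_snd hT₁ hπ₁ hb₁'
  have hWint : Integrable (fun p : Eu d × Eu d => ‖p.1 - p.2‖) π := by
    refine Integrable.of_bound (measurable_norm.comp
      (measurable_fst.sub measurable_snd)).aestronglyMeasurable (R' + R') ?_
    filter_upwards [hπ1, hπ2] with p h1 h2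
    rw [Real.norm_eq_abs, abs_of_nonneg (norm_nonneg _)]
    exact (norm_sub_le _ _).trans (add_le_add h1 h2)
  have hkint : ∀ {q : Eu d × Eu d → Eu d}, Measurable q → Integrable (fun p => k (q p)) π := by
    intro q hq
    refine Integrable.of_bound (hkc.measurable.comp hq).aestronglyMeasurable M ?_
    exact Filter.Eventually.of_forall fun p => by simpa [Real.norm_eq_abs] using hkb (q p)
  have hT0tr := integral_transfer hV0 hKfin hT₀ hkc measurable_fst hπ₀
  have hT1tr := integral_transfer hV0 hKfin hT₁ hkc measurable_snd hπ₁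
  set W₁ := ∫ p, ‖p.1 - p.2‖ ∂π with hW₁
  have hW₁0 : 0 ≤ W₁ := integral_nonneg fun p => norm_nonneg _
  have hDle : D ≤ V * (2 * RK) * W₁ := by
    rw [hD, integral_sub hk0int hk1int, hT0tr, hT1tr, ← mul_sub,
      ← integral_sub (hkint measurable_fst) (hkint measurable_snd), mul_assoc]
    refine mul_le_mul_of_nonneg_left ?_ hVnn
    rw [hW₁, ← integral_const_mul]
    exact integral_mono ((hkint measurable_fst).sub (hkint measurable_snd))
      (hWint.const_mul _) fun p => hklip p.1 p.2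
  -- conclusion
  rcases hE0.eq_or_lt with h0 | hpos
  · rw [← h0]
    have e0 : (0:ℝ) ^ 2 = 0 := by norm_num
    rw [e0]
    positivity
  set r := E / Dn with hr
  have hrpos : 0 < r := div_pos hpos hDnpos
  have h1 := key r hrpos
  have h2 : 2 * d * (A * r) ≤ E / 2 := by
    rw [hr, div_eq_mul_inv]
    have : E * Dn⁻¹ * (4 * d * A + 1) = E := by
      rw [← hDn]; field_simp
    have hDi : 0 < Dn⁻¹ := inv_pos.2 hDnpos
    have h3 : 2 * d * (A * (E * Dn⁻¹)) = (E * Dn⁻¹) * (2 * d * A) := by ring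
    rw [h3]
    have hEi : 0 ≤ E * Dn⁻¹ := by positivity
    nlinarith
  have h3 : 2 * d * (2 * R' * D / r + A * r) = 4 * d * R' * D / r + 2 * d * (A * r) := by ring
  rw [h3] at h1
  have h4 : E / 2 ≤ 4 * d * R' * D / r := by linarith
  have h5 : E / 2 * r ≤ 4 * d * R' * D := by
    rwa [le_div_iff₀ hrpos] at h4
  have h6 : E ^ 2 = 2 * Dn * (E / 2 * r) := by
    rw [hr]; field_simp
  rw [h6]
  have h7 : 2 * Dn * (E / 2 * r) ≤ 2 * Dn * (4 * d * R' * D) := by gcongr
  have h8 : 2 * Dn * (4 * d * R' * D) ≤ 2 * Dn * (4 * d * R' * (V * (2 * RK) * W₁)) := by gcongr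
  calc _ ≤ _ := h7
    _ ≤ _ := h8
    _ = 8 * d * R' * Dn * (V * (2 * RK)) * W₁ := by ring

end Crest.Agent.OT
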