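import Crest.Agent.Lib.OT.Exist
import Crest.Agent.Lib.OT.GN

/-!
# Potentials of optimal maps, via discretization and the crude stability bound
-/

set_option autoImplicit false
open MeasureTheory Filter Topology Set
open scoped ENNReal NNReal RealInnerProductSpace

namespace Crest.Agent.OT.B2

open Crest.AnalysisR.OT

variable {d : ℕ}

/-- The uniform measure as a probability measure. -/
lemma isProb_uniform {K : Set (Eu d)} (hKc : IsCompact K) (hKi : (interior K).Nonempty) :
    IsProbabilityMeasure (uniformProbOn K) := by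
  have hVpos : 0 < volume K := lt_of_lt_of_le (isOpen_interior.measure_pos volume hKi)
    (measure_mono interior_subset)
  have hVfin : volume K < ⊤ := hKc.measure_lt_top
  constructor
  simp only [uniformProbOn, Measure.smul_apply, smul_eq_mul, Measure.restrict_apply MeasurableSet.univ,
    univ_inter]
  exact ENNReal.inv_mul_cancel hVpos.ne' hVfin.ne

lemma uniform_ac (K : Set (Eu d)) : uniformProbOn K ≪ volume := by
  unfold uniformProbOn
  exact (Measure.smul_absolutelyContinuous).trans Measure.restrict_le_self.absolutelyContinuous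

lemma uniform_compl {K : Set (Eu d)} (hKm : MeasurableSet K) : uniformProbOn K Kᶜ = 0 := by
  simp only [uniformProbOn, Measure.smul_apply, smul_eq_mul, Measure.restrict_apply hKm.compl]
  simp

/-- A finite quantization of a compact set. -/
lemma exists_quant {Y : Set (Eu d)} (hYc : IsCompact Y) {δ : ℝ} (hδ : 0 < δ) :
    ∃ q : SimpleFunc (Eu d) (Eu d), ∀ y ∈ Y, ‖q y - y‖ ≤ δ := by
  classical
  obtain ⟨t, _, htf, hcov⟩ := hYc.finite_cover_balls hδ
  obtain ⟨l, hl⟩ : ∃ l : List (Eu d), ∀ p ∈ t, p ∈ l :=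
    ⟨htf.toFinset.toList, fun p hp => by simpa using hp⟩
  set e : ℕ → Eu d := fun k => l.getD k 0 with he
  refine ⟨SimpleFunc.nearestPt e l.length, fun y hy => ?_⟩
  obtain ⟨p, hpt, hyp⟩ := mem_iUnion₂.mp (hcov hy)
  obtain ⟨k, hk, hkp⟩ := List.getElem_of_mem (hl p hpt)
  have h1 : e k = p := by
    simp only [he]
    rw [List.getD_eq_getElem _ _ hk, hkp]
  have h2 := SimpleFunc.edist_nearestPt_le e y (k := k) (N := l.length) hk.le
  rw [h1, edist_dist, edist_dist] at h2
  have h3 : dist (SimpleFunc.nearestPt e l.length y) y ≤ dist p y :=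
    (ENNReal.ofReal_le_ofReal_iff dist_nonneg).mp h2
  rw [← dist_eq_norm]
  have h4 : dist p y ≤ δ := by
    rw [dist_comm]
    exact (Metric.mem_ball.mp hyp).le
  exact h3.trans h4

/-- A pushforward concentrated on a finite set is a finite sum of Dirac masses. -/
lemma map_eq_sum_dirac {α : Type*} [MeasurableSpace α] {ν : Measure α} {f : α → Eu d}
    (hf : Measurable f) (F : Finset (Eu d)) (hF : ν (f ⁻¹' (↑F : Set (Eu d))ᶜ) = 0) :
    ν.map f = ∑ p ∈ F, ν (f ⁻¹' {p}) • Measure.dirac p := by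
  classical
  ext B hB
  rw [Measure.map_apply hf hB, Measure.coe_finsetSum, Finset.sum_apply]
  simp only [Measure.smul_apply, smul_eq_mul, Measure.dirac_apply' _ hB]
  have e1 : ∀ p ∈ F, ν (f ⁻¹' {p}) * B.indicator 1 p = if p ∈ B then ν (f ⁻¹' {p}) else 0 := by
    intro p _
    by_cases hp : p ∈ B <;> simp [hp]
  rw [Finset.sum_congr rfl e1, ← Finset.sum_filter]
  have hdisj : Set.PairwiseDisjoint (↑(F.filter (· ∈ B)) : Set (Eu d)) (fun p => f ⁻¹' {p}) := by
    intro a _ b _ hab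
    exact Disjoint.preimage f (by simpa using hab)
  rw [← measure_biUnion_finset hdisj (fun p _ => hf (measurableSet_singleton p))]
  apply le_antisymm
  · have hsub : f ⁻¹' B ⊆ (⋃ p ∈ F.filter (· ∈ B), f ⁻¹' {p}) ∪ f ⁻¹' (↑F : Set (Eu d))ᶜ := by
      intro x hx
      by_cases hxF : f x ∈ F
      · left
        exact mem_iUnion₂.mpr ⟨f x, by simpa using ⟨hxF, hx⟩, rfl⟩
      · right
        simpa using hxF
    refine (measure_mono hsub).trans ((measure_union_le _ _).trans ?_)
    rw [hF, add_zero]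
  · refine measure_mono (iUnion₂_subset (fun p hp x hx => ?_))
    have : f x = p := hx
    simp only [mem_preimage, this]
    exact (Finset.mem_filter.mp hp).2

/-- Measurable index maps for the cells. -/
lemma exists_index_map {I : Type} [Fintype I] [Nonempty I] {K : Set (Eu d)} (hKm : MeasurableSet K)
    (y : I → Eu d) (c : I → ℝ) :
    ∃ S : Eu d → Eu d, Measurable S ∧ ∀ x ∈ K, ∃ l, x ∈ cell K y c l ∧ S x = y l := by
  classical
  obtain ⟨l₀⟩ := ‹Nonempty I›
  obtain ⟨N, ⟨e⟩⟩ : ∃ N, Nonempty (I ≃ Fin N) := ⟨_, ⟨Fintype.equivFin I⟩⟩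
  set idx : ℕ → I := fun n => if h : n < N then e.symm ⟨n, h⟩ else l₀ with hidx
  set p : ℕ → Eu d → Prop := fun n x => x ∉ K ∨ N ≤ n ∨ x ∈ cell K y c (idx n) with hp
  have hpm : ∀ n, MeasurableSet {x | p n x} := by
    intro n
    have : {x | p n x} = Kᶜ ∪ ({x | N ≤ n} ∪ cell K y c (idx n)) := by
      ext x
      simp [hp]
    rw [this]
    exact hKm.compl.union ((MeasurableSet.const _).union (measurableSet_cell hKm y c _))
  have hex : ∀ x, ∃ n, p n x := fun x => ⟨N, Or.inr (Or.inl le_rfl)⟩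
  refine ⟨fun x => y (idx (Nat.find (hex x))), ?_, ?_⟩
  · exact Measurable.find (f := fun n _ => y (idx n)) (fun n => measurable_const) hpm hex
  · intro x hx
    -- the first index is genuine
    obtain ⟨l, hl⟩ := exists_mem_cell y c hx
    have hlt : Nat.find (hex x) < N := by
      have h1 : p (e l : ℕ) x := by
        right; right
        have : idx (e l : ℕ) = l := by
          simp [hidx]
        rwa [this]
      exact lt_of_le_of_lt (Nat.find_min' (hex x) h1) (e l).2
    have h2 := Nat.find_spec (hex x)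
    rcases h2 with h2 | h2 | h2
    · exact absurd hx h2
    · exact absurd hlt (not_lt.mpr h2)
    · exact ⟨_, h2, rfl⟩

/-- The semi-discrete approximation attached to a quantization. -/
theorem exists_discrete {K : Set (Eu d)} (hKc : IsCompact K) (hKi : (interior K).Nonempty)
    {Y : Set (Eu d)} {μ : Measure (Eu d)} (hμ : IsProbabilityOn Y μ)
    (q : SimpleFunc (Eu d) (Eu d)) {R : ℝ} (hqR : ∀ y ∈ Y, ‖q y‖ ≤ R) :
    ∃ (S : Eu d → Eu d) (φ : Eu d → ℝ), Measurable S ∧ Continuous φ ∧ IsPot K φ S ∧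
      (∀ x ∈ K, ‖S x‖ ≤ R) ∧ (∀ x x', φ x - φ x' ≤ R * ‖x - x'‖) ∧
      (uniformProbOn K).map S = μ.map q := by
  classical
  have hprobμ : IsProbabilityMeasure μ := hμ.1
  have hKm := hKc.measurableSet
  have hprobρ := isProb_uniform hKc hKi
  set P := q.range with hP
  set F := P.filter (fun p => 0 < μ (q ⁻¹' {p})) with hF
  have hsumP : ∑ p ∈ P, μ (q ⁻¹' {p}) = 1 := by
    have h1 := SimpleFunc.sum_measure_preimage_singleton q (μ := μ) P
    rw [h1]
    have : (q ⁻¹' (↑P : Set (Eu d))) = univ := by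
      ext x
      simp [hP]
    rw [this, measure_univ]
  have hsumF : ∑ p ∈ F, μ (q ⁻¹' {p}) = 1 := by
    rw [← hsumP, hF]
    refine Finset.sum_filter_of_ne (fun p _ hne => ?_)
    exact pos_iff_ne_zero.mpr hne
  have hFne : F.Nonempty := by
    by_contra hcon
    rw [Finset.not_nonempty_iff_eq_empty] at hcon
    rw [hcon] at hsumF
    simp at hsumF
  have : Nonempty F := hFne.to_subtype
  have hposF : ∀ l : F, 0 < μ (q ⁻¹' {(l : Eu d)}) := fun l => (Finset.mem_filter.mp l.2).2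
  have hfin : ∀ p, μ (q ⁻¹' {p}) ≠ ⊤ := fun p => measure_ne_top _ _
  set y : F → Eu d := Subtype.val with hy
  have hyinj : Function.Injective y := Subtype.val_injective
  set m : F → ℝ := fun l => (μ (q ⁻¹' {(l : Eu d)})).toReal with hm
  have hmpos : ∀ l, 0 < m l := fun l => ENNReal.toReal_pos (hposF l).ne' (hfin _)
  have hmsum : ∑ l, m l = 1 := by
    have h1 : ∑ l : F, m l = ∑ p ∈ F, (μ (q ⁻¹' {p})).toReal :=
      Finset.sum_coe_sort F (fun p => (μ (q ⁻¹' {p})).toReal)
    rw [h1, ← ENNReal.toReal_sum (fun p _ => hfin p), hsumF]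
    simp
  have hyR : ∀ l, ‖y l‖ ≤ R := by
    intro l
    have h1 : (q ⁻¹' {(l : Eu d)} ∩ Y).Nonempty := by
      by_contra hcon
      rw [Set.not_nonempty_iff_eq_empty] at hcon
      have h2 : q ⁻¹' {(l : Eu d)} ⊆ Yᶜ := by
        intro x hx hxY
        have : x ∈ q ⁻¹' {(l : Eu d)} ∩ Y := ⟨hx, hxY⟩
        rw [hcon] at this
        exact this
      have h3 := measure_mono_null h2 hμ.2
      exact (hposF l).ne' h3
    obtain ⟨x, hx, hxY⟩ := h1
    have h2 : q x = y l := hx
    rw [← h2]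
    exact hqR x hxY
  obtain ⟨c, hc⟩ := exists_heights hKc y hyinj m hmpos hmsum (uniformProbOn K) (uniform_ac K)
    (uniform_compl hKm)
  obtain ⟨S, hSm, hS⟩ := exists_index_map hKm y c
  refine ⟨S, pot y c, hSm, continuous_pot y c, ?_, ?_, ?_, ?_⟩
  · -- `IsPot`
    refine ae_restrict_of_forall_mem hKm (fun x hx x' => ?_)
    obtain ⟨l, hl, hSl⟩ := hS x hx
    rw [hSl, pot_eq_of_mem_cell hl]
    have h1 := le_pot y c x' l
    have h2 : ⟪y l, x' - x⟫ = ⟪x', y l⟫ - ⟪x, y l⟫ := by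
      rw [inner_sub_right, real_inner_comm, real_inner_comm x (y l)]
    rw [h2]
    linarith
  · intro x hx
    obtain ⟨l, _, hSl⟩ := hS x hx
    rw [hSl]
    exact hyR l
  · intro x x'
    obtain ⟨l, hl⟩ := exists_pot_eq y c x
    have h1 := le_pot y c x' l
    have h2 : ⟪x, y l⟫ - ⟪x', y l⟫ = ⟪x - x', y l⟫ := by rw [inner_sub_left]
    have h3 : ⟪x - x', y l⟫ ≤ ‖x - x'‖ * ‖y l‖ := real_inner_le_norm _ _
    have h4 : ‖x - x'‖ * ‖y l‖ ≤ ‖x - x'‖ * R :=
      mul_le_mul_of_nonneg_left (hyR l) (norm_nonneg _)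
    nlinarith
  · -- the pushforward
    have hρS : ∀ l : F, uniformProbOn K (S ⁻¹' {y l}) = uniformProbOn K (cell K y c l) := by
      intro l
      apply le_antisymm
      · have hsub : S ⁻¹' {y l} ⊆ cell K y c l ∪ Kᶜ := by
          intro x hx
          by_cases hxK : x ∈ K
          · left
            obtain ⟨j, hj, hSj⟩ := hS x hxK
            have : y j = y l := by
              rw [← hSj]
              exact hx
            rwa [hyinj this] at hj
          · right
            exact hxK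
        refine (measure_mono hsub).trans ((measure_union_le _ _).trans ?_)
        rw [uniform_compl hKm, add_zero]
      · have hsub : cell K y c l ⊆ S ⁻¹' {y l} ∪ ⋃ j, ⋃ (_ : j ≠ l), (cell K y c j ∩ cell K y c l) := by
          intro x hx
          obtain ⟨j, hj, hSj⟩ := hS x hx.1
          by_cases hjl : j = l
          · left
            subst hjl
            exact hSj
          · right
            exact mem_iUnion₂.mpr ⟨j, hjl, hj, hx⟩
        refine (measure_mono hsub).trans ((measure_union_le _ _).trans ?_)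
        have hnull : uniformProbOn K (⋃ j, ⋃ (_ : j ≠ l), (cell K y c j ∩ cell K y c l)) = 0 := by
          refine measure_iUnion_null (fun j => measure_iUnion_null (fun hjl => ?_))
          exact uniform_ac K (cell_inter_null hyinj c hjl)
        rw [hnull, add_zero]
    have h1 : (uniformProbOn K).map S = ∑ p ∈ F, uniformProbOn K (S ⁻¹' {p}) • Measure.dirac p := by
      refine map_eq_sum_dirac hSm F ?_
      refine measure_mono_null (fun x hx => ?_) (uniform_compl hKm)
      intro hxK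
      obtain ⟨l, _, hSl⟩ := hS x hxK
      apply hx
      rw [hSl]
      exact l.2
    have h2 : μ.map q = ∑ p ∈ F, μ (q ⁻¹' {p}) • Measure.dirac p := by
      refine map_eq_sum_dirac q.measurable F ?_
      have hsub : q ⁻¹' (↑F : Set (Eu d))ᶜ ⊆ ⋃ p ∈ P \ F, q ⁻¹' {p} := by
        intro x hx
        refine mem_iUnion₂.mpr ⟨q x, ?_, rfl⟩
        rw [Finset.mem_sdiff]
        exact ⟨by simp [hP], by simpa using hx⟩
      refine measure_mono_null hsub ((measure_biUnion_null_iff (Finset.countable_toSet _)).mpr ?_)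
      intro p hp
      have hp' := Finset.mem_sdiff.mp hp
      by_contra hne
      exact hp'.2 (Finset.mem_filter.mpr ⟨hp'.1, pos_iff_ne_zero.mpr hne⟩)
    rw [h1, h2]
    refine Finset.sum_congr rfl (fun p hp => ?_)
    congr 1
    have h3 := hρS ⟨p, hp⟩
    have h4 := hc ⟨p, hp⟩
    simp only [hy] at h3 h4
    rw [h3, h4]
    simp only [hm]
    exact ENNReal.ofReal_toReal (hfin p)

/-- Existence of a limit map with a potential, pushing the uniform measure to `μ`. -/
theorem exists_limit_map {K : Set (Eu d)} (hKc : IsCompact K) (hKv : Convex ℝ K)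
    (hKi : (interior K).Nonempty) {Y : Set (Eu d)} (hYc : IsCompact Y) {μ : Measure (Eu d)}
    (hμ : IsProbabilityOn Y μ) :
    ∃ (T : Eu d → Eu d) (Φ : Eu d → ℝ), Measurable T ∧ Continuous Φ ∧ IsPot K Φ T ∧
      (uniformProbOn K).map T = μ := by
  classical
  have hKm := hKc.measurableSet
  have hprobμ : IsProbabilityMeasure μ := hμ.1
  have hprobρ := isProb_uniform hKc hKi
  obtain ⟨R₀, hR₀⟩ := hYc.isBounded.exists_norm_le
  set R : ℝ := |R₀| + 1 with hR
  have hRpos : 0 < R := by positivity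
  set δ : ℕ → ℝ := fun n => 1 / ((n : ℝ) + 1) with hδ
  have hδpos : ∀ n, 0 < δ n := fun n => by simp only [hδ]; positivity
  have hδle : ∀ n, δ n ≤ 1 := fun n => by
    simp only [hδ]
    rw [div_le_one (by positivity)]
    have : (0 : ℝ) ≤ n := Nat.cast_nonneg n
    linarith
  have hδlim : Tendsto δ atTop (𝓝 0) := tendsto_one_div_add_atTop_nhds_zero_nat
  choose q hq using fun n => exists_quant hYc (hδpos n)
  have hqR : ∀ n, ∀ y ∈ Y, ‖q n y‖ ≤ R := by
    intro n y hy
    have h1 : ‖q n y‖ ≤ ‖q n y - y‖ + ‖y‖ := by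
      have := norm_add_le (q n y - y) y
      simpa using this
    have h2 := hq n y hy
    have h3 := hR₀ y hy
    have h4 := le_abs_self R₀
    have h5 := hδle n
    rw [hR]
    linarith
  choose S φ hSm hφc hpot hSR hφL hmap using fun n => exists_discrete hKc hKi hμ (q n) (hqR n)
  obtain ⟨C, hC⟩ := crude_bound hKc hKv hKi R
  have hSRae : ∀ n, ∀ᵐ x ∂(volume.restrict K), ‖S n x‖ ≤ R := fun n =>
    ae_restrict_of_forall_mem hKm (hSR n)
  have hY_ae : ∀ᵐ y ∂μ, y ∈ Y := by
    have := hμ.2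
    exact measure_eq_zero_iff_ae_notMem.mp this |>.mono (fun y hy => by simpa using hy)
  -- the crude estimate
  have hcrude : ∀ n m, (∫ x in K, ‖S n x - S m x‖ ^ 2) ^ 2 ≤ |C| * (δ n + δ m) := by
    intro n m
    have hpm : Measurable (fun y => (q n y, q m y)) :=
      (q n).measurable.prodMk (q m).measurable
    have h1 := hC (φ n) (φ m) (S n) (S m) (hφc n) (hφc m) (hSm n) (hSm m) (hpot n) (hpot m)
      (hSRae n) (hSRae m) (μ.map (fun y => (q n y, q m y)))
      (by
        rw [Measure.map_map measurable_fst hpm, hmap n]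
        rfl)
      (by
        rw [Measure.map_map measurable_snd hpm, hmap m]
        rfl)
    have h2 : ∫ p, ‖p.1 - p.2‖ ∂(μ.map (fun y => (q n y, q m y))) = ∫ y, ‖q n y - q m y‖ ∂μ := by
      refine integral_map hpm.aemeasurable ?_
      exact (by fun_prop : Continuous fun p : Eu d × Eu d => ‖p.1 - p.2‖).aestronglyMeasurable
    rw [h2] at h1
    have h3 : ‖∫ y, ‖q n y - q m y‖ ∂μ‖ ≤ (δ n + δ m) * μ.real univ := by
      refine norm_integral_le_of_norm_le_const ?_
      filter_upwards [hY_ae] with y hy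
      rw [norm_norm]
      have h4 := hq n y hy
      have h5 := hq m y hy
      have h6 : q n y - q m y = (q n y - y) - (q m y - y) := by abel
      rw [h6]
      exact (norm_sub_le _ _).trans (add_le_add h4 h5)
    simp only [probReal_univ, mul_one] at h3
    have h4 := (le_abs_self _).trans h3
    have h5 : C * ∫ y, ‖q n y - q m y‖ ∂μ ≤ |C| * (δ n + δ m) := by
      calc C * ∫ y, ‖q n y - q m y‖ ∂μ ≤ |C| * ∫ y, ‖q n y - q m y‖ ∂μ :=
            mul_le_mul_of_nonneg_right (le_abs_self C)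
              (integral_nonneg fun y => norm_nonneg _)
        _ ≤ _ := mul_le_mul_of_nonneg_left h4 (abs_nonneg C)
    exact h1.trans h5
  -- the `L²` sequence
  have hfinK : IsFiniteMeasure (volume.restrict K) :=
    ⟨by simpa using hKc.measure_lt_top⟩
  have hmem : ∀ n, MemLp (S n) 2 (volume.restrict K) := fun n =>
    MemLp.of_bound (hSm n).aestronglyMeasurable R (hSRae n)
  set F : ℕ → Lp (Eu d) 2 (volume.restrict K) := fun n => (hmem n).toLp (S n) with hF
  have hdist : ∀ n m, dist (F n) (F m) ^ 2 = ∫ x in K, ‖S n x - S m x‖ ^ 2 := by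
    intro n m
    rw [dist_eq_norm, ← real_inner_self_eq_norm_sq, L2.inner_def]
    refine integral_congr_ae ?_
    have h1 := Lp.coeFn_sub (F n) (F m)
    have h2 := MemLp.coeFn_toLp (hmem n)
    have h3 := MemLp.coeFn_toLp (hmem m)
    filter_upwards [h1, h2, h3] with x hx1 hx2 hx3
    rw [hx1, real_inner_self_eq_norm_sq]
    simp only [Pi.sub_apply, hF]
    rw [hx2, hx3]
  have hCauchy : CauchySeq F := by
    rw [Metric.cauchySeq_iff]
    intro ε hε
    have hlim : Tendsto (fun n => |C| * (δ n + δ n)) atTop (𝓝 (|C| * (0 + 0))) :=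
      Tendsto.const_mul _ (hδlim.add hδlim)
    simp only [add_zero, mul_zero] at hlim
    obtain ⟨N, hN⟩ := (hlim.eventually (gt_mem_nhds (by positivity : 0 < ε ^ 4))).exists
    refine ⟨N, fun n hn m hm => ?_⟩
    have hδanti : ∀ k, N ≤ k → δ k ≤ δ N := fun k hk => by
      simp only [hδ]
      apply one_div_le_one_div_of_le (by positivity)
      have : (N : ℝ) ≤ k := by exact_mod_cast hk
      linarith
    have h1 := hcrude n m
    rw [← hdist] at h1
    have h2 : |C| * (δ n + δ m) ≤ |C| * (δ N + δ N) :=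
      mul_le_mul_of_nonneg_left (add_le_add (hδanti n hn) (hδanti m hm)) (abs_nonneg C)
    have h3 : dist (F n) (F m) ^ 4 < ε ^ 4 := by
      have : dist (F n) (F m) ^ 4 = (dist (F n) (F m) ^ 2) ^ 2 := by ring
      rw [this]
      linarith
    exact lt_of_pow_lt_pow_left₀ 4 hε.le h3
  obtain ⟨G, hG⟩ := cauchySeq_tendsto_of_complete hCauchy
  have hmeas := tendstoInMeasure_of_tendsto_Lp hG
  obtain ⟨ns, hns, hae⟩ := hmeas.exists_seq_tendsto_ae
  have hae' : ∀ᵐ x ∂(volume.restrict K), Tendsto (fun i => S (ns i) x) atTop (𝓝 (G x)) := by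
    filter_upwards [hae, ae_all_iff.mpr (fun i => MemLp.coeFn_toLp (hmem (ns i)))] with x hx1 hx2
    refine hx1.congr (fun i => ?_)
    exact hx2 i
  have hTm : Measurable (G : Eu d → Eu d) := (Lp.stronglyMeasurable G).measurable
  have hae'' : ∀ᵐ x ∂(uniformProbOn K), Tendsto (fun i => S (ns i) x) atTop (𝓝 (G x)) := by
    unfold uniformProbOn
    exact Measure.ae_smul_measure hae' _
  -- the pushforward
  have hpush : (uniformProbOn K).map (G : Eu d → Eu d) = μ := by
    have : IsFiniteMeasure ((uniformProbOn K).map (G : Eu d → Eu d)) :=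
      Measure.isFiniteMeasure_map _ _
    refine ext_of_forall_integral_eq_of_IsFiniteMeasure (fun f => ?_)
    rw [integral_map hTm.aemeasurable f.continuous.aestronglyMeasurable]
    have hL1 : Tendsto (fun i => ∫ x, f (S (ns i) x) ∂(uniformProbOn K)) atTop
        (𝓝 (∫ x, f (G x) ∂(uniformProbOn K))) := by
      refine tendsto_integral_of_dominated_convergence (fun _ => ‖f‖)
        (fun i => (f.continuous.measurable.comp (hSm _)).aestronglyMeasurable)
        (integrable_const _) (fun i => ae_of_all _ fun x => f.norm_coe_le_norm _) ?_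
      filter_upwards [hae''] with x hx
      exact (f.continuous.tendsto _).comp hx
    have hL2 : Tendsto (fun i => ∫ y, f (q (ns i) y) ∂μ) atTop (𝓝 (∫ y, f y ∂μ)) := by
      refine tendsto_integral_of_dominated_convergence (fun _ => ‖f‖)
        (fun i => (f.continuous.measurable.comp (q _).measurable).aestronglyMeasurable)
        (integrable_const _) (fun i => ae_of_all _ fun x => f.norm_coe_le_norm _) ?_
      filter_upwards [hY_ae] with y hy
      refine (f.continuous.tendsto _).comp ?_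
      rw [tendsto_iff_norm_sub_tendsto_zero]
      have h1 : Tendsto (fun i => δ (ns i)) atTop (𝓝 0) := hδlim.comp hns.tendsto_atTop
      exact squeeze_zero (fun _ => norm_nonneg _) (fun i => hq (ns i) y hy) h1
    have heq : ∀ i, ∫ x, f (S (ns i) x) ∂(uniformProbOn K) = ∫ y, f (q (ns i) y) ∂μ := by
      intro i
      rw [← integral_map (hSm _).aemeasurable f.continuous.aestronglyMeasurable, hmap,
        integral_map (q _).measurable.aemeasurable f.continuous.aestronglyMeasurable]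
    simp_rw [heq] at hL1
    exact tendsto_nhds_unique hL1 hL2
  -- the potential: an ultrafilter limit
  set ψ : ℕ → Eu d → ℝ := fun n x => φ n x - φ n 0 with hψ
  have hψbd : ∀ n x, |ψ n x| ≤ R * ‖x‖ := by
    intro n x
    have h1 := hφL n x 0
    have h2 := hφL n 0 x
    simp only [sub_zero, zero_sub, norm_neg] at h1 h2
    rw [abs_le]
    simp only [hψ]
    constructor <;> linarith
  set 𝒰 : Ultrafilter ℕ := hyperfilter ℕ with h𝒰
  have hlim : ∀ x, ∃ a, Tendsto (fun i => ψ (ns i) x) (𝒰 : Filter ℕ) (𝓝 a) := by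
    intro x
    have hcomp : IsCompact (Icc (-(R * ‖x‖)) (R * ‖x‖)) := isCompact_Icc
    obtain ⟨a, _, ha⟩ := hcomp.ultrafilter_le_nhds (𝒰.map fun i => ψ (ns i) x) (by
      rw [le_principal_iff, Ultrafilter.coe_map]
      refine mem_map.mpr (Eventually.of_forall fun i => ?_)
      exact abs_le.mp (hψbd _ x))
    exact ⟨a, ha⟩
  choose Φ hΦ using hlim
  have hΦL : ∀ x x', Φ x - Φ x' ≤ R * ‖x - x'‖ := by
    intro x x'
    refine le_of_tendsto_of_tendsto' ((hΦ x).sub (hΦ x')) tendsto_const_nhds (fun i => ?_)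
    have := hφL (ns i) x x'
    simp only [hψ]
    linarith
  have hΦc : Continuous Φ := by
    have : LipschitzWith (Real.toNNReal R) Φ := by
      refine LipschitzWith.of_dist_le_mul (fun x x' => ?_)
      rw [Real.dist_eq, dist_eq_norm, Real.coe_toNNReal _ hRpos.le, abs_le]
      have h1 := hΦL x x'
      have h2 := hΦL x' x
      rw [norm_sub_rev] at h2
      constructor <;> linarith
    exact this.continuous
  refine ⟨G, Φ, hTm, hΦc, ?_, hpush⟩
  filter_upwards [hae', ae_all_iff.mpr (fun i => hpot (ns i))] with x hx hpx x'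
  have hin : Tendsto (fun i => ⟪S (ns i) x, x' - x⟫) (𝒰 : Filter ℕ) (𝓝 ⟪G x, x' - x⟫) :=
    (hx.mono_left Nat.hyperfilter_le_atTop).inner tendsto_const_nhds
  refine le_of_tendsto_of_tendsto' ((hΦ x).add hin) (hΦ x') (fun i => ?_)
  have := hpx i x'
  simp only [hψ]
  linarith

/-- Potentials of quadratic optimal maps from the uniform measure. -/
theorem exists_pot_of_isOptimalMap {K : Set (Eu d)} (hKc : IsCompact K) (hKv : Convex ℝ K)
    (hKi : (interior K).Nonempty) {Y : Set (Eu d)} (hYc : IsCompact Y) {μ : Measure (Eu d)}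
    (hμ : IsProbabilityOn Y μ) {T : Eu d → Eu d} (hT : IsOptimalMap (uniformProbOn K) μ T) :
    ∃ φ : Eu d → ℝ, Continuous φ ∧ IsPot K φ T ∧ ∀ᵐ x ∂(volume.restrict K), T x ∈ Y := by
  classical
  have hKm := hKc.measurableSet
  have hprobμ : IsProbabilityMeasure μ := hμ.1
  have hprobρ := isProb_uniform hKc hKi
  obtain ⟨hTm, hTmap, hTopt⟩ := hT
  obtain ⟨T₁, Φ, hT₁m, hΦc, hpot₁, hT₁map⟩ := exists_limit_map hKc hKv hKi hYc hμ
  set ρ := uniformProbOn K with hρ
  have hVpos : 0 < volume K := lt_of_lt_of_le (isOpen_interior.measure_pos volume hKi)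
    (measure_mono interior_subset)
  have hVfin : volume K < ⊤ := hKc.measure_lt_top
  -- a.e. transfers between `ρ` and the restricted volume
  have hρ_of : ∀ {P : Eu d → Prop}, (∀ᵐ x ∂(volume.restrict K), P x) → ∀ᵐ x ∂ρ, P x := by
    intro P h
    rw [hρ]
    unfold uniformProbOn
    exact Measure.ae_smul_measure h _
  have hρ_to : ∀ {P : Eu d → Prop}, (∀ᵐ x ∂ρ, P x) → ∀ᵐ x ∂(volume.restrict K), P x := by
    intro P h
    rw [hρ] at h
    unfold uniformProbOn at h
    rw [ae_iff] at h ⊢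
    simp only [Measure.smul_apply, smul_eq_mul, mul_eq_zero, ENNReal.inv_eq_zero] at h
    rcases h with h | h
    · exact absurd h hVfin.ne
    · exact h
  have hK_ae : ∀ᵐ x ∂ρ, x ∈ K := by
    have h : ρ Kᶜ = 0 := uniform_compl hKm
    exact measure_eq_zero_iff_ae_notMem.mp h |>.mono (fun y hy => by simpa using hy)
  have hpre : ∀ {S : Eu d → Eu d}, Measurable S → ρ.map S = μ → ∀ᵐ x ∂ρ, S x ∈ Y := by
    intro S hS hmap
    have h : ρ (S ⁻¹' Yᶜ) = 0 := by
      rw [← Measure.map_apply hS hYc.measurableSet.compl, hmap]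
      exact hμ.2
    exact measure_eq_zero_iff_ae_notMem.mp h |>.mono (fun y hy => by simpa using hy)
  have hTY := hpre hTm hTmap
  have hT₁Y := hpre hT₁m hT₁map
  obtain ⟨RK, hRK⟩ := hKc.isBounded.exists_norm_le
  obtain ⟨RY, hRY⟩ := hYc.isBounded.exists_norm_le
  -- integrability of bounded functions
  have hbdd : ∀ {f : Eu d → ℝ} (C : ℝ), Measurable f → (∀ᵐ x ∂ρ, |f x| ≤ C) → Integrable f ρ := by
    intro f C hf hC
    refine Integrable.of_bound hf.aestronglyMeasurable C ?_
    filter_upwards [hC] with x hx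
    rwa [Real.norm_eq_abs]
  have hinnerT : ∀ {S : Eu d → Eu d}, Measurable S → (∀ᵐ x ∂ρ, S x ∈ Y) →
      Integrable (fun x => ⟪x, S x⟫) ρ := by
    intro S hS hY
    refine hbdd (|RK| * |RY|) (measurable_id.inner hS) ?_
    filter_upwards [hY, hK_ae] with x hx1 hx2
    refine (abs_real_inner_le_norm _ _).trans ?_
    exact mul_le_mul ((hRK x hx2).trans (le_abs_self _)) ((hRY _ hx1).trans (le_abs_self _))
      (norm_nonneg _) (abs_nonneg _)
  have hnormT : ∀ {S : Eu d → Eu d}, Measurable S → (∀ᵐ x ∂ρ, S x ∈ Y) →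
      Integrable (fun x => ‖S x‖ ^ 2) ρ := by
    intro S hS hY
    refine hbdd (|RY| ^ 2) (by fun_prop) ?_
    filter_upwards [hY] with x hx1
    rw [abs_of_nonneg (by positivity)]
    exact pow_le_pow_left₀ (norm_nonneg _) ((hRY _ hx1).trans (le_abs_self _)) 2
  have hnormx : Integrable (fun x : Eu d => ‖x‖ ^ 2) ρ := by
    refine hbdd (|RK| ^ 2) (by fun_prop) ?_
    filter_upwards [hK_ae] with x hx1
    rw [abs_of_nonneg (by positivity)]
    exact pow_le_pow_left₀ (norm_nonneg _) ((hRK _ hx1).trans (le_abs_self _)) 2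
  -- cost as a Bochner integral
  have hexpand : ∀ {S : Eu d → Eu d}, Measurable S → (∀ᵐ x ∂ρ, S x ∈ Y) →
      ∫ x, ‖x‖ ^ 2 ∂ρ - 2 * ∫ x, ⟪x, S x⟫ ∂ρ + ∫ x, ‖S x‖ ^ 2 ∂ρ = ∫ x, ‖x - S x‖ ^ 2 ∂ρ := by
    intro S hS hY
    have hform : ∀ x, ‖x - S x‖ ^ 2 = ‖x‖ ^ 2 - 2 * ⟪x, S x⟫ + ‖S x‖ ^ 2 := fun x =>
      norm_sub_sq_real _ _
    have i2 : Integrable (fun x => 2 * ⟪x, S x⟫) ρ := (hinnerT hS hY).const_mul 2
    have i1 : Integrable (fun x => ‖x‖ ^ 2 - 2 * ⟪x, S x⟫) ρ := hnormx.sub i2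
    simp_rw [hform]
    rw [integral_add i1 (hnormT hS hY), integral_sub hnormx i2, integral_const_mul]
  have hcost : ∀ {S : Eu d → Eu d}, Measurable S → (∀ᵐ x ∂ρ, S x ∈ Y) →
      ∫⁻ x, ‖x - S x‖ₑ ^ 2 ∂ρ =
        ENNReal.ofReal (∫ x, ‖x‖ ^ 2 ∂ρ - 2 * ∫ x, ⟪x, S x⟫ ∂ρ + ∫ x, ‖S x‖ ^ 2 ∂ρ) := by
    intro S hS hY
    have hform : ∀ x, ‖x - S x‖ ^ 2 = ‖x‖ ^ 2 - 2 * ⟪x, S x⟫ + ‖S x‖ ^ 2 := fun x =>
      norm_sub_sq_real _ _
    have hint : Integrable (fun x => ‖x - S x‖ ^ 2) ρ := by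
      simp_rw [hform]
      exact (hnormx.sub ((hinnerT hS hY).const_mul 2)).add (hnormT hS hY)
    rw [hexpand hS hY, ofReal_integral_eq_lintegral_ofReal hint (ae_of_all _ fun x => by positivity)]
    refine lintegral_congr (fun x => ?_)
    rw [ENNReal.ofReal_pow (norm_nonneg _), ofReal_norm]
  -- second moments agree
  have hmom : ∀ {S : Eu d → Eu d}, Measurable S → ρ.map S = μ →
      ∫ x, ‖S x‖ ^ 2 ∂ρ = ∫ y, ‖y‖ ^ 2 ∂μ := by
    intro S hS hmap
    rw [← hmap, integral_map hS.aemeasurable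
      (by fun_prop : Continuous fun y : Eu d => ‖y‖ ^ 2).aestronglyMeasurable]
  -- optimality in terms of correlations
  have hcorr : ∫ x, ⟪x, T₁ x⟫ ∂ρ ≤ ∫ x, ⟪x, T x⟫ ∂ρ := by
    have h1 := hTopt T₁ hT₁m hT₁map
    rw [hcost hTm hTY, hcost hT₁m hT₁Y, hmom hTm hTmap, hmom hT₁m hT₁map] at h1
    have hnn : 0 ≤ ∫ x, ‖x‖ ^ 2 ∂ρ - 2 * ∫ x, ⟪x, T₁ x⟫ ∂ρ + ∫ y, ‖y‖ ^ 2 ∂μ := by
      rw [← hmom hT₁m hT₁map]
      rw [hexpand hT₁m hT₁Y]
      exact integral_nonneg (fun x => by positivity)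
    have h2 := (ENNReal.ofReal_le_ofReal_iff hnn).mp h1
    linarith
  -- truncated conjugates
  set ψ : ℕ → Eu d → ℝ := fun N y =>
    sSup ((fun x' : Eu d => ⟪x', y⟫ - Φ x') '' Metric.closedBall (0 : Eu d) N) with hψ
  have hψc : ∀ N : ℕ, Continuous (ψ N) := by
    intro N
    have hjoint : Continuous (Function.uncurry fun (y x' : Eu d) => ⟪x', y⟫ - Φ x') := by
      have h1 : Continuous fun p : Eu d × Eu d => ⟪p.2, p.1⟫ :=
        continuous_snd.inner continuous_fst
      have h2 : Continuous fun p : Eu d × Eu d => Φ p.2 := hΦc.comp continuous_snd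
      exact h1.sub h2
    exact (isCompact_closedBall (0 : Eu d) (N : ℝ)).continuous_sSup hjoint
  have hψle : ∀ (N : ℕ) (y x' : Eu d), ‖x'‖ ≤ (N : ℝ) → ⟪x', y⟫ - Φ x' ≤ ψ N y := by
    intro N y x' hx'
    have hcont : ContinuousOn (fun x' : Eu d => ⟪x', y⟫ - Φ x') (Metric.closedBall (0 : Eu d) N) :=
      ((continuous_id.inner continuous_const).sub hΦc).continuousOn
    exact le_csSup ((isCompact_closedBall (0 : Eu d) (N : ℝ)).image_of_continuousOn hcont).bddAbove
      (mem_image_of_mem _ (by simpa using hx'))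
  have hψ_of_sub : ∀ (N : ℕ) (y x : Eu d), ‖x‖ ≤ (N : ℝ) → (∀ x', Φ x + ⟪y, x' - x⟫ ≤ Φ x') →
      ψ N y = ⟪x, y⟫ - Φ x := by
    intro N y x hx hsub
    apply le_antisymm
    · refine csSup_le ⟨_, mem_image_of_mem _ (Metric.mem_closedBall_self (by positivity))⟩ ?_
      rintro _ ⟨x', _, rfl⟩
      have h1 := hsub x'
      have h2 : ⟪y, x' - x⟫ = ⟪x', y⟫ - ⟪x, y⟫ := by
        rw [inner_sub_right, real_inner_comm, real_inner_comm x y]
      rw [h2] at h1
      simp only
      linarith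
    · exact hψle N y x hx
  obtain ⟨N₀, hN₀⟩ := exists_nat_ge RK
  have hKN : ∀ N : ℕ, N₀ ≤ N → ∀ x ∈ K, ‖x‖ ≤ N := by
    intro N hN x hx
    refine (hRK x hx).trans (hN₀.trans ?_)
    exact_mod_cast hN
  have hcompK : ∃ B, ∀ x ∈ K, |Φ x| ≤ B := by
    obtain ⟨B, hB⟩ := hKc.exists_bound_of_continuousOn hΦc.continuousOn
    exact ⟨B, fun x hx => by simpa using hB x hx⟩
  obtain ⟨BΦ, hBΦ⟩ := hcompK
  have hΦint : Integrable Φ ρ := by
    refine hbdd BΦ hΦc.measurable ?_
    filter_upwards [hK_ae] with x hx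
    exact hBΦ x hx
  have hψbd : ∀ N : ℕ, ∃ B, ∀ y ∈ Y, |ψ N y| ≤ B := by
    intro N
    obtain ⟨B, hB⟩ := hYc.exists_bound_of_continuousOn (hψc N).continuousOn
    exact ⟨B, fun y hy => by simpa using hB y hy⟩
  have hψint : ∀ (N : ℕ) {S : Eu d → Eu d}, Measurable S → (∀ᵐ x ∂ρ, S x ∈ Y) →
      Integrable (fun x => ψ N (S x)) ρ := by
    intro N S hS hY
    obtain ⟨B, hB⟩ := hψbd N
    refine hbdd B ((hψc N).measurable.comp hS) ?_
    filter_upwards [hY] with x hx
    exact hB _ hx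
  have hψint_eq : ∀ (N : ℕ) {S : Eu d → Eu d}, Measurable S → ρ.map S = μ →
      ∫ x, ψ N (S x) ∂ρ = ∫ y, ψ N y ∂μ := by
    intro N S hS hmap
    rw [← hmap, integral_map hS.aemeasurable (hψc N).aestronglyMeasurable]
  have hpot₁ρ := hρ_of hpot₁
  -- the gap vanishes
  have hgap : ∀ N : ℕ, N₀ ≤ N → ∀ᵐ x ∂ρ, ψ N (T x) + Φ x - ⟪x, T x⟫ = 0 := by
    intro N hN
    have hT₁gap : ∫ x, ψ N (T₁ x) ∂ρ = ∫ x, (⟪x, T₁ x⟫ - Φ x) ∂ρ := by
      refine integral_congr_ae ?_
      filter_upwards [hpot₁ρ, hK_ae] with x hx1 hx2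
      exact hψ_of_sub N (T₁ x) x (hKN N hN x hx2) hx1
    have hint : Integrable (fun x => ψ N (T x) + Φ x - ⟪x, T x⟫) ρ :=
      ((hψint N hTm hTY).add hΦint).sub (hinnerT hTm hTY)
    have hval : ∫ x, (ψ N (T x) + Φ x - ⟪x, T x⟫) ∂ρ ≤ 0 := by
      have i1 : Integrable (fun x => ψ N (T x) + Φ x) ρ := (hψint N hTm hTY).add hΦint
      rw [integral_sub i1 (hinnerT hTm hTY),
        integral_add (hψint N hTm hTY) hΦint, hψint_eq N hTm hTmap,
        ← hψint_eq N hT₁m hT₁map, hT₁gap, integral_sub (hinnerT hT₁m hT₁Y) hΦint]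
      linarith
    have hnn : 0 ≤ᵐ[ρ] fun x => ψ N (T x) + Φ x - ⟪x, T x⟫ := by
      filter_upwards [hK_ae] with x hx
      have := hψle N (T x) x (hKN N hN x hx)
      simp only [Pi.zero_apply]
      linarith
    have hzero : ∫ x, (ψ N (T x) + Φ x - ⟪x, T x⟫) ∂ρ = 0 :=
      le_antisymm hval (integral_nonneg_of_ae hnn)
    exact (integral_eq_zero_iff_of_nonneg_ae hnn hint).mp hzero
  refine ⟨Φ, hΦc, ?_, hρ_to hTY⟩
  have hgapall : ∀ᵐ x ∂ρ, ∀ N : ℕ, N₀ ≤ N → ψ N (T x) + Φ x - ⟪x, T x⟫ = 0 := by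
    rw [ae_all_iff]
    intro N
    by_cases hN : N₀ ≤ N
    · filter_upwards [hgap N hN] with x hx _
      exact hx
    · exact ae_of_all _ (fun x h => absurd h hN)
  refine hρ_to ?_
  filter_upwards [hgapall] with x hx x'
  obtain ⟨N, hN⟩ := exists_nat_ge (max (N₀ : ℝ) ‖x'‖)
  have hN1 : N₀ ≤ N := by
    have : (N₀ : ℝ) ≤ N := (le_max_left _ _).trans hN
    exact_mod_cast this
  have h1 := hx N hN1
  have h2 := hψle N (T x) x' ((le_max_right _ _).trans hN)
  have h3 : ⟪T x, x' - x⟫ = ⟪x', T x⟫ - ⟪x, T x⟫ := by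
    rw [inner_sub_right, real_inner_comm, real_inner_comm x (T x)]
  rw [h3]
  linarith

end Crest.Agent.OT.B2
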