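import Crest.Agent.Lib.OT.PL

/-!
# Power cells: partition, moments, continuity, and the master log-concavity inequality
-/

set_option autoImplicit false
open MeasureTheory Filter Topology
open scoped ENNReal NNReal RealInnerProductSpace

namespace Crest.Agent.OT

variable {d : ℕ} {K : Set (Eu d)} {I : Type} [Fintype I] [Nonempty I]

/-- The concave weight. -/
noncomputable def zeta (Z : ℝ) (ξ : Eu d) (σ : ℝ) (x : Eu d) : ℝ := Z - ‖x - ξ‖ ^ 2 / (2 * σ)

lemma continuous_zeta (Z : ℝ) (ξ : Eu d) (σ : ℝ) : Continuous (zeta Z ξ σ) := by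
  unfold zeta; fun_prop

/-- Titu's inequality -/
lemma titu (a b s t : ℝ) (hs : 0 < s) (ht : 0 < t) :
    (a + b) ^ 2 / (s + t) ≤ a ^ 2 / s + b ^ 2 / t := by
  rw [div_add_div _ _ hs.ne' ht.ne', div_le_div_iff₀ (by positivity) (by positivity)]
  have : 0 ≤ (a * t - b * s) ^ 2 := sq_nonneg _
  nlinarith [this, mul_pos hs ht]

lemma zeta_midpoint (Z : ℝ) (ξ₀ ξ₁ : Eu d) {σ₀ σ₁ : ℝ} (h₀ : 0 < σ₀) (h₁ : 0 < σ₁) (x₀ x₁ : Eu d) :
    (zeta Z ξ₀ σ₀ x₀ + zeta Z ξ₁ σ₁ x₁) / 2 ≤
      zeta Z (midpoint ℝ ξ₀ ξ₁) ((σ₀ + σ₁) / 2) (midpoint ℝ x₀ x₁) := by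
  unfold zeta
  have hv : midpoint ℝ x₀ x₁ - midpoint ℝ ξ₀ ξ₁ = (1 / 2 : ℝ) • ((x₀ - ξ₀) + (x₁ - ξ₁)) := by
    simp only [midpoint_eq_smul_add]
    simp only [one_div, smul_add, smul_sub, invOf_eq_inv]
    abel
  rw [hv, norm_smul]
  have hn : ‖(x₀ - ξ₀) + (x₁ - ξ₁)‖ ≤ ‖x₀ - ξ₀‖ + ‖x₁ - ξ₁‖ := norm_add_le _ _
  have h2 : ‖(x₀ - ξ₀) + (x₁ - ξ₁)‖ ^ 2 ≤ (‖x₀ - ξ₀‖ + ‖x₁ - ξ₁‖) ^ 2 := by gcongr
  have ht := titu ‖x₀ - ξ₀‖ ‖x₁ - ξ₁‖ σ₀ σ₁ h₀ h₁
  have h3 : ‖(x₀ - ξ₀) + (x₁ - ξ₁)‖ ^ 2 / (σ₀ + σ₁) ≤ ‖x₀ - ξ₀‖ ^ 2 / σ₀ + ‖x₁ - ξ₁‖ ^ 2 / σ₁ :=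
    le_trans (div_le_div_of_nonneg_right h2 (by positivity)) ht
  have h4 : (‖(1 / 2 : ℝ)‖ * ‖(x₀ - ξ₀) + (x₁ - ξ₁)‖) ^ 2 / (2 * ((σ₀ + σ₁) / 2)) =
      (1 / 4) * (‖(x₀ - ξ₀) + (x₁ - ξ₁)‖ ^ 2 / (σ₀ + σ₁)) := by
    rw [Real.norm_of_nonneg (by norm_num)]
    field_simp
    ring
  rw [h4]
  have h5 : ‖x₀ - ξ₀‖ ^ 2 / (2 * σ₀) = (1 / 2) * (‖x₀ - ξ₀‖ ^ 2 / σ₀) := by field_simp
  have h6 : ‖x₁ - ξ₁‖ ^ 2 / (2 * σ₁) = (1 / 2) * (‖x₁ - ξ₁‖ ^ 2 / σ₁) := by field_simp
  rw [h5, h6]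
  linarith

section integrals

variable (hKc : IsCompact K)
include hKc

omit [Nonempty I] in
lemma integrableOn_cell {G : Type*} [NormedAddCommGroup G] {F : Eu d → G} (hF : Continuous F)
    (y : I → Eu d) (c : I → ℝ) (l : I) : IntegrableOn F (cell K y c l) volume :=
  (hF.continuousOn.integrableOn_compact hKc).mono_set (cell_subset K y c l)

end integrals

/-- Sum of integrals over the cells is the integral over `K`. -/
lemma sum_integral_cell {G : Type*} [NormedAddCommGroup G] [NormedSpace ℝ G]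
    (hKc : IsCompact K) {y : I → Eu d} (hy : Function.Injective y) (c : I → ℝ)
    {F : Eu d → G} (hF : IntegrableOn F K volume) :
    ∑ l, ∫ x in cell K y c l, F x = ∫ x in K, F x := by
  classical
  have hU : (⋃ l, cell K y c l) = K := by
    apply Set.Subset.antisymm
    · exact Set.iUnion_subset (fun l => cell_subset K y c l)
    · intro x hx
      obtain ⟨l, hl⟩ := exists_mem_cell (K := K) y c hx
      exact Set.mem_iUnion.mpr ⟨l, hl⟩
  have hd : Pairwise (Function.onFun (AEDisjoint volume) (fun l => cell K y c l)) := by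
    intro l j hlj
    exact cell_inter_null hy c hlj
  have := integral_iUnion_ae (μ := volume) (s := fun l => cell K y c l) (f := F)
    (fun l => (measurableSet_cell hKc.measurableSet y c l).nullMeasurableSet) hd
    (by rw [hU]; exact hF)
  rw [hU] at this
  rw [this, tsum_fintype]

/-- Continuity of integrals over cells in the heights. -/
lemma tendsto_integral_cell {G : Type*} [NormedAddCommGroup G] [NormedSpace ℝ G]
    (hKc : IsCompact K) {y : I → Eu d} (hy : Function.Injective y) {F : Eu d → G}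
    (hF : Continuous F) {cn : ℕ → I → ℝ} {c : I → ℝ} (hc : Tendsto cn atTop (𝓝 c)) (l : I) :
    Tendsto (fun n => ∫ x in cell K y (cn n) l, F x) atTop (𝓝 (∫ x in cell K y c l, F x)) := by
  classical
  have hKm := hKc.measurableSet
  -- rewrite as indicator integrals over K
  have key : ∀ c' : I → ℝ, ∫ x in cell K y c' l, F x =
      ∫ x in K, (cell K y c' l).indicator F x := by
    intro c'
    rw [setIntegral_indicator (measurableSet_cell hKm y c' l)]
    congr 2
    rw [Set.inter_eq_right.mpr (cell_subset K y c' l)]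
  simp_rw [key]
  have hbound : IntegrableOn (fun x => ‖F x‖) K volume :=
    (hF.norm.continuousOn.integrableOn_compact hKc)
  refine tendsto_integral_of_dominated_convergence (fun x => ‖F x‖) ?_ hbound ?_ ?_
  · intro n
    exact (hF.aestronglyMeasurable.indicator
      (measurableSet_cell hKm y (cn n) l))
  · intro n
    refine Eventually.of_forall (fun x => ?_)
    exact norm_indicator_le_norm_self _ _
  · -- pointwise a.e. convergence
    have hnull : ∀ j : I, j ≠ l → volume {x : Eu d | ⟪y j - y l, x⟫ = c j - c l} = 0 := by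
      intro j hj
      exact volume_hyperplane (sub_ne_zero.mpr (fun h => hj (hy h))) _
    have hae : ∀ᵐ x ∂(volume : Measure (Eu d)), ∀ j : I, j ≠ l → ⟪y j - y l, x⟫ ≠ c j - c l := by
      rw [ae_all_iff]
      intro j
      by_cases hj : j = l
      · exact Eventually.of_forall (fun x h => absurd hj h)
      · have := hnull j hj
        rw [← compl_mem_ae_iff] at this
        filter_upwards [this] with x hx _
        exact hx
    filter_upwards [ae_restrict_of_ae hae, ae_restrict_mem hKm] with x hx hxK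
    have hcj : ∀ j, Tendsto (fun n => (⟪x, y j⟫ - cn n j) - (⟪x, y l⟫ - cn n l)) atTop
        (𝓝 ((⟪x, y j⟫ - c j) - (⟪x, y l⟫ - c l))) := by
      intro j
      have h1 := (tendsto_pi_nhds.mp hc) j
      have h2 := (tendsto_pi_nhds.mp hc) l
      exact (tendsto_const_nhds.sub h1).sub (tendsto_const_nhds.sub h2)
    by_cases hin : x ∈ cell K y c l
    · -- strict inequalities for all j ≠ l
      have hstrict : ∀ j, j ≠ l → (⟪x, y j⟫ - c j) - (⟪x, y l⟫ - c l) < 0 := by
        intro j hj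
        have h1 := hin.2 j
        have hne := hx j hj
        have : ⟪y j - y l, x⟫ = ⟪x, y j⟫ - ⟪x, y l⟫ := by
          rw [inner_sub_left, real_inner_comm x (y j), real_inner_comm x (y l)]
        rw [this] at hne
        have hle : (⟪x, y j⟫ - c j) - (⟪x, y l⟫ - c l) ≤ 0 := by linarith
        refine lt_of_le_of_ne hle (fun h0 => hne ?_)
        linarith
      have hev : ∀ᶠ n in atTop, x ∈ cell K y (cn n) l := by
        have : ∀ᶠ n in atTop, ∀ j, j ≠ l → (⟪x, y j⟫ - cn n j) - (⟪x, y l⟫ - cn n l) < 0 := by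
          rw [eventually_all]
          intro j
          by_cases hj : j = l
          · exact Eventually.of_forall (fun n h => absurd hj h)
          · filter_upwards [(hcj j).eventually (gt_mem_nhds (hstrict j hj))] with n hn _
            exact hn
        filter_upwards [this] with n hn
        refine ⟨hxK, fun j => ?_⟩
        by_cases hj : j = l
        · rw [hj]
        · have := hn j hj; linarith
      have hlim : Tendsto (fun n => (cell K y (cn n) l).indicator F x) atTop (𝓝 (F x)) := by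
        refine tendsto_const_nhds.congr' ?_
        filter_upwards [hev] with n hn
        rw [Set.indicator_of_mem hn]
      rw [Set.indicator_of_mem hin]
      exact hlim
    · -- some j strictly violates
      have : ∃ j, ⟪x, y l⟫ - c l < ⟪x, y j⟫ - c j := by
        by_contra hcon
        push Not at hcon
        exact hin ⟨hxK, hcon⟩
      obtain ⟨j, hj⟩ := this
      have hev : ∀ᶠ n in atTop, x ∉ cell K y (cn n) l := by
        have h0 : 0 < (⟪x, y j⟫ - c j) - (⟪x, y l⟫ - c l) := by linarith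
        filter_upwards [(hcj j).eventually (lt_mem_nhds h0)] with n hn hmem
        have := hmem.2 j
        linarith
      have hlim : Tendsto (fun n => (cell K y (cn n) l).indicator F x) atTop (𝓝 0) := by
        refine tendsto_const_nhds.congr' ?_
        filter_upwards [hev] with n hn
        rw [Set.indicator_of_notMem hn]
      rw [Set.indicator_of_notMem hin]
      exact hlim


/-! ### Moments -/

/-- Volume of a cell. -/
noncomputable def mass (K : Set (Eu d)) (y : I → Eu d) (c : I → ℝ) (l : I) : ℝ :=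
  volume.real (cell K y c l)

/-- First moment of a cell. -/
noncomputable def mom1 (K : Set (Eu d)) (y : I → Eu d) (c : I → ℝ) (l : I) : Eu d :=
  ∫ x in cell K y c l, x

/-- Half second moment of a cell. -/
noncomputable def mom2 (K : Set (Eu d)) (y : I → Eu d) (c : I → ℝ) (l : I) : ℝ :=
  ∫ x in cell K y c l, ‖x‖ ^ 2 / 2

/-- Weighted mass of a cell. -/
noncomputable def Gv (K : Set (Eu d)) (y : I → Eu d) (Z : ℝ) (c : I → ℝ) (ξ : Eu d) (σ : ℝ) (l : I) :
    ℝ :=
  ∫ x in cell K y c l, zeta Z ξ σ x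

omit [Nonempty I] in
lemma Gv_eq (hKc : IsCompact K) (y : I → Eu d) (Z : ℝ) (c : I → ℝ) (ξ : Eu d) (σ : ℝ) (l : I) :
    Gv K y Z c ξ σ l = Z * mass K y c l - ‖ξ‖ ^ 2 * mass K y c l / (2 * σ)
      + ⟪mom1 K y c l, ξ⟫ / σ - mom2 K y c l / σ := by
  have hint : ∀ {F : Eu d → ℝ}, Continuous F → IntegrableOn F (cell K y c l) volume :=
    fun hF => integrableOn_cell hKc hF y c l
  have hform : ∀ x : Eu d, zeta Z ξ σ x =
      (Z - ‖ξ‖ ^ 2 / (2 * σ)) * 1 + (1 / σ) * ⟪x, ξ⟫ - (1 / σ) * (‖x‖ ^ 2 / 2) := by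
    intro x
    unfold zeta
    rw [norm_sub_sq_real]
    by_cases hσ : σ = 0
    · simp [hσ]
    · field_simp
      ring
  unfold Gv
  simp_rw [hform]
  have h1 : ∫ x in cell K y c l, (Z - ‖ξ‖ ^ 2 / (2 * σ)) * (1 : ℝ) =
      (Z - ‖ξ‖ ^ 2 / (2 * σ)) * mass K y c l := by
    rw [integral_const_mul]
    simp [mass]
  have h2 : ∫ x in cell K y c l, (1 / σ) * ⟪x, ξ⟫ = (1 / σ) * ⟪mom1 K y c l, ξ⟫ := by
    rw [integral_const_mul]
    congr 1
    unfold mom1
    have hi : Integrable (fun x : Eu d => x) (volume.restrict (cell K y c l)) :=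
      integrableOn_cell hKc continuous_id y c l
    have := integral_inner (𝕜 := ℝ) hi ξ
    rw [real_inner_comm, ← this]
    exact integral_congr_ae (Eventually.of_forall fun x => real_inner_comm _ _)
  have h3 : ∫ x in cell K y c l, (1 / σ) * (‖x‖ ^ 2 / 2) = (1 / σ) * mom2 K y c l := by
    rw [integral_const_mul]; rfl
  rw [integral_sub, integral_add, h1, h2, h3]
  · by_cases hσ : σ = 0
    · simp [hσ]
    · field_simp
  · exact hint continuous_const
  · exact hint (by fun_prop)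
  · exact (hint continuous_const).add (hint (by fun_prop))
  · exact hint (by fun_prop)

/-- Midpoint log-concavity: Prékopa–Leindler applied to the cells. -/
lemma Gv_mid (hKc : IsCompact K) (hKv : Convex ℝ K) (y : I → Eu d) (Z : ℝ) (c₀ c₁ : I → ℝ)
    (ξ₀ ξ₁ : Eu d) {σ₀ σ₁ : ℝ} (h₀ : 0 < σ₀) (h₁ : 0 < σ₁) (l : I)
    (hz₀ : ∀ x ∈ K, 0 ≤ zeta Z ξ₀ σ₀ x) (hz₁ : ∀ x ∈ K, 0 ≤ zeta Z ξ₁ σ₁ x) :
    Gv K y Z c₀ ξ₀ σ₀ l * Gv K y Z c₁ ξ₁ σ₁ l ≤
      Gv K y Z ((1 / 2 : ℝ) • (c₀ + c₁)) (midpoint ℝ ξ₀ ξ₁) ((σ₀ + σ₁) / 2) l ^ 2 := by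
  classical
  have hKm := hKc.measurableSet
  set cm : I → ℝ := (1 / 2 : ℝ) • (c₀ + c₁) with hcm
  set ξm := midpoint ℝ ξ₀ ξ₁ with hξm
  set σm := (σ₀ + σ₁) / 2 with hσm
  have hzm : ∀ x ∈ K, 0 ≤ zeta Z ξm σm x := by
    intro x hx
    have := zeta_midpoint Z ξ₀ ξ₁ h₀ h₁ x x
    rw [midpoint_self] at this
    have h0 := hz₀ x hx
    have h1 := hz₁ x hx
    linarith
  -- the three functions
  set f : Eu d → ℝ≥0∞ := (cell K y c₀ l).indicator (fun x => ENNReal.ofReal (zeta Z ξ₀ σ₀ x)) with hf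
  set g : Eu d → ℝ≥0∞ := (cell K y c₁ l).indicator (fun x => ENNReal.ofReal (zeta Z ξ₁ σ₁ x)) with hg
  set h : Eu d → ℝ≥0∞ := (cell K y cm l).indicator (fun x => ENNReal.ofReal (zeta Z ξm σm x)) with hh
  have hmeas : ∀ (c : I → ℝ) (ξ : Eu d) (σ : ℝ), Measurable
      ((cell K y c l).indicator (fun x => ENNReal.ofReal (zeta Z ξ σ x))) := by
    intro c ξ σ
    exact ((continuous_zeta Z ξ σ).measurable.ennreal_ofReal).indicator
      (measurableSet_cell hKm y c l)
  have hPL := pl_mid f g h (hmeas _ _ _) (hmeas _ _ _) (hmeas _ _ _) (by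
    intro x x'
    by_cases hx : x ∈ cell K y c₀ l
    · by_cases hx' : x' ∈ cell K y c₁ l
      · have hmid : midpoint ℝ x x' ∈ cell K y cm l := by
          refine ⟨hKv.midpoint_mem hx.1 hx'.1, fun j => ?_⟩
          have h1 := hx.2 j
          have h2 := hx'.2 j
          have hin : ∀ w : Eu d, ⟪midpoint ℝ x x', w⟫ = (⟪x, w⟫ + ⟪x', w⟫) / 2 := by
            intro w
            rw [midpoint_eq_smul_add, real_inner_smul_left, inner_add_left]
            simp only [invOf_eq_inv]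
            ring
          rw [hin, hin]
          simp only [hcm, Pi.smul_apply, Pi.add_apply, smul_eq_mul]
          linarith
        rw [hf, hg, hh, Set.indicator_of_mem hx, Set.indicator_of_mem hx',
          Set.indicator_of_mem hmid]
        have hz0 := hz₀ x hx.1
        have hz1 := hz₁ x' hx'.1
        have hm := zeta_midpoint Z ξ₀ ξ₁ h₀ h₁ x x'
        rw [← ENNReal.ofReal_mul hz0, ← ENNReal.ofReal_pow (hzm _ hmid.1)]
        apply ENNReal.ofReal_le_ofReal
        have hzmv := hzm _ hmid.1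
        nlinarith [sq_nonneg (zeta Z ξ₀ σ₀ x - zeta Z ξ₁ σ₁ x'), hm]
      · rw [hg, Set.indicator_of_notMem hx']; simp
    · rw [hf, Set.indicator_of_notMem hx]; simp)
  -- convert to real integrals
  have hconv : ∀ (c : I → ℝ) (ξ : Eu d) (σ : ℝ), (∀ x ∈ K, 0 ≤ zeta Z ξ σ x) →
      ∫⁻ x, (cell K y c l).indicator (fun x => ENNReal.ofReal (zeta Z ξ σ x)) x =
        ENNReal.ofReal (Gv K y Z c ξ σ l) := by
    intro c ξ σ hz
    rw [lintegral_indicator (measurableSet_cell hKm y c l)]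
    unfold Gv
    rw [ofReal_integral_eq_lintegral_ofReal (integrableOn_cell hKc (continuous_zeta Z ξ σ) y c l)]
    filter_upwards [ae_restrict_mem (measurableSet_cell hKm y c l)] with x hx
    exact hz x hx.1
  have hnn : ∀ (c : I → ℝ) (ξ : Eu d) (σ : ℝ), (∀ x ∈ K, 0 ≤ zeta Z ξ σ x) →
      0 ≤ Gv K y Z c ξ σ l := by
    intro c ξ σ hz
    apply setIntegral_nonneg (measurableSet_cell hKm y c l)
    intro x hx
    exact hz x hx.1
  rw [hf, hg, hh, hconv _ _ _ hz₀, hconv _ _ _ hz₁, hconv _ _ _ hzm,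
    ← ENNReal.ofReal_mul (hnn _ _ _ hz₀), ← ENNReal.ofReal_pow (hnn _ _ _ hzm)] at hPL
  exact (ENNReal.ofReal_le_ofReal_iff (by positivity)).mp hPL


/-! ### The master inequality -/

/-- Linear path of heights. -/
def cPath (cA cB : I → ℝ) (t : ℝ) : I → ℝ := cA + t • (cB - cA)

omit [Nonempty I] [Fintype I] in
lemma cPath_half (cA cB : I → ℝ) (t : ℝ) :
    (1 / 2 : ℝ) • (cPath cA cB 0 + cPath cA cB t) = cPath cA cB (t / 2) := by
  funext l
  simp only [cPath, Pi.smul_apply, Pi.add_apply, Pi.sub_apply, smul_eq_mul]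
  ring

omit [Nonempty I] [Fintype I] in
lemma cPath_zero (cA cB : I → ℝ) : cPath cA cB 0 = cA := by
  funext l; simp [cPath]

omit [Nonempty I] [Fintype I] in
lemma cPath_one (cA cB : I → ℝ) : cPath cA cB 1 = cB := by
  funext l; simp [cPath]

lemma one_add_mul_pos {t σ : ℝ} (h0 : 0 ≤ t) (h1 : t ≤ 1) (hσ : 0 < σ) : 0 < 1 + t * (σ - 1) := by
  rcases eq_or_lt_of_le h1 with h | h
  · rw [h]; linarith
  · have : 0 ≤ t * σ := by positivity
    nlinarith

/-- One-index log-concavity along dyadic points. -/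
lemma dyadic_logconcave (hKc : IsCompact K) (hKv : Convex ℝ K) (y : I → Eu d) (Z : ℝ)
    (cA cB : I → ℝ) (ξ : Eu d) {σ : ℝ} (hσ : 0 < σ) (l : I)
    (hzA : ∀ x ∈ K, 0 ≤ zeta Z 0 1 x) (hzB : ∀ x ∈ K, 0 ≤ zeta Z ξ σ x)
    (hGA : 0 < Gv K y Z cA 0 1 l) (hGB : 0 < Gv K y Z cB ξ σ l) (k : ℕ) :
    let t : ℝ := (1 / 2) ^ k
    (∀ x ∈ K, 0 ≤ zeta Z (t • ξ) (1 + t * (σ - 1)) x) ∧
      0 < Gv K y Z (cPath cA cB t) (t • ξ) (1 + t * (σ - 1)) l ∧
      (1 - t) * Real.log (Gv K y Z cA 0 1 l) + t * Real.log (Gv K y Z cB ξ σ l) ≤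
        Real.log (Gv K y Z (cPath cA cB t) (t • ξ) (1 + t * (σ - 1)) l) := by
  induction k with
  | zero =>
    intro t
    have ht : t = 1 := by simp [t]
    have hs : 1 + t * (σ - 1) = σ := by rw [ht]; ring
    rw [ht]
    simp only [one_smul, one_mul, sub_self, zero_mul, add_zero]
    rw [show (1 : ℝ) + (σ - 1) = σ by ring, cPath_one]
    exact ⟨hzB, hGB, by simp⟩
  | succ k ih =>
    intro t'
    obtain ⟨hz, hpos, hlog⟩ := ih
    set t : ℝ := (1 / 2) ^ k with ht
    have ht' : t' = t / 2 := by simp only [t', ht, pow_succ]; ring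
    have htnn : 0 ≤ t := by positivity
    have hσt : 0 < 1 + t * (σ - 1) :=
      one_add_mul_pos htnn (pow_le_one₀ (by norm_num) (by norm_num)) hσ
    have hmidξ : midpoint ℝ (0 : Eu d) (t • ξ) = (t / 2) • ξ := by
      rw [midpoint_eq_smul_add, zero_add, smul_smul]
      congr 1
      simp only [invOf_eq_inv]
      ring
    have hmidσ : ((1 : ℝ) + (1 + t * (σ - 1))) / 2 = 1 + (t / 2) * (σ - 1) := by ring
    have hmid := Gv_mid hKc hKv y Z (cPath cA cB 0) (cPath cA cB t) (0 : Eu d) (t • ξ)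
      one_pos hσt l hzA hz
    rw [cPath_half, hmidξ, hmidσ, cPath_zero] at hmid
    have hG0 := hGA
    have hprod : 0 < Gv K y Z cA 0 1 l * Gv K y Z (cPath cA cB t) (t • ξ) (1 + t * (σ - 1)) l :=
      mul_pos hGA hpos
    rw [ht']
    have hzmid : ∀ x ∈ K, 0 ≤ zeta Z ((t / 2) • ξ) (1 + (t / 2) * (σ - 1)) x := by
      intro x hx
      have := zeta_midpoint Z (0 : Eu d) (t • ξ) one_pos hσt x x
      rw [midpoint_self, hmidξ, hmidσ] at this
      have h0 := hzA x hx
      have h1 := hz x hx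
      linarith
    have hGnn : 0 ≤ Gv K y Z (cPath cA cB (t / 2)) ((t / 2) • ξ) (1 + (t / 2) * (σ - 1)) l := by
      apply setIntegral_nonneg (measurableSet_cell hKc.measurableSet y _ l)
      intro x hx
      exact hzmid x hx.1
    have hGpos : 0 < Gv K y Z (cPath cA cB (t / 2)) ((t / 2) • ξ) (1 + (t / 2) * (σ - 1)) l := by
      rcases hGnn.lt_or_eq with h | h
      · exact h
      · rw [← h] at hmid
        nlinarith
    refine ⟨hzmid, hGpos, ?_⟩
    have hlogmid := Real.log_le_log hprod hmid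
    rw [Real.log_mul hGA.ne' hpos.ne', Real.log_pow] at hlogmid
    push_cast at hlogmid
    nlinarith

omit [Nonempty I] in
lemma mass_eq_integral (y : I → Eu d) (c : I → ℝ) (l : I) :
    mass K y c l = ∫ x in cell K y c l, (1 : ℝ) := by
  simp [mass]

theorem master_ineq (hKc : IsCompact K) (hKv : Convex ℝ K) {y : I → Eu d}
    (hy : Function.Injective y) (Z : ℝ) (cA cB : I → ℝ) (ξ : I → Eu d) (σ : I → ℝ)
    (hσ : ∀ l, 0 < σ l) (hzA : ∀ x ∈ K, 0 ≤ zeta Z 0 1 x)
    (hzB : ∀ l, ∀ x ∈ K, 0 ≤ zeta Z (ξ l) (σ l) x)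
    (hGA : ∀ l, 0 < Gv K y Z cA 0 1 l) (hGB : ∀ l, 0 < Gv K y Z cB (ξ l) (σ l) l) :
    ∑ l, Gv K y Z cA 0 1 l * Real.log (Gv K y Z cB (ξ l) (σ l) l / Gv K y Z cA 0 1 l) ≤
      ∑ l, (⟪mom1 K y cA l, ξ l⟫ + (σ l - 1) * mom2 K y cA l) := by
  classical
  -- notation along the path
  set T : ℕ → ℝ := fun k => (1 / 2) ^ k with hT
  have hTpos : ∀ k, 0 < T k := fun k => by positivity
  have hTle : ∀ k, T k ≤ 1 := fun k => pow_le_one₀ (by norm_num) (by norm_num)
  have hTlim : Tendsto T atTop (𝓝 0) :=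
    tendsto_pow_atTop_nhds_zero_of_lt_one (by norm_num) (by norm_num)
  have hσT : ∀ l k, 0 < 1 + T k * (σ l - 1) := fun l k =>
    one_add_mul_pos (hTpos k).le (hTle k) (hσ l)
  -- remainder term
  set B : I → ℕ → ℝ := fun l k =>
    - (T k * (‖ξ l‖ ^ 2 * mass K y (cPath cA cB (T k)) l / (2 * (1 + T k * (σ l - 1)))))
      + ⟪mom1 K y (cPath cA cB (T k)) l, ξ l⟫ / (1 + T k * (σ l - 1))
      + (σ l - 1) * mom2 K y (cPath cA cB (T k)) l / (1 + T k * (σ l - 1)) with hB
  -- the decomposition of the weighted masses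
  have hdecomp : ∀ l k, Gv K y Z (cPath cA cB (T k)) (T k • ξ l) (1 + T k * (σ l - 1)) l =
      Z * mass K y (cPath cA cB (T k)) l - mom2 K y (cPath cA cB (T k)) l + T k * B l k := by
    intro l k
    rw [Gv_eq hKc]
    have h := (hσT l k).ne'
    simp only [hB]
    rw [norm_smul, inner_smul_right, Real.norm_of_nonneg (hTpos k).le]
    field_simp
    ring
  have hdecomp0 : ∀ l, Gv K y Z cA 0 1 l = Z * mass K y cA l - mom2 K y cA l := by
    intro l
    rw [Gv_eq hKc]
    simp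
  have hconst : ∀ c : I → ℝ, ∑ l, (Z * mass K y c l - mom2 K y c l) =
      Z * (∫ x in K, (1 : ℝ)) - ∫ x in K, ‖x‖ ^ 2 / 2 := by
    intro c
    rw [Finset.sum_sub_distrib, ← Finset.mul_sum]
    have h1 : ∑ l, mass K y c l = ∫ x in K, (1 : ℝ) := by
      simp_rw [mass_eq_integral]
      exact sum_integral_cell hKc hy c (continuous_const.continuousOn.integrableOn_compact hKc)
    have h2 : ∑ l, mom2 K y c l = ∫ x in K, ‖x‖ ^ 2 / 2 :=
      sum_integral_cell hKc hy c
        ((show Continuous fun x : Eu d => ‖x‖ ^ 2 / 2 by fun_prop).continuousOn.integrableOn_compact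
          hKc)
    rw [h1, h2]
  -- main inequality at each dyadic time
  have hmain : ∀ k, ∑ l, Gv K y Z cA 0 1 l *
      Real.log (Gv K y Z cB (ξ l) (σ l) l / Gv K y Z cA 0 1 l) ≤ ∑ l, B l k := by
    intro k
    have hl : ∀ l, T k * (Gv K y Z cA 0 1 l *
        Real.log (Gv K y Z cB (ξ l) (σ l) l / Gv K y Z cA 0 1 l)) ≤
        Gv K y Z (cPath cA cB (T k)) (T k • ξ l) (1 + T k * (σ l - 1)) l - Gv K y Z cA 0 1 l := by
      intro l
      obtain ⟨-, hpos, hlog⟩ := dyadic_logconcave hKc hKv y Z cA cB (ξ l) (hσ l) l hzA (hzB l)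
        (hGA l) (hGB l) k
      have hG0 := hGA l
      have hG1 := hGB l
      set G0 := Gv K y Z cA 0 1 l
      set G1 := Gv K y Z cB (ξ l) (σ l) l
      set Gt := Gv K y Z (cPath cA cB (T k)) (T k • ξ l) (1 + T k * (σ l - 1)) l
      have hlt : Real.log (Gt / G0) ≤ Gt / G0 - 1 := Real.log_le_sub_one_of_pos (div_pos hpos hG0)
      rw [Real.log_div hpos.ne' hG0.ne'] at hlt
      rw [Real.log_div hG1.ne' hG0.ne']
      have hmul : G0 * (Real.log Gt - Real.log G0) ≤ Gt - G0 := by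
        have := mul_le_mul_of_nonneg_left hlt hG0.le
        have h2 : G0 * (Gt / G0 - 1) = Gt - G0 := by field_simp
        linarith
      have hlog' : T k * (Real.log G1 - Real.log G0) ≤ Real.log Gt - Real.log G0 := by
        show _ ≤ _
        have : (1 - T k) * Real.log G0 + T k * Real.log G1 ≤ Real.log Gt := hlog
        nlinarith
      have := mul_le_mul_of_nonneg_left hlog' hG0.le
      nlinarith
    have hsum := Finset.sum_le_sum (fun l (_ : l ∈ Finset.univ) => hl l)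
    rw [← Finset.mul_sum, Finset.sum_sub_distrib] at hsum
    have h1 : ∑ l, Gv K y Z (cPath cA cB (T k)) (T k • ξ l) (1 + T k * (σ l - 1)) l =
        Z * (∫ x in K, (1 : ℝ)) - (∫ x in K, ‖x‖ ^ 2 / 2) + T k * ∑ l, B l k := by
      simp_rw [hdecomp]
      rw [Finset.sum_add_distrib, hconst, Finset.mul_sum]
    have h2 : ∑ l, Gv K y Z cA 0 1 l = Z * (∫ x in K, (1 : ℝ)) - ∫ x in K, ‖x‖ ^ 2 / 2 := by
      simp_rw [hdecomp0]
      exact hconst cA
    rw [h1, h2] at hsum
    have h3 : T k * ∑ l, Gv K y Z cA 0 1 l *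
        Real.log (Gv K y Z cB (ξ l) (σ l) l / Gv K y Z cA 0 1 l) ≤ T k * ∑ l, B l k := by
      linarith
    exact le_of_mul_le_mul_left h3 (hTpos k)
  -- limit
  have hcT : Tendsto (fun k => cPath cA cB (T k)) atTop (𝓝 cA) := by
    have : Continuous (fun t : ℝ => cPath cA cB t) := by
      unfold cPath; fun_prop
    have h := this.tendsto 0
    rw [cPath_zero] at h
    exact h.comp hTlim
  have hlim : Tendsto (fun k => ∑ l, B l k) atTop
      (𝓝 (∑ l, (⟪mom1 K y cA l, ξ l⟫ + (σ l - 1) * mom2 K y cA l))) := by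
    refine tendsto_finset_sum _ (fun l _ => ?_)
    have hm : Tendsto (fun k => mass K y (cPath cA cB (T k)) l) atTop (𝓝 (mass K y cA l)) := by
      simp_rw [mass_eq_integral]
      exact tendsto_integral_cell hKc hy continuous_const hcT l
    have hP : Tendsto (fun k => mom1 K y (cPath cA cB (T k)) l) atTop (𝓝 (mom1 K y cA l)) :=
      tendsto_integral_cell hKc hy continuous_id hcT l
    have hN : Tendsto (fun k => mom2 K y (cPath cA cB (T k)) l) atTop (𝓝 (mom2 K y cA l)) :=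
      tendsto_integral_cell hKc hy (by fun_prop) hcT l
    have hS : Tendsto (fun k => 1 + T k * (σ l - 1)) atTop (𝓝 1) := by
      simpa using tendsto_const_nhds.add (hTlim.mul_const (σ l - 1))
    have hin : Tendsto (fun k => ⟪mom1 K y (cPath cA cB (T k)) l, ξ l⟫) atTop
        (𝓝 ⟪mom1 K y cA l, ξ l⟫) := hP.inner tendsto_const_nhds
    have e1 := (hTlim.mul ((hm.const_mul (‖ξ l‖ ^ 2)).div (hS.const_mul 2) (by norm_num))).neg
    have e2 := hin.div hS one_ne_zero
    have e3 := (hN.const_mul (σ l - 1)).div hS one_ne_zero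
    have := (e1.add e2).add e3
    simpa using this
  exact ge_of_tendsto' hlim hmain

end Crest.Agent.OT
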