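import Crest.Agent.Lib.OT.Cells

/-!
# Barycenter stability of power cells under height changes
-/

set_option autoImplicit false
open MeasureTheory Filter Topology
open scoped ENNReal NNReal RealInnerProductSpace

namespace Crest.Agent.OT

/-- `log (1+s) ≥ s - s²` for `|s| ≤ 1/4`. -/
lemma log_one_add_ge {s : ℝ} (hs : |s| ≤ 1 / 4) : s - s ^ 2 ≤ Real.log (1 + s) := by
  have hs1 : |(-s)| < 1 := by rw [abs_neg]; linarith
  have := Real.abs_log_sub_add_sum_range_le hs1 2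
  simp only [Finset.sum_range_succ, Finset.sum_range_zero, abs_neg] at this
  norm_num at this
  have habs := abs_le.mp this
  have hs2 : 0 ≤ |s| := abs_nonneg s
  have h3 : |s| ^ 3 / (1 - |s|) ≤ s ^ 2 / 2 := by
    rw [div_le_div_iff₀ (by linarith) (by norm_num)]
    have h4 : |s| ^ 2 = s ^ 2 := sq_abs s
    have h5 : |s| ^ 3 = |s| * s ^ 2 := by rw [← h4]; ring
    rw [h5]
    nlinarith [sq_nonneg s, mul_nonneg hs2 (sq_nonneg s)]
  have h6 := habs.1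
  have h7 : s ^ 2 = |s| ^ 2 := (sq_abs s).symm
  nlinarith [sq_nonneg s]

/-- Algebraic identity for the quadratic part. -/
lemma cell_Q_form (ω κ τ n a S : ℝ) (hτ : τ = κ + κ * τ) :
    (300 * (1 + ω) - (1 + ω) * (1 - κ) * (S ^ 2 / 128 - (a + S ^ 2) / 8 + n + 8 * κ) - (300 - n))
      - 300 * ω + ((1 + ω) * (n + 8 * κ) - n) - a / 8 - τ * n
    = (1 + ω) * (8 * κ) ^ 2 / 8 + (1 + ω) * (1 - κ) * ((15 / 128) * S ^ 2)
      + (a / 8) * (ω - κ - κ * ω) + n * κ * (ω - τ) := by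
  linear_combination (-n) * hτ

/-- Lower bound for the quadratic part. -/
lemma cell_Q_low (A B S T1 T2 T3 T4 : ℝ)
    (h1 : (3 / 32) * B ^ 2 ≤ T1) (h2 : (0.0824 : ℝ) * S ^ 2 ≤ T2)
    (h3 : -(S / 8 * ((17 / 16) * A + B / 8)) ≤ T3)
    (h4 : -((B / 16) * (A + (2 / 15) * B)) ≤ T4) :
    0.0576 * B ^ 2 + 0.0545 * S ^ 2 - 0.27 * A ^ 2 ≤ T1 + T2 + T3 + T4 := by
  have c1 : (1 / 64) * (S * B) ≤ (1 / 128) * (S ^ 2 + B ^ 2) := by nlinarith [sq_nonneg (S - B)]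
  have c2 : (17 / 128) * (S * A) ≤ 0.02 * S ^ 2 + 0.2205 * A ^ 2 := by
    nlinarith [sq_nonneg (S - (17 / 128) / 0.04 * A)]
  have c3 : (1 / 16) * (A * B) ≤ 0.02 * B ^ 2 + 0.0489 * A ^ 2 := by
    nlinarith [sq_nonneg (B - (1 / 16) / 0.04 * A)]
  have c4 : 0 ≤ A ^ 2 := sq_nonneg A
  have e3 : S / 8 * ((17 / 16) * A + B / 8) = (17 / 128) * (S * A) + (1 / 64) * (S * B) := by ring
  have e4 : (B / 16) * (A + (2 / 15) * B) = (1 / 16) * (A * B) + (1 / 120) * B ^ 2 := by ring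
  rw [e3] at h3
  rw [e4] at h4
  have e5 : (0.0576 : ℝ) * B ^ 2 ≤ (3 / 32) * B ^ 2 - (1 / 120) * B ^ 2 - (1 / 128) * B ^ 2 - 0.02 * B ^ 2 := by
    have : 0 ≤ B ^ 2 := sq_nonneg B
    norm_num
    linarith
  have e6 : (0.0545 : ℝ) * S ^ 2 ≤ 0.0824 * S ^ 2 - (1 / 128) * S ^ 2 - 0.02 * S ^ 2 := by
    have : 0 ≤ S ^ 2 := sq_nonneg S
    norm_num
    linarith
  linarith

/-- Upper bound for the error part. -/
lemma cell_g_sq (A B S g g0 : ℝ)
    (hg : |g| ≤ 300.54 * A + 1.391 * B + 0.1868 * S) (hg0 : (299.5 : ℝ) ≤ g0) :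
    g ^ 2 / g0 ≤ 905 * A ^ 2 + 0.0195 * B ^ 2 + 0.00036 * S ^ 2 := by
  have h1 : g ^ 2 ≤ (300.54 * A + 1.391 * B + 0.1868 * S) ^ 2 := by
    rw [← sq_abs g]
    gcongr
  have h2 : (300.54 * A + 1.391 * B + 0.1868 * S) ^ 2 ≤
      3 * ((300.54 * A) ^ 2 + (1.391 * B) ^ 2 + (0.1868 * S) ^ 2) := by
    nlinarith [sq_nonneg (300.54 * A - 1.391 * B), sq_nonneg (300.54 * A - 0.1868 * S),
      sq_nonneg (1.391 * B - 0.1868 * S)]
  have hg0pos : 0 < g0 := by linarith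
  rw [div_le_iff₀ hg0pos]
  have h3 : 0 ≤ 905 * A ^ 2 + 0.0195 * B ^ 2 + 0.00036 * S ^ 2 := by positivity
  have h4 : (905 * A ^ 2 + 0.0195 * B ^ 2 + 0.00036 * S ^ 2) * 299.5 ≤
      (905 * A ^ 2 + 0.0195 * B ^ 2 + 0.00036 * S ^ 2) * g0 :=
    mul_le_mul_of_nonneg_left hg0 h3
  have hA2 : 0 ≤ A ^ 2 := sq_nonneg A
  have hB2 : 0 ≤ B ^ 2 := sq_nonneg B
  have hS2 : 0 ≤ S ^ 2 := sq_nonneg S
  have e : 3 * ((300.54 * A) ^ 2 + (1.391 * B) ^ 2 + (0.1868 * S) ^ 2)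
      = 270972.8748 * A ^ 2 + 5.804643 * B ^ 2 + 0.10468272 * S ^ 2 := by
    norm_num
    ring
  have e' : (905 * A ^ 2 + 0.0195 * B ^ 2 + 0.00036 * S ^ 2) * 299.5
      = 271047.5 * A ^ 2 + 5.84025 * B ^ 2 + 0.10782 * S ^ 2 := by
    norm_num
    ring
  linarith

set_option maxHeartbeats 1000000 in
/-- The per-cell algebraic inequality, normalized so that `R = 1`. -/
lemma cell_alg (ω v n a b S κ τ g0 g1 : ℝ) (hω : |ω| ≤ 1 / 5) (hv : |v| ≤ 1 / 2) (hn : 0 ≤ n) (hn2 : n ≤ 1 / 2)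
    (hS : 0 ≤ S) (hS2 : S ≤ 2) (ha : |a| ≤ S) (hb' : |b| ≤ S) (hb : b = a + S ^ 2)
    (hκdef : κ = v / 8) (hτdef : τ = κ / (1 - κ)) (hg0def : g0 = 300 - n)
    (hg1def : g1 = 300 * (1 + ω) - (1 + ω) * (1 - κ) * (S ^ 2 / 128 - b / 8 + n + v)) :
    0 < g0 ∧ 0 < g1 ∧
    S ^ 2 / 25 - 906 * ω ^ 2 ≤
      g0 * Real.log (g1 / g0) - 300 * ω + ((1 + ω) * (n + v) - n) - a / 8 - τ * n := by
  have hA : 0 ≤ |ω| := abs_nonneg ω
  have hB : 0 ≤ |v| := abs_nonneg v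
  have hω' := abs_le.mp hω
  have hv' := abs_le.mp hv
  have hg0 : (299.5 : ℝ) ≤ g0 := by rw [hg0def]; linarith
  have hκ : |κ| ≤ 1 / 16 := by
    rw [hκdef, abs_div]
    rw [show |(8 : ℝ)| = 8 by norm_num]
    linarith
  have hκ' := abs_le.mp hκ
  have hκeq : |κ| = |v| / 8 := by rw [hκdef, abs_div, show |(8 : ℝ)| = 8 by norm_num]
  have h1κ : 0 < 1 - κ := by linarith
  -- τ
  have hτeq : τ * (1 - κ) = κ := by rw [hτdef]; field_simp
  have hτ : |τ| ≤ (2 / 15) * |v| := by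
    have : |τ| = |κ| / (1 - κ) := by
      rw [hτdef, abs_div, abs_of_pos h1κ]
    rw [this, div_le_iff₀ h1κ, hκeq]
    have : (2 / 15) * |v| * (1 - κ) ≥ (2 / 15) * |v| * (15 / 16) := by
      apply mul_le_mul_of_nonneg_left _ (by positivity)
      linarith
    linarith
  -- g
  obtain ⟨g, hg⟩ : ∃ g, g = g1 - g0 := ⟨_, rfl⟩
  have hgform : g = 300 * ω + n * (1 - (1 + ω) * (1 - κ)) - (1 + ω) * (1 - κ) * v
      + (1 + ω) * (1 - κ) * (b / 8 - S ^ 2 / 128) := by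
    rw [hg, hg1def, hg0def]; ring
  have hP1 : |1 - (1 + ω) * (1 - κ)| ≤ (17 / 16) * |ω| + |v| / 8 := by
    have : 1 - (1 + ω) * (1 - κ) = κ + κ * ω - ω := by ring
    rw [this]
    have h1 : |κ * ω| ≤ (1 / 16) * |ω| := by
      rw [abs_mul]; exact mul_le_mul_of_nonneg_right hκ hA
    calc |κ + κ * ω - ω| ≤ |κ| + |κ * ω| + |ω| := by
          refine (abs_sub _ _).trans ?_
          gcongr
          exact abs_add_le _ _
      _ ≤ _ := by rw [hκeq]; linarith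
  have hP2 : |(1 + ω) * (1 - κ)| ≤ 85 / 64 := by
    rw [abs_mul, abs_of_pos (by linarith : 0 < 1 + ω), abs_of_pos h1κ]
    have h1 : 1 + ω ≤ 6 / 5 := by linarith
    have h2 : 1 - κ ≤ 17 / 16 := by linarith
    have h3 : (1 + ω) * (1 - κ) ≤ 6 / 5 * (17 / 16) :=
      mul_le_mul h1 h2 h1κ.le (by norm_num)
    linarith
  have hb2 : |b / 8 - S ^ 2 / 128| ≤ (9 / 64) * S := by
    have : S ^ 2 ≤ 2 * S := by nlinarith
    calc |b / 8 - S ^ 2 / 128| ≤ |b / 8| + |S ^ 2 / 128| := abs_sub _ _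
      _ ≤ S / 8 + S ^ 2 / 128 := by
          rw [abs_of_nonneg (by positivity : 0 ≤ S ^ 2 / 128), abs_div]
          rw [show |(8 : ℝ)| = 8 by norm_num]
          linarith
      _ ≤ _ := by linarith
  have hgabs : |g| ≤ 300.54 * |ω| + 1.391 * |v| + 0.1868 * S := by
    rw [hgform]
    have t1 : |300 * ω| = 300 * |ω| := by rw [abs_mul]; norm_num
    have t2 : |n * (1 - (1 + ω) * (1 - κ))| ≤ (1 / 2) * ((17 / 16) * |ω| + |v| / 8) := by
      rw [abs_mul, abs_of_nonneg hn]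
      exact mul_le_mul hn2 hP1 (abs_nonneg _) (by norm_num)
    have t3 : |(1 + ω) * (1 - κ) * v| ≤ (85 / 64) * |v| := by
      rw [abs_mul]; exact mul_le_mul_of_nonneg_right hP2 hB
    have t4 : |(1 + ω) * (1 - κ) * (b / 8 - S ^ 2 / 128)| ≤ (85 / 64) * ((9 / 64) * S) := by
      rw [abs_mul]; exact mul_le_mul hP2 hb2 (abs_nonneg _) (by norm_num)
    calc |300 * ω + n * (1 - (1 + ω) * (1 - κ)) - (1 + ω) * (1 - κ) * v
          + (1 + ω) * (1 - κ) * (b / 8 - S ^ 2 / 128)|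
        ≤ |300 * ω + n * (1 - (1 + ω) * (1 - κ)) - (1 + ω) * (1 - κ) * v|
          + |(1 + ω) * (1 - κ) * (b / 8 - S ^ 2 / 128)| := abs_add_le _ _
      _ ≤ |300 * ω + n * (1 - (1 + ω) * (1 - κ))| + |(1 + ω) * (1 - κ) * v|
          + |(1 + ω) * (1 - κ) * (b / 8 - S ^ 2 / 128)| := by
            gcongr; exact abs_sub _ _
      _ ≤ |300 * ω| + |n * (1 - (1 + ω) * (1 - κ))| + |(1 + ω) * (1 - κ) * v|
          + |(1 + ω) * (1 - κ) * (b / 8 - S ^ 2 / 128)| := by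
            gcongr; exact abs_add_le _ _
      _ ≤ _ := by rw [t1]; linarith
  -- ratio
  have hsmall : |g / g0| ≤ 1 / 4 := by
    rw [abs_div, abs_of_pos (by linarith : 0 < g0), div_le_iff₀ (by linarith)]
    have : |g| ≤ 300.54 * (1 / 5) + 1.391 * (1 / 2) + 0.1868 * 2 := by
      refine hgabs.trans ?_
      gcongr
    linarith
  have hg0ne : g0 ≠ 0 := by linarith
  have hg1eq : g1 / g0 = 1 + g / g0 := by
    rw [hg]; field_simp; ring
  have hg1pos : 0 < g1 := by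
    have : 0 < g1 / g0 := by
      rw [hg1eq]
      have := abs_le.mp hsmall
      linarith
    have hg0' : 0 < g0 := by linarith
    exact (div_pos_iff_of_pos_right hg0').mp this
  refine ⟨by linarith, hg1pos, ?_⟩
  -- log bound
  have hlog := log_one_add_ge hsmall
  rw [← hg1eq] at hlog
  have hmul : g0 * (g / g0 - (g / g0) ^ 2) ≤ g0 * Real.log (g1 / g0) :=
    mul_le_mul_of_nonneg_left hlog (by linarith)
  have hsimp : g0 * (g / g0 - (g / g0) ^ 2) = g - g ^ 2 / g0 := by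
    field_simp
  rw [hsimp] at hmul
  -- Q lower bound
  have hτκ : τ = κ + κ * τ := by linarith [hτeq]
  have hκv : v = 8 * κ := by rw [hκdef]; ring
  have hQform : g - 300 * ω + ((1 + ω) * (n + v) - n) - a / 8 - τ * n
      = (1 + ω) * v ^ 2 / 8 + (1 + ω) * (1 - κ) * ((15 / 128) * S ^ 2)
      + (a / 8) * (ω - κ - κ * ω) + n * κ * (ω - τ) := by
    have key := cell_Q_form ω κ τ n a S hτκ
    rw [← hκv] at key
    rw [hg, hg1def, hg0def, hb]
    exact key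
  have hT1 : (3 / 32) * |v| ^ 2 ≤ (1 + ω) * v ^ 2 / 8 := by
    rw [sq_abs]
    have : (4 / 5) * v ^ 2 ≤ (1 + ω) * v ^ 2 :=
      mul_le_mul_of_nonneg_right (by linarith) (sq_nonneg v)
    have h2 := sq_nonneg v
    linarith
  have hT2 : (0.0824 : ℝ) * S ^ 2 ≤ (1 + ω) * (1 - κ) * ((15 / 128) * S ^ 2) := by
    have h1 : (4 / 5 : ℝ) * (15 / 16) ≤ (1 + ω) * (1 - κ) :=
      mul_le_mul (by linarith) (by linarith) (by norm_num) (by linarith)
    have h2 : 0 ≤ S ^ 2 := sq_nonneg S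
    have h3 : (4 / 5 : ℝ) * (15 / 16) * ((15 / 128) * S ^ 2) ≤
        (1 + ω) * (1 - κ) * ((15 / 128) * S ^ 2) :=
      mul_le_mul_of_nonneg_right h1 (by positivity)
    have h4 : (0.0824 : ℝ) * S ^ 2 ≤ (4 / 5 : ℝ) * (15 / 16) * ((15 / 128) * S ^ 2) := by
      norm_num
      linarith
    linarith
  have hT3 : -(S / 8 * ((17 / 16) * |ω| + |v| / 8)) ≤ (a / 8) * (ω - κ - κ * ω) := by
    have h1 : |ω - κ - κ * ω| ≤ (17 / 16) * |ω| + |v| / 8 := by
      have h1' : |κ * ω| ≤ (1 / 16) * |ω| := by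
        rw [abs_mul]; exact mul_le_mul_of_nonneg_right hκ hA
      calc |ω - κ - κ * ω| ≤ |ω - κ| + |κ * ω| := abs_sub _ _
        _ ≤ |ω| + |κ| + |κ * ω| := by gcongr; exact abs_sub _ _
        _ ≤ _ := by rw [hκeq]; linarith
    have h2 : |(a / 8) * (ω - κ - κ * ω)| ≤ S / 8 * ((17 / 16) * |ω| + |v| / 8) := by
      rw [abs_mul, abs_div, show |(8 : ℝ)| = 8 by norm_num]
      exact mul_le_mul (by linarith) h1 (abs_nonneg _) (by positivity)
    exact (abs_le.mp h2).1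
  have hT4 : -((|v| / 16) * (|ω| + (2 / 15) * |v|)) ≤ n * κ * (ω - τ) := by
    have h1 : |ω - τ| ≤ |ω| + (2 / 15) * |v| := (abs_sub _ _).trans (by linarith)
    have h2 : |n * κ| ≤ |v| / 16 := by
      rw [abs_mul, abs_of_nonneg hn, hκeq]
      have : n * (|v| / 8) ≤ (1 / 2) * (|v| / 8) :=
        mul_le_mul_of_nonneg_right hn2 (by positivity)
      linarith
    have h3 : |n * κ * (ω - τ)| ≤ (|v| / 16) * (|ω| + (2 / 15) * |v|) := by
      rw [abs_mul]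
      exact mul_le_mul h2 h1 (abs_nonneg _) (by positivity)
    exact (abs_le.mp h3).1
  have hQlow := cell_Q_low _ _ _ _ _ _ _ hT1 hT2 hT3 hT4
  rw [← hQform] at hQlow
  -- g^2 bound
  have hgsq := cell_g_sq _ _ _ g g0 hgabs hg0
  -- conclude
  have hω2 : |ω| ^ 2 = ω ^ 2 := sq_abs ω
  rw [hω2] at hQlow hgsq
  have hB2 : 0 ≤ |v| ^ 2 := sq_nonneg _
  have hS2' : 0 ≤ S ^ 2 := sq_nonneg _
  have hω3 : 0 ≤ ω ^ 2 := sq_nonneg _
  have h9 : (0.04 + 0.00036 : ℝ) * S ^ 2 ≤ 0.0545 * S ^ 2 :=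
    mul_le_mul_of_nonneg_right (by norm_num) hS2'
  have h10 : (0.0195 : ℝ) * |v| ^ 2 ≤ 0.0576 * |v| ^ 2 :=
    mul_le_mul_of_nonneg_right (by norm_num) hB2
  have h11 : (0.27 + 905 : ℝ) * ω ^ 2 ≤ 906 * ω ^ 2 :=
    mul_le_mul_of_nonneg_right (by norm_num) hω3
  have h12 : S ^ 2 / 25 = 0.04 * S ^ 2 := by norm_num; ring
  linarith

set_option maxHeartbeats 2000000 in
/-- The per-cell inequality in raw form. -/
lemma cell_step {d : ℕ} (m m' R N N' : ℝ) (α α' : Eu d) (hm : 0 < m) (hmm : |m' - m| ≤ m / 5)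
    (hR : 0 < R) (hN : 0 ≤ N) (hN2 : N ≤ m * R ^ 2 / 2) (hN' : 0 ≤ N') (hN2' : N' ≤ m' * R ^ 2 / 2)
    (hα : ‖α‖ ≤ R) (hα' : ‖α'‖ ≤ R) (κ σ : ℝ)
    (hκ : κ = (N' / (m' * R ^ 2) - N / (m * R ^ 2)) / 8) (hσ : σ = 1 / (1 - κ)) :
    0 < σ ∧ 1 / σ ≤ 17 / 16 ∧
    0 < 300 * R ^ 2 * m - N ∧
    0 < 300 * R ^ 2 * m' - ‖(1 / 8 : ℝ) • (α' - α)‖ ^ 2 * m' / (2 * σ)
        + ⟪m' • α', (1 / 8 : ℝ) • (α' - α)⟫ / σ - N' / σ ∧
    m * ‖α' - α‖ ^ 2 / 25 - 906 * R ^ 2 * ((m' - m) ^ 2 / m) ≤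
      (300 * R ^ 2 * m - N) *
        Real.log ((300 * R ^ 2 * m' - ‖(1 / 8 : ℝ) • (α' - α)‖ ^ 2 * m' / (2 * σ)
        + ⟪m' • α', (1 / 8 : ℝ) • (α' - α)⟫ / σ - N' / σ) / (300 * R ^ 2 * m - N))
        - 300 * R ^ 2 * (m' - m) + (N' - N)
        - (⟪m • α, (1 / 8 : ℝ) • (α' - α)⟫ + (σ - 1) * N) := by
  have hmm' := abs_le.mp hmm
  have hm' : 0 < m' := by linarith [hmm'.1]
  have hR2 : 0 < R ^ 2 := by positivity
  have hM : 0 < m * R ^ 2 := by positivity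
  have hM' : 0 < m' * R ^ 2 := by positivity
  -- normalized variables
  obtain ⟨w, hw⟩ : ∃ w, w = α' - α := ⟨_, rfl⟩
  rw [← hw]
  have hα'eq : α' = α + w := by rw [hw]; abel
  obtain ⟨ω, hω⟩ : ∃ ω, ω = (m' - m) / m := ⟨_, rfl⟩
  obtain ⟨n, hn⟩ : ∃ n, n = N / (m * R ^ 2) := ⟨_, rfl⟩
  obtain ⟨n', hn'⟩ : ∃ n', n' = N' / (m' * R ^ 2) := ⟨_, rfl⟩
  obtain ⟨v, hv⟩ : ∃ v, v = n' - n := ⟨_, rfl⟩
  obtain ⟨a, ha⟩ : ∃ a, a = ⟪α, w⟫ / R ^ 2 := ⟨_, rfl⟩
  obtain ⟨b, hb⟩ : ∃ b, b = ⟪α', w⟫ / R ^ 2 := ⟨_, rfl⟩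
  obtain ⟨S, hS⟩ : ∃ S, S = ‖w‖ / R := ⟨_, rfl⟩
  have hm'eq : m' = m * (1 + ω) := by rw [hω]; field_simp; ring
  have hNeq : N = m * R ^ 2 * n := by rw [hn]; field_simp
  have hN'eq : N' = m' * R ^ 2 * n' := by rw [hn']; field_simp
  have hκv : κ = v / 8 := by rw [hκ, hv, hn, hn']
  have hωabs : |ω| ≤ 1 / 5 := by
    rw [hω, abs_div, abs_of_pos hm, div_le_iff₀ hm]; linarith
  have hn0 : 0 ≤ n := by rw [hn]; positivity
  have hn1 : n ≤ 1 / 2 := by rw [hn, div_le_iff₀ hM]; linarith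
  have hn0' : 0 ≤ n' := by rw [hn']; positivity
  have hn1' : n' ≤ 1 / 2 := by rw [hn', div_le_iff₀ hM']; linarith
  have hvabs : |v| ≤ 1 / 2 := by
    rw [hv, abs_le]; constructor <;> linarith
  have hw_le : ‖w‖ ≤ 2 * R := by
    rw [hw]
    calc ‖α' - α‖ ≤ ‖α'‖ + ‖α‖ := norm_sub_le _ _
      _ ≤ _ := by linarith
  have hS0 : 0 ≤ S := by rw [hS]; positivity
  have hS2 : S ≤ 2 := by rw [hS, div_le_iff₀ hR]; exact hw_le
  have hSR : ‖w‖ = S * R := by rw [hS]; field_simp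
  have hinner_le : ∀ u : Eu d, ‖u‖ ≤ R → |⟪u, w⟫ / R ^ 2| ≤ S := by
    intro u hu
    rw [abs_div, abs_of_pos hR2, div_le_iff₀ hR2]
    calc |⟪u, w⟫| ≤ ‖u‖ * ‖w‖ := abs_real_inner_le_norm _ _
      _ ≤ R * ‖w‖ := mul_le_mul_of_nonneg_right hu (norm_nonneg _)
      _ = S * R ^ 2 := by rw [hSR]; ring
  have haabs : |a| ≤ S := by rw [ha]; exact hinner_le α hα
  have hbabs : |b| ≤ S := by rw [hb]; exact hinner_le α' hα'
  have hbeq : b = a + S ^ 2 := by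
    rw [hb, ha, hS, hα'eq, inner_add_left, real_inner_self_eq_norm_sq]
    field_simp
  obtain ⟨τ, hτ⟩ : ∃ τ, τ = κ / (1 - κ) := ⟨_, rfl⟩
  obtain ⟨g0, hg0⟩ : ∃ g0, g0 = 300 - n := ⟨_, rfl⟩
  obtain ⟨g1, hg1⟩ : ∃ g1, g1 = 300 * (1 + ω) - (1 + ω) * (1 - κ) * (S ^ 2 / 128 - b / 8 + n + v) :=
    ⟨_, rfl⟩
  obtain ⟨hg0p, hg1p, hmain⟩ := cell_alg ω v n a b S κ τ g0 g1 hωabs hvabs hn0 hn1 hS0 hS2 haabs hbabs hbeq
    hκv hτ hg0 hg1
  have hvabs' := abs_le.mp hvabs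
  have hκle : κ ≤ 1 / 16 := by rw [hκv]; linarith [hvabs'.2]
  have hκge : -(1 / 16) ≤ κ := by rw [hκv]; linarith [hvabs'.1]
  have h1κ : 0 < 1 - κ := by linarith
  have hσinv : 1 / σ = 1 - κ := by rw [hσ]; field_simp
  have hσpos : 0 < σ := by rw [hσ]; positivity
  have hσne : σ ≠ 0 := hσpos.ne'
  have hdiv : ∀ x : ℝ, x / σ = (1 - κ) * x := by
    intro x; rw [← hσinv]; ring
  have hdiv2 : ∀ x : ℝ, x / (2 * σ) = (1 - κ) * (x / 2) := by
    intro x; rw [← hσinv]; field_simp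
  have hσ1 : σ - 1 = τ := by
    rw [hσ, hτ]; field_simp; ring
  -- identities
  have hG0 : 300 * R ^ 2 * m - N = m * R ^ 2 * g0 := by rw [hNeq, hg0]; ring
  have hnorm : ‖(1 / 8 : ℝ) • w‖ ^ 2 = ‖w‖ ^ 2 / 64 := by
    rw [norm_smul, mul_pow]; norm_num; ring
  have hinn' : ⟪m' • α', (1 / 8 : ℝ) • w⟫ = m * R ^ 2 * ((1 + ω) * (b / 8)) := by
    rw [inner_smul_left, inner_smul_right, hb, hm'eq]
    simp only [conj_trivial]
    field_simp
  have hinn : ⟪m • α, (1 / 8 : ℝ) • w⟫ = m * R ^ 2 * (a / 8) := by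
    rw [inner_smul_left, inner_smul_right, ha]
    simp only [conj_trivial]
    field_simp
  have hG1 : 300 * R ^ 2 * m' - ‖(1 / 8 : ℝ) • w‖ ^ 2 * m' / (2 * σ)
        + ⟪m' • α', (1 / 8 : ℝ) • w⟫ / σ - N' / σ = m * R ^ 2 * g1 := by
    rw [hnorm, hinn', hdiv2, hdiv, hdiv, hN'eq, hg1, hSR, hm'eq, hv]
    ring
  have hratio : (m * R ^ 2 * g1) / (m * R ^ 2 * g0) = g1 / g0 := by
    field_simp
  rw [hG0, hG1, hratio, hinn, hσ1]
  refine ⟨hσpos, by rw [hσinv]; linarith, by positivity, by positivity, ?_⟩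
  have hL : m * ‖w‖ ^ 2 / 25 - 906 * R ^ 2 * ((m' - m) ^ 2 / m)
      = m * R ^ 2 * (S ^ 2 / 25 - 906 * ω ^ 2) := by
    rw [hSR, hω]; field_simp
  have h300 : 300 * R ^ 2 * (m' - m) = m * R ^ 2 * (300 * ω) := by
    rw [hω]; field_simp
  have hNN : N' - N = m * R ^ 2 * ((1 + ω) * (n + v) - n) := by
    rw [hN'eq, hNeq, hm'eq, hv]; ring
  rw [hL, h300, hNN]
  have := mul_le_mul_of_nonneg_left hmain hM.le
  nlinarith [this]

section bary

variable {d : ℕ} {I : Type} [Fintype I] {K : Set (Eu d)}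

/-- Barycenter of a cell. -/
noncomputable def bary (K : Set (Eu d)) (y : I → Eu d) (c : I → ℝ) (l : I) : Eu d :=
  (mass K y c l)⁻¹ • mom1 K y c l

lemma norm_mom1_le (hKc : IsCompact K) {R : ℝ} (hKR : ∀ x ∈ K, ‖x‖ ≤ R) (y : I → Eu d) (c : I → ℝ)
    (l : I) : ‖mom1 K y c l‖ ≤ mass K y c l * R := by
  unfold mom1 mass
  have hfin : volume (cell K y c l) < ⊤ :=
    (measure_mono (cell_subset K y c l)).trans_lt hKc.measure_lt_top
  have := norm_setIntegral_le_of_norm_le_const (μ := volume) (s := cell K y c l) (f := fun x : Eu d => x)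
    (C := R) hfin (fun x hx => hKR x (cell_subset K y c l hx))
  rwa [mul_comm] at this

lemma mom2_nonneg (y : I → Eu d) (c : I → ℝ) (l : I) : 0 ≤ mom2 K y c l := by
  unfold mom2
  exact integral_nonneg (fun x => by positivity)

lemma mom2_le (hKc : IsCompact K) {R : ℝ} (hR : 0 < R) (hKR : ∀ x ∈ K, ‖x‖ ≤ R) (y : I → Eu d)
    (c : I → ℝ) (l : I) : mom2 K y c l ≤ mass K y c l * R ^ 2 / 2 := by
  unfold mom2 mass
  have hfin : volume (cell K y c l) < ⊤ :=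
    (measure_mono (cell_subset K y c l)).trans_lt hKc.measure_lt_top
  have := norm_setIntegral_le_of_norm_le_const (μ := volume) (s := cell K y c l)
    (f := fun x : Eu d => ‖x‖ ^ 2 / 2) (C := R ^ 2 / 2) hfin (fun x hx => by
      have h1 := hKR x (cell_subset K y c l hx)
      rw [Real.norm_of_nonneg (by positivity)]
      have : ‖x‖ ^ 2 ≤ R ^ 2 := pow_le_pow_left₀ (norm_nonneg _) h1 2
      linarith)
  have h2 := (le_abs_self _).trans this
  calc _ ≤ _ := h2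
    _ = _ := by rw [Measure.real]; ring

lemma smul_bary {y : I → Eu d} {c : I → ℝ} {l : I} (h : 0 < mass K y c l) :
    mass K y c l • bary K y c l = mom1 K y c l := by
  unfold bary
  rw [smul_smul, mul_inv_cancel₀ h.ne', one_smul]

lemma norm_bary_le (hKc : IsCompact K) {R : ℝ} (hKR : ∀ x ∈ K, ‖x‖ ≤ R) {y : I → Eu d} {c : I → ℝ}
    {l : I} (h : 0 < mass K y c l) : ‖bary K y c l‖ ≤ R := by
  unfold bary
  rw [norm_smul, norm_inv, Real.norm_of_nonneg h.le, inv_mul_le_iff₀ h]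
  exact norm_mom1_le hKc hKR y c l

variable [Nonempty I]

/-- **Barycenter stability**: barycenters of the power cells depend on the masses in an
`ℓ²`-Lipschitz way, with a constant that does not depend on the atoms. -/
theorem bary_stability (hKc : IsCompact K) (hKv : Convex ℝ K) {y : I → Eu d}
    (hy : Function.Injective y) {R : ℝ} (hR : 0 < R) (hKR : ∀ x ∈ K, ‖x‖ ≤ R) (cA cB : I → ℝ)
    (hm : ∀ l, 0 < mass K y cA l)
    (hmm : ∀ l, |mass K y cB l - mass K y cA l| ≤ mass K y cA l / 5) :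
    ∑ l, mass K y cA l * ‖bary K y cB l - bary K y cA l‖ ^ 2 ≤
      22650 * R ^ 2 * ∑ l, (mass K y cB l - mass K y cA l) ^ 2 / mass K y cA l := by
  have hm' : ∀ l, 0 < mass K y cB l := fun l => by
    have := (abs_le.mp (hmm l)).1
    have := hm l
    linarith
  -- the data
  set κ : I → ℝ := fun l => (mom2 K y cB l / (mass K y cB l * R ^ 2)
    - mom2 K y cA l / (mass K y cA l * R ^ 2)) / 8 with hκ
  set σ : I → ℝ := fun l => 1 / (1 - κ l) with hσ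
  set ξ : I → Eu d := fun l => (1 / 8 : ℝ) • (bary K y cB l - bary K y cA l) with hξ
  have hstep := fun l => cell_step (mass K y cA l) (mass K y cB l) R (mom2 K y cA l) (mom2 K y cB l)
    (bary K y cA l) (bary K y cB l) (hm l) (hmm l) hR (mom2_nonneg y cA l)
    (mom2_le hKc hR hKR y cA l) (mom2_nonneg y cB l) (mom2_le hKc hR hKR y cB l)
    (norm_bary_le hKc hKR (hm l)) (norm_bary_le hKc hKR (hm' l)) (κ l) (σ l) rfl rfl
  simp only [smul_bary (hm _), smul_bary (hm' _)] at hstep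
  have hσpos : ∀ l, 0 < σ l := fun l => (hstep l).1
  have hGA : ∀ l, Gv K y (300 * R ^ 2) cA 0 1 l = 300 * R ^ 2 * mass K y cA l - mom2 K y cA l := by
    intro l
    rw [Gv_eq hKc]
    simp
  have hGB : ∀ l, Gv K y (300 * R ^ 2) cB (ξ l) (σ l) l =
      300 * R ^ 2 * mass K y cB l - ‖ξ l‖ ^ 2 * mass K y cB l / (2 * σ l)
        + ⟪mom1 K y cB l, ξ l⟫ / σ l - mom2 K y cB l / σ l := fun l => Gv_eq hKc _ _ _ _ _ _
  have hR2 : 0 < R ^ 2 := by positivity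
  -- the master inequality
  have hmaster := master_ineq hKc hKv hy (300 * R ^ 2) cA cB ξ σ hσpos
    (by
      intro x hx
      have h1 := hKR x hx
      have h2 : ‖x‖ ^ 2 ≤ R ^ 2 := pow_le_pow_left₀ (norm_nonneg _) h1 2
      unfold zeta
      simp only [sub_zero]
      norm_num
      linarith)
    (by
      intro l x hx
      have h1 := hKR x hx
      have h1m := norm_bary_le hKc hKR (hm l)
      have h1m' := norm_bary_le hKc hKR (hm' l)
      have h3 : ‖ξ l‖ ≤ R / 4 := by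
        simp only [hξ]
        rw [norm_smul, Real.norm_of_nonneg (by norm_num)]
        have : ‖bary K y cB l - bary K y cA l‖ ≤ 2 * R := by
          refine (norm_sub_le _ _).trans ?_
          linarith
        linarith
      have h4 : ‖x - ξ l‖ ≤ 5 / 4 * R := by
        refine (norm_sub_le _ _).trans ?_
        linarith
      have h5 : ‖x - ξ l‖ ^ 2 ≤ (5 / 4 * R) ^ 2 := pow_le_pow_left₀ (norm_nonneg _) h4 2
      have h6 := (hstep l).2.1
      have h7 : ‖x - ξ l‖ ^ 2 / (2 * σ l) = (1 / σ l) * (‖x - ξ l‖ ^ 2 / 2) := by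
        have := (hσpos l).ne'
        field_simp
      unfold zeta
      rw [h7]
      have h8 : (1 / σ l) * (‖x - ξ l‖ ^ 2 / 2) ≤ (17 / 16) * (((5 / 4 * R) ^ 2) / 2) :=
        mul_le_mul h6 (by linarith) (by positivity) (by norm_num)
      nlinarith)
    (fun l => by rw [hGA]; exact (hstep l).2.2.1)
    (fun l => by rw [hGB]; exact (hstep l).2.2.2.1)
  simp only [hGA, hGB] at hmaster
  have hsum := Finset.sum_le_sum (s := Finset.univ) (fun l _ => (hstep l).2.2.2.2)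
  -- sums
  have hmassum : ∑ l, (mass K y cB l - mass K y cA l) = 0 := by
    rw [Finset.sum_sub_distrib]
    simp only [mass_eq_integral]
    rw [sum_integral_cell hKc hy cB (continuous_const.continuousOn.integrableOn_compact hKc),
      sum_integral_cell hKc hy cA (continuous_const.continuousOn.integrableOn_compact hKc), sub_self]
  have hNsum : ∑ l, (mom2 K y cB l - mom2 K y cA l) = 0 := by
    rw [Finset.sum_sub_distrib]
    simp only [mom2]
    have hc : Continuous (fun x : Eu d => ‖x‖ ^ 2 / 2) := by fun_prop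
    rw [sum_integral_cell hKc hy cB (hc.continuousOn.integrableOn_compact hKc),
      sum_integral_cell hKc hy cA (hc.continuousOn.integrableOn_compact hKc), sub_self]
  have hsplit :
      ∑ l, ((300 * R ^ 2 * mass K y cA l - mom2 K y cA l) *
        Real.log ((300 * R ^ 2 * mass K y cB l -
          ‖(1 / 8 : ℝ) • (bary K y cB l - bary K y cA l)‖ ^ 2 * mass K y cB l / (2 * σ l)
          + ⟪mom1 K y cB l, (1 / 8 : ℝ) • (bary K y cB l - bary K y cA l)⟫ / σ l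
          - mom2 K y cB l / σ l) / (300 * R ^ 2 * mass K y cA l - mom2 K y cA l))
        - 300 * R ^ 2 * (mass K y cB l - mass K y cA l) + (mom2 K y cB l - mom2 K y cA l)
        - (⟪mom1 K y cA l, (1 / 8 : ℝ) • (bary K y cB l - bary K y cA l)⟫ + (σ l - 1) * mom2 K y cA l))
      = ∑ l, ((300 * R ^ 2 * mass K y cA l - mom2 K y cA l) *
        Real.log ((300 * R ^ 2 * mass K y cB l -
          ‖(1 / 8 : ℝ) • (bary K y cB l - bary K y cA l)‖ ^ 2 * mass K y cB l / (2 * σ l)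
          + ⟪mom1 K y cB l, (1 / 8 : ℝ) • (bary K y cB l - bary K y cA l)⟫ / σ l
          - mom2 K y cB l / σ l) / (300 * R ^ 2 * mass K y cA l - mom2 K y cA l)))
        - 300 * R ^ 2 * ∑ l, (mass K y cB l - mass K y cA l) + ∑ l, (mom2 K y cB l - mom2 K y cA l)
        - ∑ l, (⟪mom1 K y cA l, (1 / 8 : ℝ) • (bary K y cB l - bary K y cA l)⟫ + (σ l - 1) * mom2 K y cA l) := by
    rw [Finset.mul_sum, ← Finset.sum_sub_distrib, ← Finset.sum_add_distrib, ← Finset.sum_sub_distrib]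
  rw [hsplit, hmassum, hNsum] at hsum
  simp only [hξ] at hmaster
  have hfinal : ∑ l, (mass K y cA l * ‖bary K y cB l - bary K y cA l‖ ^ 2 / 25
      - 906 * R ^ 2 * ((mass K y cB l - mass K y cA l) ^ 2 / mass K y cA l)) ≤ 0 := by
    linarith
  rw [Finset.sum_sub_distrib, ← Finset.sum_div, ← Finset.mul_sum] at hfinal
  have e : (22650 : ℝ) = 25 * 906 := by norm_num
  rw [e]
  linarith

end bary

end Crest.Agent.OT
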