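import Crest.Agent.Lib.OT.Cells

/-!
# Semi-discrete optimal transport: heights for a continuous density (weighted form)
-/

set_option autoImplicit false
open MeasureTheory Filter Topology
open scoped ENNReal NNReal RealInnerProductSpace

namespace Crest.Agent.OT

variable {d : ℕ} {I : Type} [Fintype I] {K : Set (Eu d)}

/-- The heights `c` solve the semi-discrete problem with density `r` and masses `M`. -/
def IsHeight (K : Set (Eu d)) (y : I → Eu d) (r : Eu d → ℝ) (M : I → ℝ) (c : I → ℝ) : Prop :=
  ∀ l, ∫ x in cell K y c l, r x = M l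

variable [Nonempty I]

/-- The dual functional. -/
noncomputable def Val (K : Set (Eu d)) (y : I → Eu d) (r : Eu d → ℝ) (M : I → ℝ) (c : I → ℝ) : ℝ :=
  (∫ x in K, pot y c x * r x) + ∑ l, M l * c l

lemma continuous_pot_uncurry (y : I → Eu d) :
    Continuous (fun p : (I → ℝ) × Eu d => pot y p.1 p.2) := by
  have : (fun p : (I → ℝ) × Eu d => pot y p.1 p.2) = fun p =>
      (Finset.univ : Finset I).sup' Finset.univ_nonempty
        (fun l => ⟪p.2, y l⟫ - p.1 l) := by
    funext p
    apply le_antisymm
    · exact ciSup_le (fun l => Finset.le_sup' (fun l => ⟪p.2, y l⟫ - p.1 l) (Finset.mem_univ l))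
    · exact Finset.sup'_le _ _ (fun l _ => le_pot y p.1 p.2 l)
  rw [this]
  refine Continuous.finset_sup'_apply Finset.univ_nonempty (fun l _ => ?_)
  have h1 : Continuous fun p : (I → ℝ) × Eu d => p.1 l :=
    (continuous_apply l).comp continuous_fst
  have h2 : Continuous fun p : (I → ℝ) × Eu d => ⟪p.2, y l⟫ :=
    continuous_snd.inner continuous_const
  exact h2.sub h1

lemma pot_add_const (y : I → Eu d) (c : I → ℝ) (t : ℝ) (x : Eu d) :
    pot y (fun l => c l + t) x = pot y c x - t := by
  apply le_antisymm
  · refine pot_le _ _ _ _ (fun l => ?_)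
    have := le_pot y c x l
    linarith
  · obtain ⟨l, hl⟩ := exists_pot_eq y c x
    have := le_pot y (fun l => c l + t) x l
    linarith

lemma continuous_Val (hKc : IsCompact K) (y : I → Eu d) {r : Eu d → ℝ} (hr : Continuous r)
    (M : I → ℝ) : Continuous (Val K y r M) := by
  unfold Val
  refine Continuous.add ?_ (continuous_finsetSum _ fun l _ =>
    continuous_const.mul (continuous_apply l))
  have hf : Continuous (Function.uncurry fun (c : I → ℝ) (x : Eu d) => pot y c x * r x) := by
    have h1 := continuous_pot_uncurry y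
    have h2 : Continuous fun p : (I → ℝ) × Eu d => r p.2 := hr.comp continuous_snd
    exact h1.mul h2
  exact continuous_parametric_integral_of_continuous hf hKc

lemma integrableOn_pot_mul (hKc : IsCompact K) (y : I → Eu d) (c : I → ℝ) {r : Eu d → ℝ}
    (hr : Continuous r) : IntegrableOn (fun x => pot y c x * r x) K volume :=
  ((continuous_pot y c).mul hr).continuousOn.integrableOn_compact hKc

lemma Val_add_const (hKc : IsCompact K) (y : I → Eu d) {r : Eu d → ℝ} (hr : Continuous r)
    {M : I → ℝ} (hsum : ∑ l, M l = ∫ x in K, r x) (c : I → ℝ) (t : ℝ) :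
    Val K y r M (fun l => c l + t) = Val K y r M c := by
  unfold Val
  simp_rw [pot_add_const, sub_mul]
  have hi : IntegrableOn (fun x => t * r x) K volume :=
    (continuous_const.mul hr).continuousOn.integrableOn_compact hKc
  rw [integral_sub (integrableOn_pot_mul hKc y c hr) hi, integral_const_mul, ← hsum]
  simp_rw [mul_add]
  rw [Finset.sum_add_distrib, ← Finset.sum_mul]
  ring

/-- Existence of a global minimizer of `Val`. -/
lemma exists_min_Val (hKc : IsCompact K) (y : I → Eu d) {r : Eu d → ℝ} (hr : Continuous r)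
    (hr0 : ∀ x ∈ K, 0 ≤ r x) {M : I → ℝ} (hM : ∀ l, 0 < M l) (hsum : ∑ l, M l = ∫ x in K, r x) :
    ∃ c : I → ℝ, ∀ c' : I → ℝ, Val K y r M c ≤ Val K y r M c' := by
  classical
  obtain ⟨R, hR⟩ := hKc.isBounded.exists_norm_le
  obtain ⟨l₁, hl₁⟩ := Finite.exists_min M
  set δ := M l₁ with hδ
  have hδpos : 0 < δ := hM l₁
  set Ry : ℝ := ∑ l, ‖y l‖ with hRy
  have hy_le : ∀ l, ‖y l‖ ≤ Ry := fun l =>
    Finset.single_le_sum (f := fun l => ‖y l‖) (fun _ _ => norm_nonneg _) (Finset.mem_univ l)
  have hRy0 : 0 ≤ Ry := Finset.sum_nonneg (fun _ _ => norm_nonneg _)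
  have hR0 : 0 ≤ R := by
    by_cases hne : K.Nonempty
    · obtain ⟨x, hx⟩ := hne
      exact (norm_nonneg _).trans (hR x hx)
    · rw [Set.not_nonempty_iff_eq_empty] at hne
      subst hne
      simp only [Measure.restrict_empty, integral_zero_measure] at hsum
      have : 0 < ∑ l, M l := Finset.sum_pos (fun l _ => hM l) Finset.univ_nonempty
      linarith
  set W : ℝ := ∫ x in K, r x with hW
  have hW0 : 0 ≤ W := setIntegral_nonneg hKc.measurableSet hr0
  -- coercivity
  have hco : ∀ c : I → ℝ, (∀ l, 0 ≤ c l) → ∀ l₀, c l₀ = 0 → ∀ l,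
      -(R * Ry * W) + δ * c l ≤ Val K y r M c := by
    intro c hc l₀ hl₀ l
    unfold Val
    have h1 : -(R * Ry) * W ≤ ∫ x in K, pot y c x * r x := by
      rw [hW, ← integral_const_mul]
      refine setIntegral_mono_on ((continuous_const.mul hr).continuousOn.integrableOn_compact hKc)
        (integrableOn_pot_mul hKc y c hr) hKc.measurableSet (fun x hx => ?_)
      refine mul_le_mul_of_nonneg_right ?_ (hr0 x hx)
      have h2 := le_pot y c x l₀
      rw [hl₀, sub_zero] at h2
      have h3 : |⟪x, y l₀⟫| ≤ ‖x‖ * ‖y l₀‖ := abs_real_inner_le_norm _ _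
      have h4 : ‖x‖ * ‖y l₀‖ ≤ R * Ry :=
        mul_le_mul (hR x hx) (hy_le l₀) (norm_nonneg _) hR0
      have h5 := (abs_le.mp (h3.trans h4)).1
      linarith
    have h2 : δ * c l ≤ ∑ l, M l * c l := by
      calc δ * c l ≤ M l * c l := mul_le_mul_of_nonneg_right (hl₁ l) (hc l)
        _ ≤ _ := Finset.single_le_sum (f := fun l => M l * c l)
            (fun j _ => mul_nonneg (hM j).le (hc j)) (Finset.mem_univ l)
    linarith
  -- box
  set V0 := Val K y r M (fun _ => 0) with hV0
  have hV0lb : -(R * Ry * W) ≤ V0 := by
    have := hco (fun _ => 0) (fun _ => le_rfl) l₁ rfl l₁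
    simp only [mul_zero, add_zero] at this
    exact this
  set B : ℝ := (V0 + R * Ry * W) / δ with hB
  have hB0 : 0 ≤ B := div_nonneg (by linarith) hδpos.le
  have hbox : IsCompact (Set.pi Set.univ (fun _ : I => Set.Icc (0 : ℝ) B)) :=
    isCompact_univ_pi (fun _ => isCompact_Icc)
  have h0mem : (fun _ : I => (0 : ℝ)) ∈ Set.pi Set.univ (fun _ : I => Set.Icc (0 : ℝ) B) :=
    fun _ _ => ⟨le_rfl, hB0⟩
  obtain ⟨c, hcmem, hcmin⟩ := hbox.exists_isMinOn ⟨_, h0mem⟩
    (continuous_Val hKc y hr M).continuousOn
  refine ⟨c, fun c' => ?_⟩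
  obtain ⟨l₀, hl₀⟩ := Finite.exists_min c'
  set c'' : I → ℝ := fun l => c' l + (- c' l₀) with hc''
  have hval : Val K y r M c'' = Val K y r M c' := Val_add_const hKc y hr hsum c' _
  rw [← hval]
  have hc''0 : ∀ l, 0 ≤ c'' l := fun l => by simp only [hc'']; linarith [hl₀ l]
  have hc''l₀ : c'' l₀ = 0 := by simp only [hc'']; ring
  by_cases hcase : ∀ l, c'' l ≤ B
  · exact hcmin (fun l _ => ⟨hc''0 l, hcase l⟩)
  · push Not at hcase
    obtain ⟨l, hl⟩ := hcase
    have h1 := hco c'' hc''0 l₀ hc''l₀ l
    have h2 : Val K y r M c ≤ V0 := hcmin h0mem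
    have h3 : δ * B = V0 + R * Ry * W := by
      rw [hB]; field_simp
    have h4 : δ * B ≤ δ * c'' l := mul_le_mul_of_nonneg_left hl.le hδpos.le
    linarith

/-- Semi-discrete optimal transport: existence of heights for a continuous nonnegative density. -/
theorem exists_heights_w (hKc : IsCompact K) {y : I → Eu d} (hy : Function.Injective y)
    {r : Eu d → ℝ} (hr : Continuous r) (hr0 : ∀ x ∈ K, 0 ≤ r x) {M : I → ℝ} (hM : ∀ l, 0 < M l)
    (hsum : ∑ l, M l = ∫ x in K, r x) : ∃ c : I → ℝ, IsHeight K y r M c := by
  classical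
  obtain ⟨c, hc⟩ := exists_min_Val hKc y hr hr0 hM hsum
  refine ⟨c, ?_⟩
  -- one-sided first-order condition
  have hfo : ∀ l, M l ≤ ∫ x in cell K y c l, r x := by
    intro l
    have hstep : ∀ t : ℝ, 0 < t →
        M l ≤ ∫ x in cell K y (fun j => if j = l then c j - t else c j) l, r x := by
      intro t ht
      set ct : I → ℝ := fun j => if j = l then c j - t else c j with hct
      have h1 := hc ct
      have hsumdiff : ∑ j, M j * ct j = ∑ j, M j * c j - t * M l := by
        have : ∀ j, M j * ct j = M j * c j - (if j = l then t * M j else 0) := by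
          intro j
          simp only [hct]
          split_ifs <;> ring
        simp_rw [this]
        rw [Finset.sum_sub_distrib]
        simp
      have hptw : ∀ x ∈ K, pot y ct x * r x ≤
          pot y c x * r x + t * (cell K y ct l).indicator r x := by
        intro x hx
        by_cases hmem : x ∈ cell K y ct l
        · rw [Set.indicator_of_mem hmem, pot_eq_of_mem_cell hmem]
          have h2 := le_pot y c x l
          have h3 : ct l = c l - t := by simp [hct]
          rw [h3]
          nlinarith [hr0 x hx]
        · rw [Set.indicator_of_notMem hmem, mul_zero, add_zero]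
          refine mul_le_mul_of_nonneg_right ?_ (hr0 x hx)
          obtain ⟨j, hj⟩ := exists_pot_eq y ct x
          have hjl : j ≠ l := by
            rintro rfl
            exact hmem ⟨hx, fun i => by rw [hj]; exact le_pot y ct x i⟩
          rw [← hj]
          have h3 : ct j = c j := by simp [hct, hjl]
          rw [h3]
          exact le_pot y c x j
      have hindint : IntegrableOn (fun x => t * (cell K y ct l).indicator r x) K volume := by
        have : IntegrableOn ((cell K y ct l).indicator r) K volume := by
          refine IntegrableOn.indicator (hr.continuousOn.integrableOn_compact hKc) ?_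
          exact measurableSet_cell hKc.measurableSet y ct l
        exact this.const_mul t
      have h2 : ∫ x in K, pot y ct x * r x ≤ (∫ x in K, pot y c x * r x) +
          t * ∫ x in cell K y ct l, r x := by
        have hcellK : ∫ x in K, (cell K y ct l).indicator r x = ∫ x in cell K y ct l, r x := by
          rw [setIntegral_indicator (measurableSet_cell hKc.measurableSet y ct l)]
          rw [Set.inter_eq_right.mpr (cell_subset K y ct l)]
        rw [← hcellK, ← integral_const_mul,
          ← integral_add (integrableOn_pot_mul hKc y c hr) hindint]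
        exact setIntegral_mono_on (integrableOn_pot_mul hKc y ct hr)
          ((integrableOn_pot_mul hKc y c hr).add hindint) hKc.measurableSet hptw
      unfold Val at h1
      rw [hsumdiff] at h1
      have h3 : t * M l ≤ t * ∫ x in cell K y ct l, r x := by linarith
      exact le_of_mul_le_mul_left h3 ht
    -- limit `t → 0`
    set tn : ℕ → ℝ := fun n => 1 / ((n : ℝ) + 1) with htn
    have htn0 : Tendsto tn atTop (𝓝 0) := tendsto_one_div_add_atTop_nhds_zero_nat
    have hcn : Tendsto (fun n => (fun j => if j = l then c j - tn n else c j : I → ℝ)) atTop (𝓝 c) := by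
      rw [tendsto_pi_nhds]
      intro j
      by_cases hj : j = l
      · simp only [hj, if_true]
        simpa using (tendsto_const_nhds (x := c l)).sub htn0
      · simp only [hj, if_false]
        exact tendsto_const_nhds
    have hlim := tendsto_integral_cell hKc hy hr hcn l
    refine ge_of_tendsto' hlim (fun n => hstep _ ?_)
    simp only [htn]
    positivity
  have hsumcell : ∑ l, ∫ x in cell K y c l, r x = ∑ l, M l := by
    rw [hsum]
    exact sum_integral_cell hKc hy c (hr.continuousOn.integrableOn_compact hKc)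
  intro l
  have := (Finset.sum_eq_sum_iff_of_le (s := Finset.univ) (fun l _ => hfo l)).mp hsumcell.symm
  exact (this l (Finset.mem_univ l)).symm

end Crest.Agent.OT
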