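import Mathlib
import Crest.Agent.Lib.OT.Basic

/-!
# Midpoint Prékopa–Leindler inequality (module M1 of the OT row)
-/

set_option autoImplicit false
open MeasureTheory Set
open scoped ENNReal NNReal

namespace Crest.Agent.OT

/-- One-dimensional Brunn–Minkowski for compact sets. -/
lemma bm_compact {A B S : Set ℝ} (hA : IsCompact A) (hB : IsCompact B) (hAne : A.Nonempty)
    (hBne : B.Nonempty) (hS : ∀ x ∈ A, ∀ y ∈ B, (x + y) / 2 ∈ S) :
    volume A / 2 + volume B / 2 ≤ volume S := by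
  obtain ⟨a, haA, ha⟩ := hA.exists_isGreatest hAne
  obtain ⟨b, hbB, hb⟩ := hB.exists_isLeast hBne
  set L : Set ℝ := (fun z => 2 * z) ⁻¹' ((fun w => w + (-b)) ⁻¹' A) with hL
  set R : Set ℝ := (fun z => 2 * z) ⁻¹' ((fun w => w + (-a)) ⁻¹' B) with hR
  have hvol : ∀ (c : ℝ) (C : Set ℝ),
      volume ((fun z : ℝ => 2 * z) ⁻¹' ((fun w => w + (-c)) ⁻¹' C)) = volume C / 2 := by
    intro c C
    rw [Real.volume_preimage_mul_left (by norm_num : (2 : ℝ) ≠ 0), measure_preimage_add_right]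
    rw [abs_of_pos (by norm_num : (0 : ℝ) < 2⁻¹), div_eq_mul_inv, mul_comm]
    congr 1
    rw [ENNReal.ofReal_inv_of_pos (by norm_num)]
    simp
  have hRm : MeasurableSet R := by
    have : Measurable (fun z : ℝ => 2 * z + (-a)) := by fun_prop
    exact this hB.measurableSet
  have hLS : L ⊆ S := by
    intro z hz
    have hz' : 2 * z + (-b) ∈ A := hz
    have := hS _ hz' b hbB
    convert this using 1
    ring
  have hRS : R ⊆ S := by
    intro z hz
    have hz' : 2 * z + (-a) ∈ B := hz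
    have := hS a haA _ hz'
    convert this using 1
    ring
  have hinter : L ∩ R ⊆ {(a + b) / 2} := by
    rintro z ⟨hz1, hz2⟩
    have h1 : 2 * z + (-b) ≤ a := ha hz1
    have h2 : b ≤ 2 * z + (-a) := hb hz2
    simp only [mem_singleton_iff]
    linarith
  have hnull : volume (L ∩ R) = 0 :=
    measure_mono_null hinter (by simp)
  calc volume A / 2 + volume B / 2 = volume L + volume R := by rw [hL, hR, hvol, hvol]
    _ = volume (L ∪ R) + volume (L ∩ R) := (measure_union_add_inter L hRm).symm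
    _ = volume (L ∪ R) := by rw [hnull, add_zero]
    _ ≤ volume S := measure_mono (union_subset hLS hRS)

/-- A sup-type lemma in `ℝ≥0∞`. -/
lemma add_le_of_forall_lt {x y z : ℝ≥0∞}
    (h : ∀ x', (x' < x ∨ x' = 0) → ∀ y', (y' < y ∨ y' = 0) → x' + y' ≤ z) : x + y ≤ z := by
  by_contra hc
  push Not at hc
  by_cases hx : x = 0
  · subst hx
    rw [zero_add] at hc
    obtain ⟨y', hy1, hy2⟩ := exists_between hc
    have := h 0 (Or.inr rfl) y' (Or.inl hy2)
    rw [zero_add] at this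
    exact absurd hy1 (not_lt.mpr this)
  by_cases hy : y = 0
  · subst hy
    rw [add_zero] at hc
    obtain ⟨x', hx1, hx2⟩ := exists_between hc
    have := h x' (Or.inl hx2) 0 (Or.inr rfl)
    rw [add_zero] at this
    exact absurd hx1 (not_lt.mpr this)
  obtain ⟨x', hx', y', hy', hlt⟩ := ENNReal.exists_lt_add_of_lt_add hc hx hy
  exact absurd hlt (not_lt.mpr (h x' (Or.inl hx') y' (Or.inl hy')))

/-- One-dimensional Brunn–Minkowski for measurable sets. -/
lemma bm_measurable {A B S : Set ℝ} (hA : MeasurableSet A) (hB : MeasurableSet B)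
    (hAne : A.Nonempty) (hBne : B.Nonempty) (hS : ∀ x ∈ A, ∀ y ∈ B, (x + y) / 2 ∈ S) :
    volume A / 2 + volume B / 2 ≤ volume S := by
  obtain ⟨a₀, ha₀⟩ := hAne
  obtain ⟨b₀, hb₀⟩ := hBne
  have key : ∀ {C : Set ℝ} (c₀ : ℝ), MeasurableSet C → c₀ ∈ C → ∀ r, (r < volume C / 2 ∨ r = 0) →
      ∃ K, K ⊆ C ∧ IsCompact K ∧ K.Nonempty ∧ r ≤ volume K / 2 := by
    intro C c₀ hC hc₀ r hr
    rcases hr with hr | rfl
    · have h2 : r * 2 < volume C := by
        rwa [ENNReal.lt_div_iff_mul_lt (by simp) (by simp)] at hr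
      obtain ⟨K, hKC, hK, hlt⟩ := hC.exists_lt_isCompact h2
      refine ⟨insert c₀ K, insert_subset hc₀ hKC, hK.insert c₀, insert_nonempty _ _, ?_⟩
      rw [ENNReal.le_div_iff_mul_le (by simp) (by simp)]
      exact hlt.le.trans (measure_mono (subset_insert _ _))
    · exact ⟨{c₀}, by simpa using hc₀, isCompact_singleton, singleton_nonempty _, by simp⟩
  refine add_le_of_forall_lt (fun x' hx' y' hy' => ?_)
  obtain ⟨K, hKA, hK, hKne, hxK⟩ := key a₀ hA ha₀ x' hx'
  obtain ⟨K', hKB, hK', hKne', hyK⟩ := key b₀ hB hb₀ y' hy'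
  exact (add_le_add hxK hyK).trans
    (bm_compact hK hK' hKne hKne' (fun x hx y hy => hS x (hKA hx) y (hKB hy)))

/-- AM-GM in `ℝ≥0∞`. -/
lemma mul_le_half_add_sq (a b : ℝ≥0∞) : a * b ≤ (a / 2 + b / 2) ^ 2 := by
  have htop : (⊤ : ℝ≥0∞) / 2 = ⊤ := ENNReal.top_div_of_ne_top (by simp)
  by_cases ha : a = ∞
  · subst ha
    rw [htop]
    simp
  by_cases hb : b = ∞
  · subst hb
    rw [htop]
    simp
  lift a to ℝ≥0 using ha
  lift b to ℝ≥0 using hb
  have h2 : ((a : ℝ≥0∞) / 2 + (b : ℝ≥0∞) / 2) = (((a + b) / 2 : ℝ≥0) : ℝ≥0∞) := by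
    rw [ENNReal.coe_div (by norm_num), ENNReal.coe_add, ENNReal.add_div]
    simp
  rw [h2]
  norm_cast
  rw [← NNReal.coe_le_coe]
  push_cast
  nlinarith [sq_nonneg ((a : ℝ) - b)]

/-- Normalized one-dimensional inequality: all functions bounded by one, with supremum one. -/
lemma pl_normalized (f g h : ℝ → ℝ≥0∞) (hf : Measurable f) (hg : Measurable g) (hh : Measurable h)
    (hf1 : ∀ x, f x ≤ 1) (hg1 : ∀ x, g x ≤ 1)
    (hfs : ∀ t : ℝ≥0∞, t < 1 → ∃ x, t < f x) (hgs : ∀ t : ℝ≥0∞, t < 1 → ∃ x, t < g x)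
    (H : ∀ x y, f x * g y ≤ h ((x + y) / 2) ^ 2) :
    (∫⁻ x, f x) / 2 + (∫⁻ x, g x) / 2 ≤ ∫⁻ x, h x := by
  -- real-valued versions
  set F : ℝ → ℝ := fun x => (f x).toReal with hF
  set G : ℝ → ℝ := fun x => (g x).toReal with hG
  set K : ℝ → ℝ := fun x => (min (h x) 1).toReal with hK
  have hFm : Measurable F := hf.ennreal_toReal
  have hGm : Measurable G := hg.ennreal_toReal
  have hKm : Measurable K := (hh.min measurable_const).ennreal_toReal
  have hFnn : ∀ x, 0 ≤ F x := fun x => ENNReal.toReal_nonneg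
  have hGnn : ∀ x, 0 ≤ G x := fun x => ENNReal.toReal_nonneg
  have hKnn : ∀ x, 0 ≤ K x := fun x => ENNReal.toReal_nonneg
  have hfne : ∀ x, f x ≠ ∞ := fun x => ne_top_of_le_ne_top ENNReal.one_ne_top (hf1 x)
  have hgne : ∀ x, g x ≠ ∞ := fun x => ne_top_of_le_ne_top ENNReal.one_ne_top (hg1 x)
  have hkne : ∀ x, min (h x) 1 ≠ ∞ := fun x => ne_top_of_le_ne_top ENNReal.one_ne_top (min_le_right _ _)
  have hF1 : ∀ x, F x ≤ 1 := fun x => by
    have := ENNReal.toReal_mono ENNReal.one_ne_top (hf1 x)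
    simpa using this
  have hG1 : ∀ x, G x ≤ 1 := fun x => by
    have := ENNReal.toReal_mono ENNReal.one_ne_top (hg1 x)
    simpa using this
  have hIf : ∫⁻ x, f x = ∫⁻ t in Ioo (0 : ℝ) 1, volume {x | t < F x} := by
    have h1 : ∫⁻ x, f x = ∫⁻ x, ENNReal.ofReal (F x) := by
      refine lintegral_congr (fun x => ?_)
      rw [hF, ENNReal.ofReal_toReal (hfne x)]
    rw [h1, lintegral_eq_lintegral_meas_lt volume (Filter.Eventually.of_forall hFnn)
      hFm.aemeasurable]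
    have hsub : Ioo (0 : ℝ) 1 ⊆ Ioi 0 := fun t ht => ht.1
    refine le_antisymm ?_ (lintegral_mono_set hsub)
    have hsplit : Ioi (0 : ℝ) = Ioo 0 1 ∪ Ici 1 := by
      ext t
      simp only [mem_Ioi, mem_union, mem_Ioo, mem_Ici]
      constructor
      · intro ht
        by_cases h1 : t < 1
        · exact Or.inl ⟨ht, h1⟩
        · exact Or.inr (not_lt.mp h1)
      · rintro (ht | ht)
        · exact ht.1
        · linarith
    rw [hsplit]
    refine (lintegral_union_le _ _ _).trans ?_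
    have hz : ∫⁻ t in Ici (1 : ℝ), volume {x | t < F x} = 0 := by
      refine setLIntegral_eq_zero measurableSet_Ici (fun t ht => ?_)
      have : {x | t < F x} = ∅ := by
        ext x
        simp only [mem_ofPred_eq, mem_empty_iff_false, iff_false, not_lt]
        exact (hF1 x).trans ht
      simp [this]
    rw [hz, add_zero]
  have hIg : ∫⁻ x, g x = ∫⁻ t in Ioo (0 : ℝ) 1, volume {x | t < G x} := by
    have h1 : ∫⁻ x, g x = ∫⁻ x, ENNReal.ofReal (G x) := by
      refine lintegral_congr (fun x => ?_)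
      rw [hG, ENNReal.ofReal_toReal (hgne x)]
    rw [h1, lintegral_eq_lintegral_meas_lt volume (Filter.Eventually.of_forall hGnn)
      hGm.aemeasurable]
    have hsub : Ioo (0 : ℝ) 1 ⊆ Ioi 0 := fun t ht => ht.1
    refine le_antisymm ?_ (lintegral_mono_set hsub)
    have hsplit : Ioi (0 : ℝ) = Ioo 0 1 ∪ Ici 1 := by
      ext t
      simp only [mem_Ioi, mem_union, mem_Ioo, mem_Ici]
      constructor
      · intro ht
        by_cases h1 : t < 1
        · exact Or.inl ⟨ht, h1⟩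
        · exact Or.inr (not_lt.mp h1)
      · rintro (ht | ht)
        · exact ht.1
        · linarith
    rw [hsplit]
    refine (lintegral_union_le _ _ _).trans ?_
    have hz : ∫⁻ t in Ici (1 : ℝ), volume {x | t < G x} = 0 := by
      refine setLIntegral_eq_zero measurableSet_Ici (fun t ht => ?_)
      have : {x | t < G x} = ∅ := by
        ext x
        simp only [mem_ofPred_eq, mem_empty_iff_false, iff_false, not_lt]
        exact (hG1 x).trans ht
      simp [this]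
    rw [hz, add_zero]
  have hIh : ∫⁻ t in Ioo (0 : ℝ) 1, volume {x | t < K x} ≤ ∫⁻ x, h x := by
    have h1 : ∫⁻ x, ENNReal.ofReal (K x) ≤ ∫⁻ x, h x := by
      refine lintegral_mono (fun x => ?_)
      rw [hK, ENNReal.ofReal_toReal (hkne x)]
      exact min_le_left _ _
    refine le_trans ?_ h1
    rw [lintegral_eq_lintegral_meas_lt volume (Filter.Eventually.of_forall hKnn)
      hKm.aemeasurable]
    exact lintegral_mono_set (fun t ht => ht.1)
  -- the level set inequality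
  have hlevel : ∀ t ∈ Ioo (0 : ℝ) 1,
      volume {x | t < F x} / 2 + volume {x | t < G x} / 2 ≤ volume {x | t < K x} := by
    intro t ht
    have ht1 : ENNReal.ofReal t < 1 := by
      rw [← ENNReal.ofReal_one]
      exact (ENNReal.ofReal_lt_ofReal_iff (by norm_num)).2 ht.2
    have hconv : ∀ (u : ℝ≥0∞), u ≠ ∞ → (t < u.toReal ↔ ENNReal.ofReal t < u) := by
      intro u hu
      rw [ENNReal.ofReal_lt_iff_lt_toReal ht.1.le hu]
    obtain ⟨x₀, hx₀⟩ := hfs _ ht1
    obtain ⟨y₀, hy₀⟩ := hgs _ ht1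
    refine bm_measurable (measurableSet_lt measurable_const hFm)
      (measurableSet_lt measurable_const hGm) ⟨x₀, (hconv _ (hfne _)).2 hx₀⟩
      ⟨y₀, (hconv _ (hgne _)).2 hy₀⟩ ?_
    intro x hx y hy
    have hx' : ENNReal.ofReal t < f x := (hconv _ (hfne _)).1 hx
    have hy' : ENNReal.ofReal t < g y := (hconv _ (hgne _)).1 hy
    refine (hconv _ (hkne _)).2 ?_
    refine lt_min ?_ ht1
    by_contra hcon
    push Not at hcon
    have hlt : ENNReal.ofReal t * ENNReal.ofReal t < f x * g y :=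
      ENNReal.mul_lt_mul hx' hy'
    have hle : h ((x + y) / 2) ^ 2 ≤ ENNReal.ofReal t * ENNReal.ofReal t := by
      rw [sq]
      exact mul_le_mul' hcon hcon
    exact absurd (H x y) (not_le.mpr (hle.trans_lt hlt))
  -- integrate
  have hanti : ∀ (E : ℝ → ℝ), Measurable (fun t : ℝ => volume {x | t < E x}) := by
    intro E
    refine Antitone.measurable (fun s t hst => ?_)
    refine measure_mono (fun x hx => ?_)
    exact lt_of_le_of_lt hst hx
  rw [hIf, hIg]
  calc (∫⁻ t in Ioo (0 : ℝ) 1, volume {x | t < F x}) / 2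
        + (∫⁻ t in Ioo (0 : ℝ) 1, volume {x | t < G x}) / 2
      = ∫⁻ t in Ioo (0 : ℝ) 1, (volume {x | t < F x} / 2 + volume {x | t < G x} / 2) := by
        simp only [div_eq_mul_inv]
        rw [lintegral_add_left ((hanti F).mul_const _), lintegral_mul_const _ (hanti F),
          lintegral_mul_const _ (hanti G)]
    _ ≤ ∫⁻ t in Ioo (0 : ℝ) 1, volume {x | t < K x} :=
        setLIntegral_mono' measurableSet_Ioo hlevel
    _ ≤ ∫⁻ x, h x := hIh

/-- One-dimensional inequality for functions with finite suprema. -/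
lemma pl_bounded (f g h : ℝ → ℝ≥0∞) (hf : Measurable f) (hg : Measurable g) (hh : Measurable h)
    (hfb : (⨆ x, f x) ≠ ∞) (hgb : (⨆ x, g x) ≠ ∞)
    (H : ∀ x y, f x * g y ≤ h ((x + y) / 2) ^ 2) :
    (∫⁻ x, f x) * (∫⁻ x, g x) ≤ (∫⁻ x, h x) ^ 2 := by
  set M₀ := ⨆ x, f x with hM₀
  set M₁ := ⨆ x, g x with hM₁
  by_cases h0 : M₀ = 0
  · have : ∀ x, f x = 0 := fun x => by
      have := le_iSup f x
      rw [← hM₀, h0] at this
      exact le_antisymm this bot_le
    simp [this]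
  by_cases h1 : M₁ = 0
  · have : ∀ x, g x = 0 := fun x => by
      have := le_iSup g x
      rw [← hM₁, h1] at this
      exact le_antisymm this bot_le
    simp [this]
  set c₀ := M₀⁻¹ with hc₀
  set c₁ := M₁⁻¹ with hc₁
  have hc₀0 : c₀ ≠ 0 := ENNReal.inv_ne_zero.2 hfb
  have hc₁0 : c₁ ≠ 0 := ENNReal.inv_ne_zero.2 hgb
  have hc₀t : c₀ ≠ ∞ := ENNReal.inv_ne_top.2 h0
  have hc₁t : c₁ ≠ ∞ := ENNReal.inv_ne_top.2 h1
  set c : ℝ≥0∞ := c₀ * c₁ with hc
  have hc0 : c ≠ 0 := mul_ne_zero hc₀0 hc₁0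
  have hct : c ≠ ∞ := ENNReal.mul_ne_top hc₀t hc₁t
  set e : ℝ≥0∞ := ((NNReal.sqrt c.toNNReal : ℝ≥0) : ℝ≥0∞) with he
  have he2 : e ^ 2 = c := by
    rw [he, ← ENNReal.coe_pow, NNReal.sq_sqrt, ENNReal.coe_toNNReal hct]
  have hfsup : ∀ t : ℝ≥0∞, t < 1 → ∃ x, t < c₀ * f x := by
    intro t ht
    have hlt : t * M₀ < M₀ := by
      calc t * M₀ < 1 * M₀ := (ENNReal.mul_lt_mul_iff_left h0 hfb).2 ht
        _ = M₀ := one_mul _
    obtain ⟨x, hx⟩ := lt_iSup_iff.1 hlt
    refine ⟨x, ?_⟩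
    rw [hc₀, mul_comm, ← div_eq_mul_inv]
    exact (ENNReal.lt_div_iff_mul_lt (Or.inl h0) (Or.inl hfb)).2 hx
  have hgsup : ∀ t : ℝ≥0∞, t < 1 → ∃ x, t < c₁ * g x := by
    intro t ht
    have hlt : t * M₁ < M₁ := by
      calc t * M₁ < 1 * M₁ := (ENNReal.mul_lt_mul_iff_left h1 hgb).2 ht
        _ = M₁ := one_mul _
    obtain ⟨x, hx⟩ := lt_iSup_iff.1 hlt
    refine ⟨x, ?_⟩
    rw [hc₁, mul_comm, ← div_eq_mul_inv]
    exact (ENNReal.lt_div_iff_mul_lt (Or.inl h1) (Or.inl hgb)).2 hx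
  have hf1 : ∀ x, c₀ * f x ≤ 1 := fun x => by
    calc c₀ * f x ≤ c₀ * M₀ := mul_le_mul' le_rfl (le_iSup f x)
      _ = 1 := ENNReal.inv_mul_cancel h0 hfb
  have hg1 : ∀ x, c₁ * g x ≤ 1 := fun x => by
    calc c₁ * g x ≤ c₁ * M₁ := mul_le_mul' le_rfl (le_iSup g x)
      _ = 1 := ENNReal.inv_mul_cancel h1 hgb
  have Hn : ∀ x y, (c₀ * f x) * (c₁ * g y) ≤ (e * h ((x + y) / 2)) ^ 2 := by
    intro x y
    rw [mul_pow, he2, hc]
    calc c₀ * f x * (c₁ * g y) = c₀ * c₁ * (f x * g y) := by ring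
      _ ≤ c₀ * c₁ * h ((x + y) / 2) ^ 2 := mul_le_mul' le_rfl (H x y)
  have key := pl_normalized (fun x => c₀ * f x) (fun x => c₁ * g x) (fun x => e * h x)
    (hf.const_mul _) (hg.const_mul _) (hh.const_mul _) hf1 hg1 hfsup hgsup Hn
  rw [lintegral_const_mul _ hf, lintegral_const_mul _ hg, lintegral_const_mul _ hh] at key
  have hm := (mul_le_half_add_sq (c₀ * ∫⁻ x, f x) (c₁ * ∫⁻ x, g x)).trans
    (pow_le_pow_left' key 2)
  rw [mul_pow, he2, hc] at hm
  have hm' : c₀ * c₁ * ((∫⁻ x, f x) * (∫⁻ x, g x)) ≤ c₀ * c₁ * (∫⁻ x, h x) ^ 2 := by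
    calc c₀ * c₁ * ((∫⁻ x, f x) * (∫⁻ x, g x))
        = c₀ * (∫⁻ x, f x) * (c₁ * ∫⁻ x, g x) := by ring
      _ ≤ _ := hm
  calc (∫⁻ x, f x) * (∫⁻ x, g x)
      = c⁻¹ * (c * ((∫⁻ x, f x) * (∫⁻ x, g x))) := by
        rw [← mul_assoc, ENNReal.inv_mul_cancel hc0 hct, one_mul]
    _ ≤ c⁻¹ * (c * (∫⁻ x, h x) ^ 2) := mul_le_mul' le_rfl hm'
    _ = (∫⁻ x, h x) ^ 2 := by
        rw [← mul_assoc, ENNReal.inv_mul_cancel hc0 hct, one_mul]

/-- Monotone truncation. -/
lemma lintegral_eq_iSup_min {α : Type*} [MeasurableSpace α] (μ : Measure α) (f : α → ℝ≥0∞)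
    (hf : Measurable f) : ∫⁻ x, f x ∂μ = ⨆ n : ℕ, ∫⁻ x, min (f x) (n : ℝ≥0∞) ∂μ := by
  rw [← lintegral_iSup]
  · refine lintegral_congr (fun x => ?_)
    have : ⨆ n : ℕ, min (f x) (n : ℝ≥0∞) = min (f x) (⨆ n : ℕ, (n : ℝ≥0∞)) := by
      exact (inf_iSup_eq _ _).symm
    rw [this, ENNReal.iSup_natCast]
    simp
  · exact fun n => hf.min measurable_const
  · intro a b hab x
    exact min_le_min le_rfl (by exact_mod_cast hab)

/-- One-dimensional Prékopa–Leindler. -/
theorem pl_one (f g h : ℝ → ℝ≥0∞) (hf : Measurable f) (hg : Measurable g) (hh : Measurable h)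
    (H : ∀ x y, f x * g y ≤ h ((x + y) / 2) ^ 2) :
    (∫⁻ x, f x) * (∫⁻ x, g x) ≤ (∫⁻ x, h x) ^ 2 := by
  rw [lintegral_eq_iSup_min volume f hf, lintegral_eq_iSup_min volume g hg]
  rw [ENNReal.iSup_mul]
  refine iSup_le fun n => ?_
  rw [ENNReal.mul_iSup]
  refine iSup_le fun m => ?_
  refine pl_bounded _ _ h (hf.min measurable_const) (hg.min measurable_const) hh ?_ ?_ ?_
  · exact ne_top_of_le_ne_top (ENNReal.natCast_ne_top n) (iSup_le fun x => min_le_right _ _)
  · exact ne_top_of_le_ne_top (ENNReal.natCast_ne_top m) (iSup_le fun x => min_le_right _ _)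
  · intro x y
    exact (mul_le_mul' (min_le_left _ _) (min_le_left _ _)).trans (H x y)

/-- Prékopa–Leindler on `Fin n → ℝ`. -/
theorem pl_pi : ∀ (n : ℕ) (f g h : (Fin n → ℝ) → ℝ≥0∞), Measurable f → Measurable g → Measurable h →
    (∀ x y, f x * g y ≤ h (fun i => (x i + y i) / 2) ^ 2) →
    (∫⁻ x, f x) * (∫⁻ x, g x) ≤ (∫⁻ x, h x) ^ 2 := by
  intro n
  induction n with
  | zero =>
    intro f g h hf hg hh H
    have hi : ∀ (u : (Fin 0 → ℝ) → ℝ≥0∞), Measurable u → ∫⁻ x, u x = u default := by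
      intro u hu
      rw [volume_pi, Measure.pi_of_empty (x := default), lintegral_dirac' _ hu]
    rw [hi f hf, hi g hg, hi h hh]
    have := H default default
    have hd : (fun i => ((default : Fin 0 → ℝ) i + (default : Fin 0 → ℝ) i) / 2)
        = (default : Fin 0 → ℝ) := Subsingleton.elim _ _
    rwa [hd] at this
  | succ n ih =>
    intro f g h hf hg hh H
    set e := MeasurableEquiv.piFinSuccAbove (fun _ : Fin (n + 1) => ℝ) 0 with he
    have mp := volume_preserving_piFinSuccAbove (fun _ : Fin (n + 1) => ℝ) 0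
    have mps := mp.symm
    have hI : ∀ (u : (Fin (n + 1) → ℝ) → ℝ≥0∞), Measurable u →
        ∫⁻ z, u z = ∫⁻ t : ℝ, ∫⁻ x : Fin n → ℝ, u (e.symm (t, x)) := by
      intro u hu
      have h1 := mps.lintegral_comp hu
      rw [← h1]
      have h2 := lintegral_prod (μ := (volume : Measure ℝ)) (ν := (volume : Measure (Fin n → ℝ)))
        (fun p : ℝ × (Fin n → ℝ) => u (e.symm p)) (hu.comp e.symm.measurable).aemeasurable
      rw [← h2, Measure.volume_eq_prod]
    have hmeas : ∀ (u : (Fin (n + 1) → ℝ) → ℝ≥0∞), Measurable u →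
        Measurable (fun t : ℝ => ∫⁻ x : Fin n → ℝ, u (e.symm (t, x))) := by
      intro u hu
      exact (hu.comp e.symm.measurable).lintegral_prod_right'
    rw [hI f hf, hI g hg, hI h hh]
    refine pl_one _ _ _ (hmeas f hf) (hmeas g hg) (hmeas h hh) ?_
    intro t₁ t₂
    refine ih _ _ _ (hf.comp (e.symm.measurable.comp measurable_prodMk_left))
      (hg.comp (e.symm.measurable.comp measurable_prodMk_left))
      (hh.comp (e.symm.measurable.comp measurable_prodMk_left)) ?_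
    intro x y
    have hmid : (fun i => (e.symm (t₁, x) i + e.symm (t₂, y) i) / 2)
        = e.symm ((t₁ + t₂) / 2, fun i => (x i + y i) / 2) := by
      funext i
      refine Fin.cases ?_ (fun j => ?_) i
      · simp [he, MeasurableEquiv.piFinSuccAbove_symm_apply, Fin.insertNthEquiv]
      · simp [he, MeasurableEquiv.piFinSuccAbove_symm_apply, Fin.insertNthEquiv]
    have := H (e.symm (t₁, x)) (e.symm (t₂, y))
    rwa [hmid] at this

/-- Midpoint Prékopa–Leindler on Euclidean space. -/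
theorem pl_mid {d : ℕ} (f g h : Eu d → ℝ≥0∞) (hf : Measurable f) (hg : Measurable g)
    (hh : Measurable h) (H : ∀ x y, f x * g y ≤ h (midpoint ℝ x y) ^ 2) :
    (∫⁻ x, f x) * (∫⁻ x, g x) ≤ (∫⁻ x, h x) ^ 2 := by
  have mp := PiLp.volume_preserving_toLp (Fin d)
  have hI : ∀ (u : Eu d → ℝ≥0∞), Measurable u →
      ∫⁻ x, u x = ∫⁻ v : Fin d → ℝ, u (WithLp.toLp 2 v) := by
    intro u hu
    exact (mp.lintegral_comp hu).symm
  have hm := mp.measurable
  rw [hI f hf, hI g hg, hI h hh]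
  refine pl_pi d _ _ _ (hf.comp hm) (hg.comp hm) (hh.comp hm) ?_
  intro x y
  have hmid : midpoint ℝ (WithLp.toLp 2 x : Eu d) (WithLp.toLp 2 y)
      = WithLp.toLp 2 (fun i => (x i + y i) / 2) := by
    ext i
    simp [midpoint_eq_smul_add]
    ring
  have := H (WithLp.toLp 2 x) (WithLp.toLp 2 y)
  rwa [hmid] at this

end Crest.Agent.OT
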