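import Crest.Agent.Lib.OT.Core
import Crest.Agent.Lib.OT.Heights

/-!
# The variance bound for finitely many atoms, by a perturbation along a straight path of atoms
-/

set_option autoImplicit false
open MeasureTheory Filter Topology
open scoped ENNReal NNReal RealInnerProductSpace

namespace Crest.Agent.OT

/-! ### Abstract telescoping -/

lemma exists_grid {G : Set ℝ} (hG : Gᶜ.Finite) (h0 : (0 : ℝ) ∈ G) (h1 : (1 : ℝ) ∈ G) (N : ℕ)
    (hN : 0 < N) : ∃ t : ℕ → ℝ, t 0 = 0 ∧ t N = 1 ∧ (∀ i ≤ N, t i ∈ G) ∧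
      (∀ i < N, t i < t (i + 1)) ∧ ∀ i < N, t (i + 1) - t i ≤ 2 / N := by
  classical
  have hNpos : (0 : ℝ) < N := by exact_mod_cast hN
  have hpick : ∀ i : ℕ, ∃ x ∈ G, (i : ℝ) / N < x ∧ x < ((i : ℝ) + 1) / N := by
    intro i
    have hlt : (i : ℝ) / N < ((i : ℝ) + 1) / N := by
      apply div_lt_div_of_pos_right _ hNpos
      linarith
    have hinf : (Set.Ioo ((i : ℝ) / N) (((i : ℝ) + 1) / N)).Infinite := Set.Ioo_infinite hlt
    obtain ⟨x, hx, hxG⟩ := (hinf.sdiff hG).nonempty
    refine ⟨x, ?_, hx.1, hx.2⟩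
    simpa using hxG
  choose pt hptG hpt1 hpt2 using hpick
  refine ⟨fun i => if i = 0 then 0 else if i = N then 1 else pt i, by simp, ?_, ?_, ?_, ?_⟩
  · simp [hN.ne']
  · intro i hi
    dsimp only
    split_ifs
    · exact h0
    · exact h1
    · exact hptG i
  · intro i hi
    dsimp only
    have hi1 : i + 1 ≠ 0 := Nat.succ_ne_zero i
    have hcast : ((i : ℝ) + 1) / N ≤ 1 := by
      rw [div_le_one hNpos]
      have : ((i + 1 : ℕ) : ℝ) ≤ N := by exact_mod_cast hi
      push_cast at this
      linarith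
    simp only [hi1, if_false]
    have hne : i ≠ N := hi.ne
    by_cases h0' : i = 0
    · subst h0'
      simp only [if_true]
      split_ifs
      · norm_num
      · have := hpt1 (0 + 1)
        have h2 : (0 : ℝ) < ((0 + 1 : ℕ) : ℝ) / N := by
          apply div_pos _ hNpos
          norm_num
        linarith
    · simp only [h0', hne, if_false]
      split_ifs with h3
      · exact (hpt2 i).trans_le hcast
      · have h4 := hpt2 i
        have h5 := hpt1 (i + 1)
        push_cast at h5
        linarith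
  · intro i hi
    dsimp only
    have hi1 : i + 1 ≠ 0 := Nat.succ_ne_zero i
    have hne : i ≠ N := hi.ne
    simp only [hi1, if_false]
    have h2N : 0 < (2 : ℝ) / N := by positivity
    by_cases h0' : i = 0
    · subst h0'
      simp only [if_true]
      split_ifs with h3
      · subst h3
        norm_num
      · have := hpt2 (0 + 1)
        push_cast at this
        have e : ((1 : ℝ) + 1) / N = 2 / N := by norm_num
        rw [e] at this
        linarith
    · simp only [h0', hne, if_false]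
      split_ifs with h3
      · have h4 := hpt1 i
        have h5 : (1 : ℝ) = ((i : ℝ) + 1) / N := by
          rw [eq_div_iff hNpos.ne']
          have : ((i + 1 : ℕ) : ℝ) = N := by exact_mod_cast h3
          push_cast at this
          linarith
        have h6 : ((i : ℝ) + 1) / N - (i : ℝ) / N = 1 / N := by
          field_simp
          ring
        have h7 : (1 : ℝ) / N ≤ 2 / N := by
          apply div_le_div_of_nonneg_right _ hNpos.le
          norm_num
        linarith
      · have h4 := hpt2 (i + 1)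
        have h5 := hpt1 i
        push_cast at h4
        have h6 : ((i : ℝ) + 1 + 1) / N - (i : ℝ) / N = 2 / N := by
          field_simp
          ring
        linarith

/-- Telescoping for two convex-type functions on a cofinite set. -/
lemma telescope {G : Set ℝ} (hG : Gᶜ.Finite) (h0 : (0 : ℝ) ∈ G) (h1 : (1 : ℝ) ∈ G)
    (a b p q : ℝ → ℝ) (C : ℝ)
    (ha : ∀ s ∈ G, ∀ s' ∈ G, a s' + (s - s') * p s' ≤ a s)
    (hb : ∀ s ∈ G, ∀ s' ∈ G, b s' + (s - s') * q s' ≤ b s)
    (hpq : ∀ s ∈ G, -C ≤ p s - q s) :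
    -C ≤ (a 1 - a 0) - (b 1 - b 0) := by
  -- monotonicity of `q`
  have hqmono : ∀ s ∈ G, ∀ s' ∈ G, s' < s → q s' ≤ q s := by
    intro s hs s' hs' hlt
    have h2 := hb s hs s' hs'
    have h3 := hb s' hs' s hs
    have h4 : (s - s') * (q s' - q s) ≤ 0 := by nlinarith
    have h5 : 0 < s - s' := by linarith
    by_contra hcon
    push Not at hcon
    have : 0 < (s - s') * (q s' - q s) := mul_pos h5 (by linarith)
    linarith
  have hq01 : q 0 ≤ q 1 := hqmono 1 h1 0 h0 (by norm_num)
  -- for every grid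
  have hgrid : ∀ N : ℕ, 0 < N → -C - (2 / N) * (q 1 - q 0) ≤ (a 1 - a 0) - (b 1 - b 0) := by
    intro N hN
    obtain ⟨t, ht0, htN, htG, htlt, htδ⟩ := exists_grid hG h0 h1 N hN
    have hstep : ∀ i ∈ Finset.range N,
        -C * (t (i + 1) - t i) - (2 / N) * (q (t (i + 1)) - q (t i)) ≤
        ((a (t (i + 1)) - b (t (i + 1))) - (a (t i) - b (t i))) := by
      intro i hi
      have hi' := Finset.mem_range.mp hi
      have hGi := htG i hi'.le
      have hGi1 := htG (i + 1) hi'
      have hlt := htlt i hi'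
      have h2 := ha _ hGi1 _ hGi
      have h3 := hb _ hGi _ hGi1
      have h4 := hpq _ hGi
      have h5 := hqmono _ hGi1 _ hGi hlt
      have h6 := htδ i hi'
      have hΔ : 0 < t (i + 1) - t i := by linarith
      have h7 : (t (i + 1) - t i) * (q (t (i + 1)) - q (t i)) ≤
          (2 / N) * (q (t (i + 1)) - q (t i)) :=
        mul_le_mul_of_nonneg_right h6 (by linarith)
      have h8 : (t (i + 1) - t i) * (-C) ≤ (t (i + 1) - t i) * (p (t i) - q (t i)) :=
        mul_le_mul_of_nonneg_left h4 hΔ.le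
      nlinarith
    have hsum := Finset.sum_le_sum hstep
    rw [Finset.sum_sub_distrib, ← Finset.mul_sum, ← Finset.mul_sum,
      Finset.sum_range_sub (fun i => t i), Finset.sum_range_sub (fun i => q (t i)),
      Finset.sum_range_sub (fun i => a (t i) - b (t i)), ht0, htN] at hsum
    linarith
  have hlim : Tendsto (fun n : ℕ => -C - (2 / ((n + 1 : ℕ) : ℝ)) * (q 1 - q 0)) atTop
      (𝓝 (-C - 0 * (q 1 - q 0))) := by
    refine tendsto_const_nhds.sub (Tendsto.mul_const _ ?_)
    have h2 : Tendsto (fun n : ℕ => 2 * (1 / ((n : ℝ) + 1))) atTop (𝓝 (2 * 0)) :=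
      tendsto_const_nhds.mul tendsto_one_div_add_atTop_nhds_zero_nat
    rw [mul_zero] at h2
    refine h2.congr (fun n => ?_)
    push_cast
    ring
  have := le_of_tendsto' hlim (fun n => hgrid (n + 1) (Nat.succ_pos n))
  simpa using this

/-! ### Correlation functionals -/

section corr

variable {d : ℕ} {I : Type} [Fintype I] {K : Set (Eu d)}

/-- Correlation of the cells of `(w, c)` with the atoms `w'`, with weight `r`. -/
noncomputable def corr (K : Set (Eu d)) (w : I → Eu d) (c : I → ℝ) (r : Eu d → ℝ)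
    (w' : I → Eu d) : ℝ :=
  ∑ l, ∫ x in cell K w c l, ⟪x, w' l⟫ * r x

lemma corr_add (hKc : IsCompact K) (w : I → Eu d) (c : I → ℝ) {r : Eu d → ℝ} (hr : Continuous r)
    (w' e : I → Eu d) (t : ℝ) :
    corr K w c r (fun l => w' l + t • e l) = corr K w c r w' + t * corr K w c r e := by
  unfold corr
  rw [Finset.mul_sum, ← Finset.sum_add_distrib]
  refine Finset.sum_congr rfl (fun l _ => ?_)
  have h1 : ∀ x : Eu d, ⟪x, w' l + t • e l⟫ * r x = ⟪x, w' l⟫ * r x + t * (⟪x, e l⟫ * r x) := by
    intro x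
    rw [inner_add_right, inner_smul_right]
    ring
  simp_rw [h1]
  rw [integral_add, integral_const_mul]
  · exact integrableOn_cell hKc ((continuous_id.inner continuous_const).mul hr) w c l
  · exact (integrableOn_cell hKc ((continuous_id.inner continuous_const).mul hr) w c l).const_mul t

variable [Nonempty I]

/-- The correlation of any competitor partition is below the dual functional. -/
lemma corr_le_Val (hKc : IsCompact K) {w : I → Eu d} (hw : Function.Injective w)
    {r : Eu d → ℝ} (hr : Continuous r) (hr0 : ∀ x ∈ K, 0 ≤ r x) {M : I → ℝ} {c' : I → ℝ}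
    (hc' : IsHeight K w r M c') (w' : I → Eu d) (c : I → ℝ) :
    corr K w c' r w' ≤ Val K w' r M c := by
  unfold Val corr
  rw [← sum_integral_cell hKc hw c' (integrableOn_pot_mul hKc w' c hr), ← Finset.sum_add_distrib]
  refine Finset.sum_le_sum (fun l _ => ?_)
  have h1 : M l * c l = ∫ x in cell K w c' l, c l * r x := by
    rw [integral_const_mul, hc' l, mul_comm]
  rw [h1, ← integral_add]
  · refine setIntegral_mono_on
      (integrableOn_cell hKc ((continuous_id.inner continuous_const).mul hr) w c' l)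
      (Integrable.add
        (integrableOn_cell hKc ((continuous_pot w' c).mul hr) w c' l)
        (integrableOn_cell hKc (continuous_const.mul hr) w c' l))
      (measurableSet_cell hKc.measurableSet w c' l) (fun x hx => ?_)
    have h2 := le_pot w' c x l
    have h3 := hr0 x hx.1
    nlinarith
  · exact integrableOn_cell hKc ((continuous_pot w' c).mul hr) w c' l
  · exact integrableOn_cell hKc (continuous_const.mul hr) w c' l

/-- At heights, the dual functional equals the correlation. -/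
lemma Val_eq_corr (hKc : IsCompact K) {w : I → Eu d} (hw : Function.Injective w)
    {r : Eu d → ℝ} (hr : Continuous r) {M : I → ℝ} {c : I → ℝ}
    (hc : IsHeight K w r M c) : Val K w r M c = corr K w c r w := by
  unfold Val corr
  rw [← sum_integral_cell hKc hw c (integrableOn_pot_mul hKc w c hr), ← Finset.sum_add_distrib]
  refine Finset.sum_congr rfl (fun l _ => ?_)
  have h1 : M l * c l = ∫ x in cell K w c l, c l * r x := by
    rw [integral_const_mul, hc l, mul_comm]
  rw [h1, ← integral_add]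
  · refine setIntegral_congr_fun (measurableSet_cell hKc.measurableSet w c l) (fun x hx => ?_)
    rw [pot_eq_of_mem_cell hx]
    ring
  · exact integrableOn_cell hKc ((continuous_pot w c).mul hr) w c l
  · exact integrableOn_cell hKc (continuous_const.mul hr) w c l

/-- Cauchy–Schwarz for a set integral. -/
lemma sq_setIntegral_le {s : Set (Eu d)} (hs : MeasurableSet s) (hfin : volume s < ⊤) {f : Eu d → ℝ}
    (hf : IntegrableOn f s volume) (hf2 : IntegrableOn (fun x => f x ^ 2) s volume) :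
    (∫ x in s, f x) ^ 2 ≤ volume.real s * ∫ x in s, f x ^ 2 := by
  have hconst : ∀ t : ℝ, IntegrableOn (fun _ : Eu d => t) s volume :=
    fun t => integrableOn_const hfin.ne
  have key : ∀ t : ℝ, 0 ≤ (∫ x in s, f x ^ 2) - 2 * t * (∫ x in s, f x) + t ^ 2 * volume.real s := by
    intro t
    have h1 : 0 ≤ ∫ x in s, (f x - t) ^ 2 := integral_nonneg (fun x => sq_nonneg _)
    have h2 : ∀ x, (f x - t) ^ 2 = f x ^ 2 - (2 * t) * f x + t ^ 2 := fun x => by ring
    simp_rw [h2] at h1
    have i1 : IntegrableOn (fun x => f x ^ 2 - (2 * t) * f x) s volume :=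
      hf2.sub (hf.const_mul _)
    have i2 : IntegrableOn (fun x => (2 * t) * f x) s volume := hf.const_mul _
    have h3 : ∫ x in s, (f x ^ 2 - (2 * t) * f x + t ^ 2) =
        (∫ x in s, f x ^ 2) - 2 * t * (∫ x in s, f x) + t ^ 2 * volume.real s := by
      rw [integral_add i1 (hconst _), integral_sub hf2 i2, integral_const_mul, setIntegral_const]
      simp [smul_eq_mul, mul_comm]
    rw [h3] at h1
    exact h1
  have hv0 : 0 ≤ volume.real s := measureReal_nonneg
  rcases hv0.eq_or_lt with hv | hv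
  · have hnull : volume s = 0 := by
      rw [Measure.real, eq_comm, ENNReal.toReal_eq_zero_iff] at hv
      rcases hv with hv | hv
      · exact hv
      · exact absurd hv hfin.ne
    have : volume.restrict s = 0 := Measure.restrict_eq_zero.mpr hnull
    simp [this]
  · have h := key ((∫ x in s, f x) / volume.real s)
    have hne := hv.ne'
    have e : (∫ x in s, f x ^ 2) - 2 * ((∫ x in s, f x) / volume.real s) * (∫ x in s, f x)
        + ((∫ x in s, f x) / volume.real s) ^ 2 * volume.real s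
        = (∫ x in s, f x ^ 2) - (∫ x in s, f x) ^ 2 / volume.real s := by
      field_simp
      ring
    rw [e, sub_nonneg, div_le_iff₀ hv] at h
    linarith

lemma integral_inner_cell (hKc : IsCompact K) (w : I → Eu d) (c : I → ℝ) (l : I) (e : Eu d) :
    ∫ x in cell K w c l, ⟪x, e⟫ = ⟪mom1 K w c l, e⟫ := by
  unfold mom1
  have hi : Integrable (fun x : Eu d => x) (volume.restrict (cell K w c l)) :=
    integrableOn_cell hKc continuous_id w c l
  have := integral_inner (𝕜 := ℝ) hi e
  rw [real_inner_comm, ← this]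
  exact integral_congr_ae (Eventually.of_forall fun x => real_inner_comm _ _)

lemma young_inner (a : ℝ) (u v : Eu d) {t : ℝ} (ha : 0 ≤ a) (ht : 0 < t) :
    -(a * ‖u‖ ^ 2 / (2 * t) + t / 2 * (a * ‖v‖ ^ 2)) ≤ a * ⟪u, v⟫ := by
  have h1 : -(‖u‖ * ‖v‖) ≤ ⟪u, v⟫ := (abs_le.mp (abs_real_inner_le_norm u v)).1
  have h2 : ‖u‖ * ‖v‖ ≤ ‖u‖ ^ 2 / (2 * t) + t / 2 * ‖v‖ ^ 2 := by
    have h3 : 0 ≤ (‖u‖ - t * ‖v‖) ^ 2 / (2 * t) := by positivity
    have h4 : (‖u‖ - t * ‖v‖) ^ 2 / (2 * t) = ‖u‖ ^ 2 / (2 * t) + t / 2 * ‖v‖ ^ 2 - ‖u‖ * ‖v‖ := by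
      field_simp
      ring
    linarith
  have h5 : -(‖u‖ ^ 2 / (2 * t) + t / 2 * ‖v‖ ^ 2) ≤ ⟪u, v⟫ := by linarith
  have h6 := mul_le_mul_of_nonneg_left h5 ha
  have h7 : a * -(‖u‖ ^ 2 / (2 * t) + t / 2 * ‖v‖ ^ 2) = -(a * ‖u‖ ^ 2 / (2 * t) + t / 2 * (a * ‖v‖ ^ 2)) := by
    ring
  rwa [h7] at h6

set_option maxHeartbeats 2000000 in
/-- Comparison of the directional derivatives of the perturbed and unperturbed values. -/
theorem corr_estimate (hKc : IsCompact K) (hKv : Convex ℝ K) {w : I → Eu d}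
    (hw : Function.Injective w) {R : ℝ} (hR : 0 < R) (hKR : ∀ x ∈ K, ‖x‖ ≤ R) {M : I → ℝ}
    (hM : ∀ l, 0 < M l) {u : Eu d → ℝ} (hu : Continuous u) {ε : ℝ} (hε : 0 < ε)
    (hεu : ∀ x ∈ K, |ε * u x| ≤ 1 / 8) {c c' : I → ℝ} (hc : IsHeight K w (fun _ => 1) M c)
    (hc' : IsHeight K w (fun x => 1 + ε * u x) M c') (e : I → Eu d) :
    -(ε * ((1 / 2) * (∫ x in K, u x ^ 2) + 26005 * R ^ 2 * ∑ l, M l * ‖e l‖ ^ 2)) ≤
      corr K w c' (fun x => 1 + ε * u x) e - corr K w c (fun _ => 1) e := by
  have hKm := hKc.measurableSet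
  have hmass : ∀ l, mass K w c l = M l := fun l => by rw [mass_eq_integral]; exact hc l
  have hcell_fin : ∀ c₀ l, volume (cell K w c₀ l) < ⊤ := fun c₀ l =>
    (measure_mono (cell_subset K w c₀ l)).trans_lt hKc.measure_lt_top
  obtain ⟨m', hm'⟩ : ∃ m' : I → ℝ, m' = fun l => mass K w c' l := ⟨_, rfl⟩
  obtain ⟨U, hU⟩ : ∃ U : I → ℝ, U = fun l => ∫ x in cell K w c' l, u x := ⟨_, rfl⟩
  have hm'U : ∀ l, m' l + ε * U l = M l := by
    intro l
    have h1 := hc' l
    rw [integral_add (integrableOn_cell hKc continuous_const w c' l)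
      ((integrableOn_cell hKc hu w c' l).const_mul ε), integral_const_mul,
      ← mass_eq_integral] at h1
    rw [hm', hU]
    exact h1
  have hεU : ∀ l, |ε * U l| ≤ m' l / 8 := by
    intro l
    have h1 : ε * U l = ∫ x in cell K w c' l, ε * u x := by
      rw [hU, integral_const_mul]
    have h2 := norm_setIntegral_le_of_norm_le_const (μ := volume) (s := cell K w c' l)
      (f := fun x => ε * u x) (C := 1 / 8) (hcell_fin c' l)
      (fun x hx => by rw [Real.norm_eq_abs]; exact hεu x hx.1)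
    rw [h1, hm']
    rw [Real.norm_eq_abs] at h2
    refine h2.trans (le_of_eq ?_)
    simp only [mass]
    ring
  have hm'le : ∀ l, m' l ≤ (8 / 7) * M l := by
    intro l
    have h1 := (abs_le.mp (hεU l)).1
    have h2 := hm'U l
    linarith
  have hm'pos : ∀ l, 0 < m' l := by
    intro l
    have h1 := (abs_le.mp (hεU l)).2
    have h2 := hm'U l
    have h3 := hM l
    linarith
  have hmA : ∀ l, 0 < mass K w c l := fun l => by rw [hmass]; exact hM l
  have hmB : ∀ l, 0 < mass K w c' l := fun l => by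
    have := hm'pos l
    rwa [hm'] at this
  have hmm : ∀ l, |mass K w c' l - mass K w c l| ≤ mass K w c l / 5 := by
    intro l
    rw [hmass]
    have h1 := hεU l
    have h2 := hm'U l
    have h3 := hm'le l
    have h4 := hM l
    have h5 : mass K w c' l - M l = -(ε * U l) := by
      have : m' l = mass K w c' l := by rw [hm']
      linarith
    rw [h5, abs_neg]
    linarith
  have hbary := bary_stability hKc hKv hw hR hKR c c' hmA hmm
  simp only [hmass] at hbary
  -- Cauchy–Schwarz on the mass defects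
  obtain ⟨J, hJ⟩ : ∃ J : I → ℝ, J = fun l => ∫ x in cell K w c' l, u x ^ 2 := ⟨_, rfl⟩
  have hJ0 : ∀ l, 0 ≤ J l := fun l => by
    rw [hJ]; exact integral_nonneg (fun x => sq_nonneg _)
  have hu2 : Continuous fun x => u x ^ 2 := by fun_prop
  have hCS : ∀ l, (mass K w c' l - M l) ^ 2 / M l ≤ (8 / 7) * ε ^ 2 * J l := by
    intro l
    have h1 := sq_setIntegral_le (measurableSet_cell hKm w c' l) (hcell_fin c' l)
      (integrableOn_cell hKc hu w c' l) (integrableOn_cell hKc hu2 w c' l)
    have h2 : (mass K w c' l - M l) ^ 2 = ε ^ 2 * (U l) ^ 2 := by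
      have : m' l = mass K w c' l := by rw [hm']
      have h3 := hm'U l
      have h4 : mass K w c' l - M l = -(ε * U l) := by linarith
      rw [h4]; ring
    have h3 : (U l) ^ 2 ≤ m' l * J l := by
      rw [hU, hJ, hm']
      exact h1
    rw [h2, div_le_iff₀ (hM l)]
    have h4 : m' l * J l ≤ (8 / 7) * M l * J l := mul_le_mul_of_nonneg_right (hm'le l) (hJ0 l)
    have h5 : ε ^ 2 * (U l) ^ 2 ≤ ε ^ 2 * ((8 / 7) * M l * J l) :=
      mul_le_mul_of_nonneg_left (h3.trans h4) (sq_nonneg ε)
    calc ε ^ 2 * (U l) ^ 2 ≤ ε ^ 2 * ((8 / 7) * M l * J l) := h5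
      _ = _ := by ring
  have hsumJ : ∑ l, J l = ∫ x in K, u x ^ 2 := by
    rw [hJ]
    exact sum_integral_cell hKc hw c' (hu2.continuousOn.integrableOn_compact hKc)
  obtain ⟨E, hE⟩ : ∃ E, E = ∫ x in K, u x ^ 2 := ⟨_, rfl⟩
  rw [← hE]
  rw [← hE] at hsumJ
  obtain ⟨η2, hη2⟩ : ∃ η2, η2 = ∑ l, M l * ‖e l‖ ^ 2 := ⟨_, rfl⟩
  rw [← hη2]
  have hE0 : 0 ≤ E := by rw [← hsumJ]; exact Finset.sum_nonneg (fun l _ => hJ0 l)
  have hη0 : 0 ≤ η2 := by
    rw [hη2]; exact Finset.sum_nonneg (fun l _ => mul_nonneg (hM l).le (sq_nonneg _))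
  have hsum1 : ∑ l, M l * ‖bary K w c' l - bary K w c l‖ ^ 2 ≤
      22650 * R ^ 2 * ((8 / 7) * ε ^ 2 * E) := by
    refine hbary.trans (mul_le_mul_of_nonneg_left ?_ (by positivity))
    rw [← hsumJ, Finset.mul_sum]
    exact Finset.sum_le_sum (fun l _ => hCS l)
  -- per-cell identity
  have hid : ∀ l, (∫ x in cell K w c' l, ⟪x, e l⟫ * (1 + ε * u x))
      - (∫ x in cell K w c l, ⟪x, e l⟫ * 1) =
      M l * ⟪bary K w c' l - bary K w c l, e l⟫ +
        ε * ∫ x in cell K w c' l, ⟪x - bary K w c' l, e l⟫ * u x := by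
    intro l
    have hi1 : Continuous fun x : Eu d => ⟪x, e l⟫ := continuous_id.inner continuous_const
    have h1 : ∫ x in cell K w c' l, ⟪x, e l⟫ * (1 + ε * u x) =
        (∫ x in cell K w c' l, ⟪x, e l⟫) + ε * ∫ x in cell K w c' l, ⟪x, e l⟫ * u x := by
      have hint3 : IntegrableOn (fun x => ⟪x, e l⟫ * u x) (cell K w c' l) volume :=
        integrableOn_cell hKc (hi1.mul hu) w c' l
      have hint4 : IntegrableOn (fun x => ε * (⟪x, e l⟫ * u x)) (cell K w c' l) volume :=
        hint3.const_mul ε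
      rw [← integral_const_mul, ← integral_add (integrableOn_cell hKc hi1 w c' l) hint4]
      exact integral_congr_ae (Eventually.of_forall fun x => by ring)
    have h2 : ∫ x in cell K w c l, ⟪x, e l⟫ * 1 = ∫ x in cell K w c l, ⟪x, e l⟫ := by
      simp only [mul_one]
    have h3 : ∫ x in cell K w c' l, ⟪x - bary K w c' l, e l⟫ * u x =
        (∫ x in cell K w c' l, ⟪x, e l⟫ * u x) - ⟪bary K w c' l, e l⟫ * U l := by
      rw [hU]
      have hint3 : IntegrableOn (fun x => ⟪x, e l⟫ * u x) (cell K w c' l) volume :=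
        integrableOn_cell hKc (hi1.mul hu) w c' l
      have hint4 : IntegrableOn (fun x => ⟪bary K w c' l, e l⟫ * u x) (cell K w c' l) volume :=
        (integrableOn_cell hKc hu w c' l).const_mul _
      simp only
      rw [← integral_const_mul, ← integral_sub hint3 hint4]
      exact integral_congr_ae (Eventually.of_forall fun x => by
        simp only [inner_sub_left]; ring)
    rw [h1, h2, h3, integral_inner_cell hKc, integral_inner_cell hKc, ← smul_bary (hmB l),
      ← smul_bary (hmA l), inner_smul_left, inner_smul_left, hmass, inner_sub_left]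
    simp only [conj_trivial]
    have h5 : mass K w c' l = M l - ε * U l := by
      have : m' l = mass K w c' l := by rw [hm']
      linarith [hm'U l]
    rw [h5]
    ring
  -- bound on the second term
  have hb2 : ∀ l, -((1 / 4) * J l + 4 * R ^ 2 * (‖e l‖ ^ 2 * m' l)) ≤
      ∫ x in cell K w c' l, ⟪x - bary K w c' l, e l⟫ * u x := by
    intro l
    have hi2 : Continuous fun x : Eu d => ⟪x - bary K w c' l, e l⟫ * u x :=
      ((continuous_id.sub continuous_const).inner continuous_const).mul hu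
    have h1 : ∫ x in cell K w c' l, (-((1 / 4) * u x ^ 2 + 4 * R ^ 2 * ‖e l‖ ^ 2)) =
        -((1 / 4) * J l + 4 * R ^ 2 * (‖e l‖ ^ 2 * m' l)) := by
      rw [integral_neg, integral_add ((integrableOn_cell hKc hu2 w c' l).const_mul _)
        (integrableOn_cell hKc continuous_const w c' l), integral_const_mul, setIntegral_const]
      rw [hJ, hm']
      simp only [mass, smul_eq_mul]
      ring
    rw [← h1]
    refine setIntegral_mono_on ((integrableOn_cell hKc
      (by fun_prop : Continuous fun x => (-((1 / 4) * u x ^ 2 + 4 * R ^ 2 * ‖e l‖ ^ 2))) w c' l))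
      (integrableOn_cell hKc hi2 w c' l) (measurableSet_cell hKm w c' l) (fun x hx => ?_)
    have hx1 := hKR x hx.1
    have hx2 := norm_bary_le hKc hKR (hmB l)
    have hx3 : ‖x - bary K w c' l‖ ≤ 2 * R := by
      refine (norm_sub_le _ _).trans ?_
      linarith
    have hx4 : |⟪x - bary K w c' l, e l⟫| ≤ 2 * R * ‖e l‖ :=
      (abs_real_inner_le_norm _ _).trans
        (mul_le_mul_of_nonneg_right hx3 (norm_nonneg _))
    have hx5 : |⟪x - bary K w c' l, e l⟫ * u x| ≤ 2 * R * ‖e l‖ * |u x| := by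
      rw [abs_mul]
      exact mul_le_mul_of_nonneg_right hx4 (abs_nonneg _)
    have hx6 : 2 * R * ‖e l‖ * |u x| ≤ (1 / 4) * u x ^ 2 + 4 * R ^ 2 * ‖e l‖ ^ 2 := by
      have : 0 ≤ ((1 / 2) * |u x| - 2 * R * ‖e l‖) ^ 2 := sq_nonneg _
      have h2 : |u x| ^ 2 = u x ^ 2 := sq_abs _
      nlinarith
    have hx7 := (abs_le.mp (hx5.trans hx6)).1
    exact hx7
  -- sum up
  have hΛ : 0 < ε * (52000 * R ^ 2) := by positivity
  have hper : ∀ l, -(M l * ‖bary K w c' l - bary K w c l‖ ^ 2 / (2 * (ε * (52000 * R ^ 2)))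
        + (ε * (52000 * R ^ 2)) / 2 * (M l * ‖e l‖ ^ 2))
        - ε * ((1 / 4) * J l + 4 * R ^ 2 * ((8 / 7) * (M l * ‖e l‖ ^ 2))) ≤
      (∫ x in cell K w c' l, ⟪x, e l⟫ * (1 + ε * u x))
        - (∫ x in cell K w c l, ⟪x, e l⟫ * 1) := by
    intro l
    rw [hid]
    have h1 := young_inner (M l) (bary K w c' l - bary K w c l) (e l) (hM l).le hΛ
    have h2 := mul_le_mul_of_nonneg_left (hb2 l) hε.le
    have h3 : ‖e l‖ ^ 2 * m' l ≤ (8 / 7) * (M l * ‖e l‖ ^ 2) := by
      have := mul_le_mul_of_nonneg_left (hm'le l) (sq_nonneg ‖e l‖)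
      linarith
    have h4 : ε * (4 * R ^ 2 * (‖e l‖ ^ 2 * m' l)) ≤ ε * (4 * R ^ 2 * ((8 / 7) * (M l * ‖e l‖ ^ 2))) :=
      mul_le_mul_of_nonneg_left (mul_le_mul_of_nonneg_left h3 (by positivity)) hε.le
    have h5 : ε * -((1 / 4) * J l + 4 * R ^ 2 * (‖e l‖ ^ 2 * m' l)) =
        -(ε * ((1 / 4) * J l)) - ε * (4 * R ^ 2 * (‖e l‖ ^ 2 * m' l)) := by ring
    have h6 : ε * ((1 / 4) * J l + 4 * R ^ 2 * ((8 / 7) * (M l * ‖e l‖ ^ 2))) =
        ε * ((1 / 4) * J l) + ε * (4 * R ^ 2 * ((8 / 7) * (M l * ‖e l‖ ^ 2))) := by ring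
    rw [h5] at h2
    rw [h6]
    linarith
  have hsum := Finset.sum_le_sum (fun l (_ : l ∈ Finset.univ) => hper l)
  rw [Finset.sum_sub_distrib (s := Finset.univ), Finset.sum_sub_distrib (s := Finset.univ)] at hsum
  unfold corr
  have e1 : ∑ l, ((ε * (52000 * R ^ 2)) / 2 * (M l * ‖e l‖ ^ 2)) = (ε * (52000 * R ^ 2)) / 2 * η2 := by
    rw [hη2, Finset.mul_sum]
  have e2 : ∑ l, ε * ((1 / 4) * J l + 4 * R ^ 2 * ((8 / 7) * (M l * ‖e l‖ ^ 2))) =
      ε * ((1 / 4) * E + 4 * R ^ 2 * ((8 / 7) * η2)) := by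
    rw [← hsumJ, hη2, ← Finset.mul_sum, Finset.sum_add_distrib, ← Finset.mul_sum, ← Finset.mul_sum,
      ← Finset.mul_sum]
  have e3 : ∑ l, -(M l * ‖bary K w c' l - bary K w c l‖ ^ 2 / (2 * (ε * (52000 * R ^ 2)))
        + (ε * (52000 * R ^ 2)) / 2 * (M l * ‖e l‖ ^ 2)) =
      -((∑ l, M l * ‖bary K w c' l - bary K w c l‖ ^ 2) / (2 * (ε * (52000 * R ^ 2)))
        + (ε * (52000 * R ^ 2)) / 2 * η2) := by
    rw [Finset.sum_neg_distrib, Finset.sum_add_distrib, e1, Finset.sum_div]
  rw [e2, e3] at hsum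
  have h7 : (∑ l, M l * ‖bary K w c' l - bary K w c l‖ ^ 2) / (2 * (ε * (52000 * R ^ 2))) ≤
      ε * ((1 / 4) * E) := by
    rw [div_le_iff₀ (by positivity)]
    refine hsum1.trans ?_
    have hh : 0 ≤ ε ^ 2 * R ^ 2 * E := by positivity
    have e4 : ε * ((1 / 4) * E) * (2 * (ε * (52000 * R ^ 2))) = 26000 * (ε ^ 2 * R ^ 2 * E) := by ring
    have e5 : 22650 * R ^ 2 * ((8 / 7) * ε ^ 2 * E) = (22650 * 8 / 7) * (ε ^ 2 * R ^ 2 * E) := by ring
    rw [e4, e5]
    exact mul_le_mul_of_nonneg_right (by norm_num) hh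
  have h8 : 0 ≤ ε * (R ^ 2 * η2) := by positivity
  nlinarith

end corr

/-! ### The straight path of atoms -/

section path

variable {d : ℕ} {I : Type} [Fintype I] {K : Set (Eu d)}

/-- The straight path of atoms. -/
def ys (y z : I → Eu d) (s : ℝ) : I → Eu d := fun l => y l + s • (z l - y l)

omit [Fintype I] in
@[simp] lemma ys_zero (y z : I → Eu d) : ys y z 0 = y := by
  funext l; simp [ys]

omit [Fintype I] in
@[simp] lemma ys_one (y z : I → Eu d) : ys y z 1 = z := by
  funext l; simp [ys]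

omit [Fintype I] in
lemma ys_eq_add (y z : I → Eu d) (s s' : ℝ) :
    ys y z s = fun l => ys y z s' l + (s - s') • (z l - y l) := by
  funext l
  simp only [ys, sub_smul]
  abel

lemma ys_cofinite [Finite I] {y : I → Eu d} (hy : Function.Injective y) (z : I → Eu d) :
    {s | Function.Injective (ys y z s)}ᶜ.Finite := by
  have hsub : {s | Function.Injective (ys y z s)}ᶜ ⊆
      ⋃ p : {p : I × I // p.1 ≠ p.2}, {s | ys y z s p.1.1 = ys y z s p.1.2} := by
    intro s hs
    simp only [Set.mem_compl_iff, Set.mem_ofPred_eq, Function.Injective, not_forall] at hs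
    obtain ⟨l, j, h, hne⟩ := hs
    exact Set.mem_iUnion.mpr ⟨⟨(l, j), hne⟩, h⟩
  refine (Set.finite_iUnion fun p => ?_).subset hsub
  refine Set.Subsingleton.finite ?_
  intro s hs s' hs'
  simp only [Set.mem_ofPred_eq, ys] at hs hs'
  by_contra hne
  have hd : s - s' ≠ 0 := sub_ne_zero.mpr hne
  have h1 : (s - s') • ((z p.1.1 - y p.1.1) - (z p.1.2 - y p.1.2)) = 0 := by
    have : (s - s') • ((z p.1.1 - y p.1.1) - (z p.1.2 - y p.1.2)) =
        ((y p.1.1 + s • (z p.1.1 - y p.1.1)) - (y p.1.2 + s • (z p.1.2 - y p.1.2))) -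
        ((y p.1.1 + s' • (z p.1.1 - y p.1.1)) - (y p.1.2 + s' • (z p.1.2 - y p.1.2))) := by
      simp only [smul_sub, sub_smul]
      abel
    rw [this, hs, hs']
    abel
  have h2 : (z p.1.1 - y p.1.1) - (z p.1.2 - y p.1.2) = 0 :=
    (smul_eq_zero.mp h1).resolve_left hd
  have h3 : z p.1.1 - y p.1.1 = z p.1.2 - y p.1.2 := sub_eq_zero.mp h2
  rw [h3] at hs
  exact p.2 (hy (add_right_cancel hs))

variable [Nonempty I]

lemma subgrad_corr (hKc : IsCompact K) {y z : I → Eu d} {r : Eu d → ℝ} (hr : Continuous r)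
    (hr0 : ∀ x ∈ K, 0 ≤ r x) {M : I → ℝ} {G : Set ℝ} (hG : ∀ s ∈ G, Function.Injective (ys y z s))
    {c : ℝ → I → ℝ} (hc : ∀ s ∈ G, IsHeight K (ys y z s) r M (c s)) :
    ∀ s ∈ G, ∀ s' ∈ G,
      corr K (ys y z s') (c s') r (ys y z s') +
        (s - s') * corr K (ys y z s') (c s') r (fun l => z l - y l) ≤
      corr K (ys y z s) (c s) r (ys y z s) := by
  intro s hs s' hs'
  rw [← corr_add hKc _ _ hr, ← ys_eq_add, ← Val_eq_corr hKc (hG s hs) hr (hc s hs)]
  exact corr_le_Val hKc (hG s' hs') hr hr0 (hc s' hs') _ _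

lemma Val_perturb (hKc : IsCompact K) (w : I → Eu d) {u : Eu d → ℝ} (hu : Continuous u) (ε : ℝ)
    (M c : I → ℝ) :
    Val K w (fun x => 1 + ε * u x) M c =
      Val K w (fun _ => 1) M c + ε * ∫ x in K, pot w c x * u x := by
  unfold Val
  have h1 : ∀ x, pot w c x * (1 + ε * u x) = pot w c x * 1 + ε * (pot w c x * u x) := fun x => by
    ring
  simp_rw [h1]
  have i1 : IntegrableOn (fun x => pot w c x * 1) K volume :=
    integrableOn_pot_mul hKc w c continuous_const
  have i2 : IntegrableOn (fun x => ε * (pot w c x * u x)) K volume :=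
    (integrableOn_pot_mul hKc w c hu).const_mul ε
  rw [integral_add i1 i2, integral_const_mul]
  ring

/-- The inequality at a fixed small perturbation size. -/
theorem eps_step (hKc : IsCompact K) (hKv : Convex ℝ K) {y z : I → Eu d}
    (hy : Function.Injective y) (hz : Function.Injective z) {R : ℝ} (hR : 0 < R)
    (hKR : ∀ x ∈ K, ‖x‖ ≤ R) {M : I → ℝ} (hM : ∀ l, 0 < M l) {u : Eu d → ℝ} (hu : Continuous u)
    (hu0 : ∫ x in K, u x = 0) {ε : ℝ} (hε : 0 < ε) (hεu : ∀ x ∈ K, |ε * u x| ≤ 1 / 8)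
    {c0 c1 cε : I → ℝ} (hc0 : IsHeight K y (fun _ => 1) M c0)
    (hc1 : IsHeight K z (fun _ => 1) M c1) (hcε : IsHeight K y (fun x => 1 + ε * u x) M cε) :
    -((1 / 2) * (∫ x in K, u x ^ 2) + 26005 * R ^ 2 * ∑ l, M l * ‖z l - y l‖ ^ 2) ≤
      (∫ x in K, pot z c1 x * u x) - ∫ x in K, pot y cε x * u x := by
  classical
  have hcontr : Continuous (fun x => 1 + ε * u x) := by fun_prop
  have hr0 : ∀ x ∈ K, 0 ≤ 1 + ε * u x := by
    intro x hx
    have := (abs_le.mp (hεu x hx)).1
    linarith
  have hsum1 : ∑ l, M l = ∫ x in K, (1 : ℝ) := by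
    have h1 : ∑ l, ∫ x in cell K y c0 l, (1 : ℝ) = ∫ x in K, (1 : ℝ) :=
      sum_integral_cell hKc hy c0 (continuous_const.continuousOn.integrableOn_compact hKc)
    rw [← h1]
    exact Finset.sum_congr rfl (fun l _ => (hc0 l).symm)
  have hsumε : ∑ l, M l = ∫ x in K, (1 + ε * u x) := by
    have i1 : IntegrableOn (fun _ : Eu d => (1 : ℝ)) K volume :=
      continuous_const.continuousOn.integrableOn_compact hKc
    have i2 : IntegrableOn (fun x => ε * u x) K volume :=
      (continuous_const.mul hu).continuousOn.integrableOn_compact hKc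
    rw [integral_add i1 i2, integral_const_mul, hu0, mul_zero, add_zero, hsum1]
  set G : Set ℝ := {s | Function.Injective (ys y z s)} with hGdef
  have hGfin : Gᶜ.Finite := ys_cofinite hy z
  have hGinj : ∀ s ∈ G, Function.Injective (ys y z s) := fun s hs => hs
  have h0G : (0 : ℝ) ∈ G := by simpa [hGdef] using hy
  have h1G : (1 : ℝ) ∈ G := by simpa [hGdef] using hz
  -- heights along the path
  have hex1 : ∀ s : ℝ, ∃ c : I → ℝ, (s ∈ G → IsHeight K (ys y z s) (fun _ => 1) M c) ∧
      (s = 0 → c = c0) ∧ (s = 1 → c = c1) := by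
    intro s
    by_cases hs0 : s = 0
    · subst hs0
      exact ⟨c0, fun _ => by simpa using hc0, fun _ => rfl, fun h => absurd h (by norm_num)⟩
    by_cases hs1 : s = 1
    · subst hs1
      exact ⟨c1, fun _ => by simpa using hc1, fun h => absurd h (by norm_num), fun _ => rfl⟩
    by_cases hsG : s ∈ G
    · obtain ⟨c, hc⟩ := exists_heights_w hKc (hGinj s hsG) (continuous_const (y := (1 : ℝ)))
        (fun _ _ => zero_le_one) hM hsum1
      exact ⟨c, fun _ => hc, fun h => absurd h hs0, fun h => absurd h hs1⟩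
    · exact ⟨c0, fun h => absurd h hsG, fun h => absurd h hs0, fun h => absurd h hs1⟩
  have hexε : ∀ s : ℝ, ∃ c : I → ℝ, (s ∈ G → IsHeight K (ys y z s) (fun x => 1 + ε * u x) M c) ∧
      (s = 0 → c = cε) := by
    intro s
    by_cases hs0 : s = 0
    · subst hs0
      exact ⟨cε, fun _ => by simpa using hcε, fun _ => rfl⟩
    by_cases hsG : s ∈ G
    · obtain ⟨c, hc⟩ := exists_heights_w hKc (hGinj s hsG) hcontr hr0 hM hsumε
      exact ⟨c, fun _ => hc, fun h => absurd h hs0⟩
    · exact ⟨c0, fun h => absurd h hsG, fun h => absurd h hs0⟩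
  choose cH hcH hcH0 hcH1 using hex1
  choose cE hcE hcE0 using hexε
  -- telescoping
  have htel := telescope hGfin h0G h1G
    (fun s => corr K (ys y z s) (cE s) (fun x => 1 + ε * u x) (ys y z s))
    (fun s => corr K (ys y z s) (cH s) (fun _ => 1) (ys y z s))
    (fun s => corr K (ys y z s) (cE s) (fun x => 1 + ε * u x) (fun l => z l - y l))
    (fun s => corr K (ys y z s) (cH s) (fun _ => 1) (fun l => z l - y l))
    (ε * ((1 / 2) * (∫ x in K, u x ^ 2) + 26005 * R ^ 2 * ∑ l, M l * ‖z l - y l‖ ^ 2))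
    (subgrad_corr hKc hcontr hr0 hGinj hcE)
    (subgrad_corr hKc continuous_const (fun _ _ => zero_le_one) hGinj hcH)
    (fun s hs => corr_estimate hKc hKv (hGinj s hs) hR hKR hM hu hε hεu (hcH s hs) (hcE s hs) _)
  simp only [ys_zero, ys_one, hcH0 0 rfl, hcH1 1 rfl, hcE0 0 rfl] at htel
  -- tangents
  have ht1 : corr K z (cE 1) (fun x => 1 + ε * u x) z ≤
      corr K z c1 (fun _ => 1) z + ε * ∫ x in K, pot z c1 x * u x := by
    have hh := hcE 1 h1G
    rw [ys_one] at hh
    refine (corr_le_Val hKc hz hcontr hr0 hh z c1).trans (le_of_eq ?_)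
    rw [Val_perturb hKc z hu, Val_eq_corr hKc hz continuous_const hc1]
  have ht0 : corr K y c0 (fun _ => 1) y + ε * (∫ x in K, pot y cε x * u x) ≤
      corr K y cε (fun x => 1 + ε * u x) y := by
    have h2 := corr_le_Val hKc hy continuous_const (fun _ _ => zero_le_one) hc0 y cε
    rw [← Val_eq_corr hKc hy hcontr hcε, Val_perturb hKc y hu]
    linarith
  have hfin : ε * (-((1 / 2) * (∫ x in K, u x ^ 2) + 26005 * R ^ 2 * ∑ l, M l * ‖z l - y l‖ ^ 2)) ≤
      ε * ((∫ x in K, pot z c1 x * u x) - ∫ x in K, pot y cε x * u x) := by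
    linarith
  exact le_of_mul_le_mul_left hfin hε

/-- Uniqueness of heights, up to a constant on `K`. -/
theorem pot_unique (hKc : IsCompact K) (hKv : Convex ℝ K) (hKi : (interior K).Nonempty)
    {y : I → Eu d} (hy : Function.Injective y) {M c c' : I → ℝ}
    (hc : IsHeight K y (fun _ => 1) M c) (hc' : IsHeight K y (fun _ => 1) M c') :
    ∃ t : ℝ, ∀ x ∈ K, pot y c' x - pot y c x = t := by
  classical
  have h01 : ∀ x ∈ K, (0 : ℝ) ≤ 1 := fun _ _ => zero_le_one
  have hVeq : corr K y c (fun _ => 1) y = corr K y c' (fun _ => 1) y := by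
    apply le_antisymm
    · rw [← Val_eq_corr hKc hy continuous_const hc']
      exact corr_le_Val hKc hy continuous_const h01 hc y c'
    · rw [← Val_eq_corr hKc hy continuous_const hc]
      exact corr_le_Val hKc hy continuous_const h01 hc' y c
  -- the gaps
  have hcont : ∀ l, Continuous fun x : Eu d => pot y c' x + c' l - ⟪x, y l⟫ := by
    intro l
    exact ((continuous_pot y c').add continuous_const).sub (continuous_id.inner continuous_const)
  have hgap_nonneg : ∀ l x, 0 ≤ pot y c' x + c' l - ⟪x, y l⟫ := by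
    intro l x
    have := le_pot y c' x l
    linarith
  have hsumgap : ∑ l, ∫ x in cell K y c l, (pot y c' x + c' l - ⟪x, y l⟫) = 0 := by
    have h1 : ∀ l, ∫ x in cell K y c l, (pot y c' x + c' l - ⟪x, y l⟫) =
        (∫ x in cell K y c l, pot y c' x * 1) + M l * c' l - ∫ x in cell K y c l, ⟪x, y l⟫ * 1 := by
      intro l
      have i1 : IntegrableOn (fun x => pot y c' x) (cell K y c l) volume :=
        integrableOn_cell hKc (continuous_pot y c') y c l
      have i2 : IntegrableOn (fun _ : Eu d => c' l) (cell K y c l) volume :=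
        integrableOn_cell hKc continuous_const y c l
      have i3 : IntegrableOn (fun x : Eu d => ⟪x, y l⟫) (cell K y c l) volume :=
        integrableOn_cell hKc (continuous_id.inner continuous_const) y c l
      simp only [mul_one]
      have i4 : IntegrableOn (fun x => pot y c' x + c' l) (cell K y c l) volume := i1.add i2
      have h5 : ∫ _x in cell K y c l, c' l = M l * c' l := by
        calc ∫ _x in cell K y c l, c' l = ∫ _x in cell K y c l, c' l * (1 : ℝ) := by simp only [mul_one]
          _ = c' l * ∫ _x in cell K y c l, (1 : ℝ) := integral_const_mul _ _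
          _ = M l * c' l := by rw [hc l]; ring
      rw [integral_sub i4 i3, integral_add i1 i2, h5]
    simp_rw [h1]
    rw [Finset.sum_sub_distrib, Finset.sum_add_distrib,
      sum_integral_cell hKc hy c (integrableOn_pot_mul hKc y c' continuous_const)]
    have h2 := Val_eq_corr hKc hy continuous_const hc'
    unfold Val at h2
    rw [h2, ← hVeq]
    unfold corr
    ring
  have hzero := (Finset.sum_eq_zero_iff_of_nonneg (fun l _ =>
    integral_nonneg (fun x => hgap_nonneg l x))).mp hsumgap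
  have hae : ∀ l, ∀ᵐ x ∂volume, x ∈ cell K y c l → pot y c' x - pot y c x = c l - c' l := by
    intro l
    have h1 := hzero l (Finset.mem_univ l)
    have h2 := (integral_eq_zero_iff_of_nonneg (fun x => hgap_nonneg l x)
      (integrableOn_cell hKc (hcont l) y c l)).mp h1
    rw [Filter.EventuallyEq, ae_restrict_iff' (measurableSet_cell hKc.measurableSet y c l)] at h2
    filter_upwards [h2] with x hx hxc
    have h3 := hx hxc
    simp only [Pi.zero_apply] at h3
    rw [pot_eq_of_mem_cell hxc]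
    linarith
  have hae2 : ∀ᵐ x ∂volume, x ∈ K → ∃ l, pot y c' x - pot y c x = c l - c' l := by
    filter_upwards [ae_all_iff.mpr hae] with x hx hxK
    obtain ⟨l, hl⟩ := exists_mem_cell y c hxK
    exact ⟨l, hx l hl⟩
  -- topology
  set f : Eu d → ℝ := fun x => pot y c' x - pot y c x with hf
  have hfc : Continuous f := (continuous_pot y c').sub (continuous_pot y c)
  set F : Set ℝ := Set.range fun l => c l - c' l with hF
  have hFfin : F.Finite := Set.finite_range _
  have hclosed : IsClosed (f ⁻¹' F) := hFfin.isClosed.preimage hfc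
  have hdense : Dense {x | x ∈ K → ∃ l, f x = c l - c' l} := Measure.dense_of_ae hae2
  have hinterior : interior K ⊆ f ⁻¹' F := by
    intro x hx
    have h1 := hdense.open_subset_closure_inter isOpen_interior hx
    have h2 : interior K ∩ {x | x ∈ K → ∃ l, f x = c l - c' l} ⊆ f ⁻¹' F := by
      rintro x' ⟨hx1, hx2⟩
      obtain ⟨l, hl⟩ := hx2 (interior_subset hx1)
      exact ⟨l, hl.symm⟩
    exact hclosed.closure_subset_iff.mpr h2 h1
  have hK : K ⊆ f ⁻¹' F := by
    intro x hx
    have h1 : x ∈ closure (interior K) := by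
      rw [hKv.closure_interior_eq_closure_of_nonempty_interior hKi]
      exact subset_closure hx
    exact hclosed.closure_subset_iff.mpr hinterior h1
  have hconn : IsPreconnected (f '' K) := hKv.isPreconnected.image f hfc.continuousOn
  have hsub : f '' K ⊆ F := by
    rintro _ ⟨x, hx, rfl⟩
    exact hK hx
  obtain ⟨x₀, hx₀⟩ := hKi
  have hx₀K := interior_subset hx₀
  refine ⟨f x₀, fun x hx => ?_⟩
  by_contra hne
  have hfx : f x ≠ f x₀ := hne
  rcases lt_or_gt_of_ne hfx with hlt | hlt
  · have hI := hconn.Icc_subset (Set.mem_image_of_mem f hx) (Set.mem_image_of_mem f hx₀K)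
    exact (Set.Icc_infinite hlt) (hFfin.subset (hI.trans hsub))
  · have hI := hconn.Icc_subset (Set.mem_image_of_mem f hx₀K) (Set.mem_image_of_mem f hx)
    exact (Set.Icc_infinite hlt) (hFfin.subset (hI.trans hsub))

omit [Nonempty I] in
lemma cell_add_const (K : Set (Eu d)) (y : I → Eu d) (c : I → ℝ) (t : ℝ) (l : I) :
    cell K y (fun j => c j + t) l = cell K y c l := by
  ext x
  simp only [cell, Set.mem_ofPred_eq]
  constructor
  · rintro ⟨h1, h2⟩
    exact ⟨h1, fun j => by have := h2 j; linarith⟩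
  · rintro ⟨h1, h2⟩
    exact ⟨h1, fun j => by have := h2 j; linarith⟩

omit [Nonempty I] in
lemma height_diff_le {y : I → Eu d} {r : Eu d → ℝ} {M : I → ℝ} (hM : ∀ l, 0 < M l) {c : I → ℝ}
    (hc : IsHeight K y r M c) {R : ℝ} (hKR : ∀ x ∈ K, ‖x‖ ≤ R) (l j : I) :
    c l - c j ≤ R * (‖y l‖ + ‖y j‖) := by
  have hne : (cell K y c l).Nonempty := by
    by_contra hcon
    rw [Set.not_nonempty_iff_eq_empty] at hcon
    have := hc l
    rw [hcon] at this
    simp only [Measure.restrict_empty, integral_zero_measure] at this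
    have h2 := hM l
    linarith
  obtain ⟨x, hxK, hx⟩ := hne
  have h1 := hx j
  have hR := hKR x hxK
  have h2 : |⟪x, y l⟫| ≤ R * ‖y l‖ :=
    (abs_real_inner_le_norm _ _).trans (mul_le_mul_of_nonneg_right hR (norm_nonneg _))
  have h3 : |⟪x, y j⟫| ≤ R * ‖y j‖ :=
    (abs_real_inner_le_norm _ _).trans (mul_le_mul_of_nonneg_right hR (norm_nonneg _))
  have h4 := (abs_le.mp h2).2
  have h5 := (abs_le.mp h3).1
  linarith

lemma continuous_integral_pot_mul (hKc : IsCompact K) (y : I → Eu d) {u : Eu d → ℝ}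
    (hu : Continuous u) : Continuous fun c : I → ℝ => ∫ x in K, pot y c x * u x := by
  have hf : Continuous (Function.uncurry fun (c : I → ℝ) (x : Eu d) => pot y c x * u x) := by
    have h1 := continuous_pot_uncurry y
    have h2 : Continuous fun p : (I → ℝ) × Eu d => u p.2 := hu.comp continuous_snd
    exact h1.mul h2
  exact continuous_parametric_integral_of_continuous hf hKc

/-- Passing to the limit `ε → 0`. -/
theorem limit_step (hKc : IsCompact K) (hKv : Convex ℝ K) {y z : I → Eu d}
    (hy : Function.Injective y) (hz : Function.Injective z) {R : ℝ} (hR : 0 < R)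
    (hKR : ∀ x ∈ K, ‖x‖ ≤ R) {M : I → ℝ} (hM : ∀ l, 0 < M l) {u : Eu d → ℝ} (hu : Continuous u)
    (hu0 : ∫ x in K, u x = 0)
    {c0 c1 : I → ℝ} (hc0 : IsHeight K y (fun _ => 1) M c0)
    (hc1 : IsHeight K z (fun _ => 1) M c1) :
    ∃ cs : I → ℝ, IsHeight K y (fun _ => 1) M cs ∧
    -((1 / 2) * (∫ x in K, u x ^ 2) + 26005 * R ^ 2 * ∑ l, M l * ‖z l - y l‖ ^ 2) ≤
      (∫ x in K, pot z c1 x * u x) - ∫ x in K, pot y cs x * u x := by
  classical
  obtain ⟨U, hU⟩ := hKc.exists_bound_of_continuousOn hu.continuousOn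
  set U' : ℝ := |U| + 1 with hU'
  have hU'pos : 0 < U' := by positivity
  have hUle : ∀ x ∈ K, |u x| ≤ U' := by
    intro x hx
    have h1 := hU x hx
    rw [Real.norm_eq_abs] at h1
    have h2 := le_abs_self U
    linarith
  set εn : ℕ → ℝ := fun n => (1 / (8 * U')) * (1 / ((n : ℝ) + 1)) with hεn
  have hεpos : ∀ n, 0 < εn n := fun n => by
    simp only [hεn]
    positivity
  have hεlim : Tendsto εn atTop (𝓝 0) := by
    have := (tendsto_const_nhds (x := 1 / (8 * U'))).mul
      (tendsto_one_div_add_atTop_nhds_zero_nat (𝕜 := ℝ))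
    simpa [hεn] using this
  have hεle : ∀ n, ∀ x ∈ K, |εn n * u x| ≤ 1 / 8 := by
    intro n x hx
    rw [abs_mul, abs_of_pos (hεpos n)]
    have h1 : 1 / ((n : ℝ) + 1) ≤ 1 := by
      rw [div_le_one (by positivity)]
      have : (0 : ℝ) ≤ n := Nat.cast_nonneg n
      linarith
    have h2 : εn n ≤ 1 / (8 * U') := by
      simp only [hεn]
      exact mul_le_of_le_one_right (by positivity) h1
    calc εn n * |u x| ≤ (1 / (8 * U')) * U' :=
          mul_le_mul h2 (hUle x hx) (abs_nonneg _) (by positivity)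
      _ = 1 / 8 := by field_simp
  have hsum1 : ∑ l, M l = ∫ x in K, (1 : ℝ) := by
    have h1 : ∑ l, ∫ x in cell K y c0 l, (1 : ℝ) = ∫ x in K, (1 : ℝ) :=
      sum_integral_cell hKc hy c0 (continuous_const.continuousOn.integrableOn_compact hKc)
    rw [← h1]
    exact Finset.sum_congr rfl (fun l _ => (hc0 l).symm)
  have hex : ∀ n, ∃ c : I → ℝ, IsHeight K y (fun x => 1 + εn n * u x) M c := by
    intro n
    refine exists_heights_w hKc hy (by fun_prop) (fun x hx => ?_) hM ?_
    · have := (abs_le.mp (hεle n x hx)).1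
      linarith
    · have i1 : IntegrableOn (fun _ : Eu d => (1 : ℝ)) K volume :=
        continuous_const.continuousOn.integrableOn_compact hKc
      have i2 : IntegrableOn (fun x => εn n * u x) K volume :=
        (continuous_const.mul hu).continuousOn.integrableOn_compact hKc
      rw [integral_add i1 i2, integral_const_mul, hu0, mul_zero, add_zero, hsum1]
  choose cn hcn using hex
  obtain ⟨l₀⟩ := ‹Nonempty I›
  -- normalized heights
  set cm : ℕ → I → ℝ := fun n l => cn n l + (- cn n l₀) with hcm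
  have hcmH : ∀ n, IsHeight K y (fun x => 1 + εn n * u x) M (cm n) := by
    intro n l
    simp only [hcm]
    rw [cell_add_const]
    exact hcn n l
  set B : ℝ := |R| * (2 * ∑ l, ‖y l‖) with hB
  have hynorm : ∀ l, ‖y l‖ ≤ ∑ l, ‖y l‖ := fun l =>
    Finset.single_le_sum (f := fun l => ‖y l‖) (fun _ _ => norm_nonneg _) (Finset.mem_univ l)
  have hbox : IsCompact (Set.pi Set.univ (fun _ : I => Set.Icc (-B) B)) :=
    isCompact_univ_pi (fun _ => isCompact_Icc)
  have hmem : ∀ n, cm n ∈ Set.pi Set.univ (fun _ : I => Set.Icc (-B) B) := by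
    intro n l _
    have h1 := height_diff_le hM (hcn n) hKR l l₀
    have h2 := height_diff_le hM (hcn n) hKR l₀ l
    rw [abs_of_pos hR] at hB
    have h3 : R * (‖y l‖ + ‖y l₀‖) ≤ B := by
      rw [hB]
      exact mul_le_mul_of_nonneg_left (by linarith [hynorm l, hynorm l₀]) hR.le
    have h4 : R * (‖y l₀‖ + ‖y l‖) ≤ B := by
      rw [hB]
      exact mul_le_mul_of_nonneg_left (by linarith [hynorm l, hynorm l₀]) hR.le
    simp only [hcm]
    constructor <;> linarith
  obtain ⟨cs, -, φ, hφ, hlim⟩ := hbox.tendsto_subseq hmem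
  refine ⟨cs, ?_, ?_⟩
  · intro l
    have h1 := tendsto_integral_cell hKc hy (continuous_const (y := (1 : ℝ))) hlim l
    have h2 := tendsto_integral_cell hKc hy hu hlim l
    have h3 : Tendsto (fun n => εn (φ n)) atTop (𝓝 0) := hεlim.comp hφ.tendsto_atTop
    have h4 := h1.add (h3.mul h2)
    rw [zero_mul, add_zero] at h4
    have h5 : ∀ n, (∫ x in cell K y ((cm ∘ φ) n) l, (1 : ℝ)) +
        εn (φ n) * ∫ x in cell K y ((cm ∘ φ) n) l, u x = M l := by
      intro n
      have h6 := hcmH (φ n) l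
      rw [integral_add (integrableOn_cell hKc continuous_const y _ l)
        ((integrableOn_cell hKc hu y _ l).const_mul _), integral_const_mul] at h6
      exact h6
    simp_rw [h5] at h4
    exact (tendsto_nhds_unique tendsto_const_nhds h4).symm
  · have h1 := (continuous_integral_pot_mul hKc y hu).tendsto cs
    have h2 := h1.comp hlim
    have h3 : Tendsto (fun n => (∫ x in K, pot z c1 x * u x) - ∫ x in K, pot y ((cm ∘ φ) n) x * u x)
        atTop (𝓝 ((∫ x in K, pot z c1 x * u x) - ∫ x in K, pot y cs x * u x)) :=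
      tendsto_const_nhds.sub h2
    refine ge_of_tendsto' h3 (fun n => ?_)
    exact eps_step hKc hKv hy hz hR hKR hM hu hu0 (hεpos _) (hεle _) hc0 hc1 (hcmH (φ n))

/-- **The variance bound.** -/
theorem var_bound_vol (hKc : IsCompact K) (hKv : Convex ℝ K) (hKi : (interior K).Nonempty)
    {y z : I → Eu d} (hy : Function.Injective y) (hz : Function.Injective z) {R : ℝ} (hR : 0 < R)
    (hKR : ∀ x ∈ K, ‖x‖ ≤ R) {M : I → ℝ} (hM : ∀ l, 0 < M l)
    {c0 c1 : I → ℝ} (hc0 : IsHeight K y (fun _ => 1) M c0)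
    (hc1 : IsHeight K z (fun _ => 1) M c1) :
    ∃ a : ℝ, ∫ x in K, (pot y c0 x - pot z c1 x - a) ^ 2 ≤
      2 * 26005 * R ^ 2 * ∑ l, M l * ‖z l - y l‖ ^ 2 := by
  have hVpos : 0 < volume K := lt_of_lt_of_le (isOpen_interior.measure_pos volume hKi)
    (measure_mono interior_subset)
  have hVfin : volume K < ⊤ := hKc.measure_lt_top
  have hVr : 0 < volume.real K := ENNReal.toReal_pos hVpos.ne' hVfin.ne
  set g : Eu d → ℝ := fun x => pot y c0 x - pot z c1 x with hg
  have hgc : Continuous g := (continuous_pot y c0).sub (continuous_pot z c1)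
  set a : ℝ := (∫ x in K, g x) / volume.real K with ha
  set u : Eu d → ℝ := fun x => g x - a with hu
  have huc : Continuous u := hgc.sub continuous_const
  have hint : ∀ {F : Eu d → ℝ}, Continuous F → IntegrableOn F K volume :=
    fun hF => hF.continuousOn.integrableOn_compact hKc
  have hu0 : ∫ x in K, u x = 0 := by
    simp only [hu]
    rw [integral_sub (hint hgc) (hint continuous_const), setIntegral_const, ha]
    simp only [smul_eq_mul]
    field_simp
    ring
  refine ⟨a, ?_⟩
  obtain ⟨cs, hcs, hmain⟩ := limit_step hKc hKv hy hz hR hKR hM huc hu0 hc0 hc1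
  obtain ⟨t, ht⟩ := pot_unique hKc hKv hKi hy hcs hc0
  -- replace `cs` by `c0`
  have h1 : ∫ x in K, pot y cs x * u x = ∫ x in K, pot y c0 x * u x := by
    have e : ∫ x in K, pot y cs x * u x = ∫ x in K, (pot y c0 x * u x - t * u x) := by
      refine setIntegral_congr_fun hKc.measurableSet (fun x hx => ?_)
      have := ht x hx
      have h2 : pot y cs x = pot y c0 x - t := by linarith
      rw [h2]
      ring
    have i1 : IntegrableOn (fun x => t * u x) K volume := hint (continuous_const.mul huc)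
    rw [e, integral_sub (integrableOn_pot_mul hKc y c0 huc) i1, integral_const_mul, hu0]
    ring
  have h2 : (∫ x in K, pot z c1 x * u x) - (∫ x in K, pot y c0 x * u x) = -∫ x in K, u x ^ 2 := by
    rw [← integral_sub (integrableOn_pot_mul hKc z c1 huc) (integrableOn_pot_mul hKc y c0 huc)]
    have e : ∫ x in K, (pot z c1 x * u x - pot y c0 x * u x) =
        ∫ x in K, (-(u x ^ 2) - a * u x) := by
      refine setIntegral_congr_fun hKc.measurableSet (fun x _ => ?_)
      simp only [hu, hg]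
      ring
    have i1 : IntegrableOn (fun x => a * u x) K volume := hint (continuous_const.mul huc)
    have i2 : IntegrableOn (fun x => -(u x ^ 2)) K volume := hint (by fun_prop)
    rw [e, integral_sub i2 i1, integral_const_mul, hu0, integral_neg]
    ring
  rw [h1, h2] at hmain
  have h3 : ∫ x in K, (pot y c0 x - pot z c1 x - a) ^ 2 = ∫ x in K, u x ^ 2 := rfl
  rw [h3]
  linarith

end path

/-- Cells of prescribed uniform mass are heights for volume masses. -/
lemma isHeight_of_uniform {d : ℕ} {I : Type} [Fintype I] {K : Set (Eu d)} (hKc : IsCompact K)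
    (hV0 : volume K ≠ 0) {y : I → Eu d} {m : I → ℝ} (hm : ∀ l, 0 < m l) {c : I → ℝ}
    (h : ∀ l, Crest.AnalysisR.OT.uniformProbOn K (cell K y c l) = ENNReal.ofReal (m l)) :
    IsHeight K y (fun _ => 1) (fun l => volume.real K * m l) c := by
  intro l
  have hVt : volume K ≠ ⊤ := hKc.measure_lt_top.ne
  have h1 := h l
  have hm' := measurableSet_cell hKc.measurableSet y c l
  simp only [Crest.AnalysisR.OT.uniformProbOn, Measure.smul_apply, smul_eq_mul,
    Measure.restrict_apply hm', Set.inter_eq_left.mpr (cell_subset K y c l)] at h1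
  have h2 : volume (cell K y c l) = volume K * ENNReal.ofReal (m l) := by
    rw [← h1, ← mul_assoc, ENNReal.mul_inv_cancel hV0 hVt, one_mul]
  simp only [integral_const, smul_eq_mul, mul_one, Measure.real, Measure.restrict_apply MeasurableSet.univ,
    Set.univ_inter]
  rw [h2, ENNReal.toReal_mul, ENNReal.toReal_ofReal (hm l).le]

/-- **The variance bound for atoms**, with uniform masses. -/
theorem atoms_var_bound {d : ℕ} {K : Set (Eu d)} (hKc : IsCompact K) (hKv : Convex ℝ K)
    (hKi : (interior K).Nonempty) :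
    ∃ C : ℝ, ∀ {I : Type} [Fintype I] [Nonempty I] (y z : I → Eu d) (m : I → ℝ),
      Function.Injective y → Function.Injective z → (∀ l, 0 < m l) → ∑ l, m l = 1 →
      ∀ c0 c1 : I → ℝ,
      (∀ l, Crest.AnalysisR.OT.uniformProbOn K (cell K y c0 l) = ENNReal.ofReal (m l)) →
      (∀ l, Crest.AnalysisR.OT.uniformProbOn K (cell K z c1 l) = ENNReal.ofReal (m l)) →
      ∃ a : ℝ, ∫ x in K, (pot y c0 x - pot z c1 x - a) ^ 2 ≤ C * ∑ l, m l * ‖y l - z l‖ ^ 2 := by
  have hVpos : 0 < volume K := lt_of_lt_of_le (isOpen_interior.measure_pos volume hKi)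
    (measure_mono interior_subset)
  have hVfin : volume K < ⊤ := hKc.measure_lt_top
  have hVr : 0 < volume.real K := ENNReal.toReal_pos hVpos.ne' hVfin.ne
  obtain ⟨R₀, hR₀⟩ := hKc.isBounded.exists_norm_le
  set R : ℝ := |R₀| + 1 with hR
  have hRpos : 0 < R := by positivity
  have hKR : ∀ x ∈ K, ‖x‖ ≤ R := fun x hx => by
    have h1 := hR₀ x hx
    have h2 := le_abs_self R₀
    rw [hR]
    linarith
  refine ⟨2 * 26005 * R ^ 2 * volume.real K, ?_⟩
  intro I _ _ y z m hy hz hm _ c0 c1 hc0 hc1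
  obtain ⟨a, ha⟩ := var_bound_vol hKc hKv hKi hy hz hRpos hKR (M := fun l => volume.real K * m l)
    (fun l => mul_pos hVr (hm l)) (isHeight_of_uniform hKc hVpos.ne' hm hc0)
    (isHeight_of_uniform hKc hVpos.ne' hm hc1)
  refine ⟨a, ha.trans (le_of_eq ?_)⟩
  have e : ∑ l, volume.real K * m l * ‖z l - y l‖ ^ 2 = volume.real K * ∑ l, m l * ‖y l - z l‖ ^ 2 := by
    rw [Finset.mul_sum]
    refine Finset.sum_congr rfl (fun l _ => ?_)
    rw [norm_sub_rev]
    ring
  rw [e]
  ring

end Crest.Agent.OT
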