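import Crest.Agent.Lib.OT.Basic

/-!
# Semi-discrete optimality and uniqueness for power-cell maps (row S0109+S0110, sharpness half)

For a map `T = y ∘ idx` sending each point of `K` to the atom of one of its power cells:
* `T` is optimal (`IsOptimalMap`) from `ρ` to its own pushforward;
* every other optimal map agrees with `T` almost everywhere.
-/

set_option autoImplicit false
open MeasureTheory
open scoped ENNReal NNReal RealInnerProductSpace
open Crest.AnalysisR.OT

namespace Crest.Agent.OT.Wedge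

variable {d : ℕ} {I : Type} [Fintype I] [MeasurableSpace I] [MeasurableSingletonClass I]

/-- Extension of the heights to the whole space. -/
noncomputable def cs (y : I → Eu d) (c : I → ℝ) (z : Eu d) : ℝ := by
  classical exact ∑ l, if z = y l then c l else 0

omit [MeasurableSpace I] [MeasurableSingletonClass I] in
lemma cs_apply {y : I → Eu d} (hy : Function.Injective y) (c : I → ℝ) (l : I) :
    cs y c (y l) = c l := by
  classical
  unfold cs
  rw [Finset.sum_eq_single l]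
  · simp
  · intro b _ hb
    rw [if_neg]
    intro h
    exact hb (hy h).symm
  · simp

omit [MeasurableSpace I] [MeasurableSingletonClass I] in
lemma measurable_cs (y : I → Eu d) (c : I → ℝ) : Measurable (cs y c) := by
  classical
  unfold cs
  refine Finset.measurable_sum _ (fun l _ => ?_)
  exact Measurable.ite (measurableSet_singleton _) measurable_const measurable_const

omit [MeasurableSpace I] [MeasurableSingletonClass I] in
lemma cs_nonpos (y : I → Eu d) {c : I → ℝ} (hc : ∀ l, c l ≤ 0) (z : Eu d) : cs y c z ≤ 0 := by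
  classical
  unfold cs
  refine Finset.sum_nonpos (fun l _ => ?_)
  split_ifs
  · exact hc l
  · exact le_rfl

/-- The transported weight. -/
noncomputable def Hf (y : I → Eu d) (c : I → ℝ) (z : Eu d) : ℝ≥0∞ :=
  ENNReal.ofReal (‖z‖ ^ 2 - 2 * cs y c z)

omit [MeasurableSpace I] [MeasurableSingletonClass I] in
lemma measurable_Hf (y : I → Eu d) (c : I → ℝ) : Measurable (Hf y c) := by
  unfold Hf
  exact ENNReal.measurable_ofReal.comp
    ((measurable_norm.pow_const 2).sub (measurable_const.mul (measurable_cs y c)))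

/-- Pointwise identity behind the optimality. -/
lemma pointwise_identity (x z w : Eu d) (a b : ℝ) :
    ‖x - z‖ ^ 2 + (‖w‖ ^ 2 - 2 * b) =
      ‖x - w‖ ^ 2 + (‖z‖ ^ 2 - 2 * a) + 2 * ((⟪x, w⟫ - b) - (⟪x, z⟫ - a)) := by
  have h1 : ‖x - z‖ ^ 2 = ‖x‖ ^ 2 - 2 * ⟪x, z⟫ + ‖z‖ ^ 2 := norm_sub_sq_real x z
  have h2 : ‖x - w‖ ^ 2 = ‖x‖ ^ 2 - 2 * ⟪x, w⟫ + ‖w‖ ^ 2 := norm_sub_sq_real x w
  rw [h1, h2]
  ring

lemma enorm_sq_eq (v : Eu d) : ‖v‖ₑ ^ 2 = ENNReal.ofReal (‖v‖ ^ 2) := by
  rw [← ofReal_norm, ENNReal.ofReal_pow (norm_nonneg _)]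

variable {K : Set (Eu d)} {ρ : Measure (Eu d)} [IsProbabilityMeasure ρ]

section main

variable {y : I → Eu d} {c : I → ℝ} {idx : Eu d → I}

/-- The gap of `S` at `x`. -/
noncomputable def gap (y : I → Eu d) (c : I → ℝ) (idx : Eu d → I) (S : Eu d → Eu d) (x : Eu d) : ℝ :=
  2 * ((⟪x, y (idx x)⟫ - c (idx x)) - (⟪x, S x⟫ - cs y c (S x)))

omit [IsProbabilityMeasure ρ] in
lemma ae_mem_range (hidxm : Measurable idx) {S : Eu d → Eu d} (hS : Measurable S)
    (hSρ : ρ.map S = ρ.map (y ∘ idx)) : ∀ᵐ x ∂ρ, ∃ l, S x = y l := by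
  have hT : Measurable (y ∘ idx) := (Measurable.of_discrete).comp hidxm
  have hR : MeasurableSet (Set.range y) := (Set.finite_range y).measurableSet
  have h1 : (ρ.map (y ∘ idx)) (Set.range y)ᶜ = 0 := by
    rw [Measure.map_apply hT hR.compl]
    convert measure_empty (μ := ρ)
    ext x
    simp
  rw [← hSρ, Measure.map_apply hS hR.compl] at h1
  have : ∀ᵐ x ∂ρ, x ∉ S ⁻¹' (Set.range y)ᶜ := measure_eq_zero_iff_ae_notMem.mp h1
  filter_upwards [this] with x hx
  obtain ⟨l, hl⟩ : ∃ l, y l = S x := by simpa using hx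
  exact ⟨l, hl.symm⟩

omit [IsProbabilityMeasure ρ] in
lemma ae_gap_nonneg (hρK : ρ Kᶜ = 0) (hy : Function.Injective y)
    (hidxm : Measurable idx) (hidx : ∀ x ∈ K, x ∈ cell K y c (idx x))
    {S : Eu d → Eu d} (hS : Measurable S) (hSρ : ρ.map S = ρ.map (y ∘ idx)) :
    ∀ᵐ x ∂ρ, 0 ≤ gap y c idx S x := by
  have hK : ∀ᵐ x ∂ρ, x ∈ K := by
    have : ∀ᵐ x ∂ρ, x ∉ Kᶜ := measure_eq_zero_iff_ae_notMem.mp hρK
    filter_upwards [this] with x hx
    simpa using hx
  filter_upwards [hK, ae_mem_range hidxm hS hSρ] with x hxK ⟨l, hl⟩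
  unfold gap
  rw [hl, cs_apply hy]
  have := (hidx x hxK).2 l
  linarith

/-- The central identity: the excess cost of `S` over `T` is the integrated gap. -/
lemma cost_eq (hρK : ρ Kᶜ = 0) (hy : Function.Injective y) (hc : ∀ l, c l ≤ 0)
    (hidxm : Measurable idx) (hidx : ∀ x ∈ K, x ∈ cell K y c (idx x))
    {S : Eu d → Eu d} (hS : Measurable S) (hSρ : ρ.map S = ρ.map (y ∘ idx)) :
    ∫⁻ x, ‖x - S x‖ₑ ^ 2 ∂ρ = ∫⁻ x, ‖x - (y ∘ idx) x‖ₑ ^ 2 ∂ρ +
      ∫⁻ x, ENNReal.ofReal (gap y c idx S x) ∂ρ := by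
  set T : Eu d → Eu d := y ∘ idx with hTdef
  have hT : Measurable T := (Measurable.of_discrete).comp hidxm
  have hHm := measurable_Hf y c
  have hHnn : ∀ z : Eu d, 0 ≤ ‖z‖ ^ 2 - 2 * cs y c z := fun z => by
    have := cs_nonpos y hc z
    have h2 : 0 ≤ ‖z‖ ^ 2 := by positivity
    linarith
  -- the pointwise identity, almost everywhere
  have hae : ∀ᵐ x ∂ρ, ‖x - S x‖ₑ ^ 2 + Hf y c (T x) =
      ‖x - T x‖ₑ ^ 2 + Hf y c (S x) + ENNReal.ofReal (gap y c idx S x) := by
    filter_upwards [ae_gap_nonneg hρK hy hidxm hidx hS hSρ] with x hx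
    unfold Hf
    rw [enorm_sq_eq, enorm_sq_eq, ← ENNReal.ofReal_add (by positivity) (hHnn _),
      ← ENNReal.ofReal_add (by positivity) (hHnn _),
      ← ENNReal.ofReal_add (add_nonneg (by positivity) (hHnn _)) hx]
    congr 1
    have := pointwise_identity x (S x) (T x) (cs y c (S x)) (cs y c (T x))
    unfold gap
    rw [this, hTdef]
    simp only [Function.comp_apply]
    rw [cs_apply hy]
  have hmS : Measurable fun x => ‖x - S x‖ₑ ^ 2 := by
    have : Measurable fun x => x - S x := measurable_id.sub hS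
    exact this.enorm.pow_const 2
  have hmT : Measurable fun x => ‖x - T x‖ₑ ^ 2 := by
    have : Measurable fun x => x - T x := measurable_id.sub hT
    exact this.enorm.pow_const 2
  have hint := lintegral_congr_ae hae
  have hmm : Measurable fun x => ‖x - T x‖ₑ ^ 2 + Hf y c (S x) := hmT.add (hHm.comp hS)
  rw [lintegral_add_left hmS, lintegral_add_left hmm, lintegral_add_left hmT] at hint
  -- the weights integrate to the same value
  have hH : ∫⁻ x, Hf y c (S x) ∂ρ = ∫⁻ x, Hf y c (T x) ∂ρ := by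
    rw [← lintegral_map hHm hS, hSρ, lintegral_map hHm hT]
  have hfin : ∫⁻ x, Hf y c (T x) ∂ρ ≠ ⊤ := by
    have hle : ∀ x, Hf y c (T x) ≤ ∑ l, Hf y c (y l) := fun x =>
      Finset.single_le_sum (f := fun l => Hf y c (y l)) (fun _ _ => zero_le) (Finset.mem_univ (idx x))
    refine ne_top_of_le_ne_top ?_ (lintegral_mono hle)
    rw [lintegral_const]
    simp only [measure_univ, mul_one]
    refine ENNReal.sum_ne_top.mpr (fun l _ => ?_)
    exact ENNReal.ofReal_ne_top
  rw [hH] at hint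
  have : ∫⁻ x, ‖x - S x‖ₑ ^ 2 ∂ρ + ∫⁻ x, Hf y c (T x) ∂ρ =
      (∫⁻ x, ‖x - T x‖ₑ ^ 2 ∂ρ + ∫⁻ x, ENNReal.ofReal (gap y c idx S x) ∂ρ) +
        ∫⁻ x, Hf y c (T x) ∂ρ := by
    rw [hint]; ring
  exact (ENNReal.add_left_inj hfin).mp this

/-- The power-cell map is optimal. -/
theorem isOptimalMap_comp (hρK : ρ Kᶜ = 0) (hy : Function.Injective y) (hc : ∀ l, c l ≤ 0)
    (hidxm : Measurable idx) (hidx : ∀ x ∈ K, x ∈ cell K y c (idx x)) :
    IsOptimalMap ρ (ρ.map (y ∘ idx)) (y ∘ idx) := by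
  refine ⟨(Measurable.of_discrete).comp hidxm, rfl, fun S hS hSρ => ?_⟩
  rw [cost_eq hρK hy hc hidxm hidx hS hSρ]
  exact le_self_add

/-- Uniqueness: every optimal map agrees a.e. with the power-cell map. -/
theorem ae_eq_of_isOptimalMap (hρK : ρ Kᶜ = 0) (hρac : ρ ≪ volume)
    (hy : Function.Injective y) (hc : ∀ l, c l ≤ 0)
    (hidxm : Measurable idx) (hidx : ∀ x ∈ K, x ∈ cell K y c (idx x))
    (hfin : ∫⁻ x, ‖x - (y ∘ idx) x‖ₑ ^ 2 ∂ρ ≠ ⊤)
    {S : Eu d → Eu d} (hS : IsOptimalMap ρ (ρ.map (y ∘ idx)) S) :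
    S =ᵐ[ρ] (y ∘ idx) := by
  classical
  obtain ⟨hSm, hSρ, hSopt⟩ := hS
  have hT : Measurable (y ∘ idx) := (Measurable.of_discrete).comp hidxm
  have hle := hSopt (y ∘ idx) hT rfl
  have heq := cost_eq hρK hy hc hidxm hidx hSm hSρ
  have hzero : ∫⁻ x, ENNReal.ofReal (gap y c idx S x) ∂ρ = 0 := by
    rw [heq] at hle
    by_contra h
    have : ∫⁻ x, ‖x - (y ∘ idx) x‖ₑ ^ 2 ∂ρ < ∫⁻ x, ‖x - (y ∘ idx) x‖ₑ ^ 2 ∂ρ +
        ∫⁻ x, ENNReal.ofReal (gap y c idx S x) ∂ρ :=
      ENNReal.lt_add_right hfin h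
    exact absurd hle (not_le.mpr this)
  have hgm : Measurable fun x => ENNReal.ofReal (gap y c idx S x) := by
    refine ENNReal.measurable_ofReal.comp ?_
    unfold gap
    have h1 : Measurable fun x : Eu d => ⟪x, y (idx x)⟫ := by
      have : Measurable fun x : Eu d => y (idx x) := hT
      exact measurable_id.inner this
    have h2 : Measurable fun x : Eu d => c (idx x) := (Measurable.of_discrete).comp hidxm
    have h3 : Measurable fun x : Eu d => ⟪x, S x⟫ := measurable_id.inner hSm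
    have h4 : Measurable fun x : Eu d => cs y c (S x) := (measurable_cs y c).comp hSm
    exact measurable_const.mul ((h1.sub h2).sub (h3.sub h4))
  rw [lintegral_eq_zero_iff hgm] at hzero
  have hK : ∀ᵐ x ∂ρ, x ∈ K := by
    have : ∀ᵐ x ∂ρ, x ∉ Kᶜ := measure_eq_zero_iff_ae_notMem.mp hρK
    filter_upwards [this] with x hx
    simpa using hx
  -- the overlap null set
  have hN : volume (⋃ l, ⋃ j, ⋃ (_ : l ≠ j), cell K y c l ∩ cell K y c j) = 0 := by
    refine measure_iUnion_null (fun l => measure_iUnion_null (fun j => ?_))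
    refine measure_iUnion_null (fun hlj => ?_)
    exact cell_inter_null hy c hlj
  have hN' : ∀ᵐ x ∂ρ, x ∉ ⋃ l, ⋃ j, ⋃ (_ : l ≠ j), cell K y c l ∩ cell K y c j :=
    measure_eq_zero_iff_ae_notMem.mp (hρac hN)
  filter_upwards [hK, ae_mem_range hidxm hSm hSρ, hN', hzero,
    ae_gap_nonneg hρK hy hidxm hidx hSm hSρ] with x hxK hl hxN hx0 hxnn
  obtain ⟨l, hl⟩ := hl
  have hg : gap y c idx S x = 0 := by
    have : ENNReal.ofReal (gap y c idx S x) = 0 := hx0
    exact le_antisymm (ENNReal.ofReal_eq_zero.mp this) hxnn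
  unfold gap at hg
  rw [hl, cs_apply hy] at hg
  have hcell := hidx x hxK
  have hcelll : x ∈ cell K y c l := by
    refine ⟨hxK, fun j => ?_⟩
    have := hcell.2 j
    linarith
  by_cases hlj : l = idx x
  · simp [hl, hlj]
  · exfalso
    apply hxN
    simp only [Set.mem_iUnion]
    exact ⟨l, idx x, hlj, hcelll, hcell⟩

omit [IsProbabilityMeasure ρ] in
/-- Pushforward formula. -/
lemma map_comp_eq (hidxm : Measurable idx) (y : I → Eu d) :
    ρ.map (y ∘ idx) = ∑ l, ρ (idx ⁻¹' {l}) • Measure.dirac (y l) := by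
  classical
  ext A hA
  have hT : Measurable (y ∘ idx) := (Measurable.of_discrete).comp hidxm
  rw [Measure.map_apply hT hA]
  rw [Measure.finsetSum_apply]
  simp only [Measure.smul_apply, smul_eq_mul, Measure.dirac_apply' _ hA]
  have h1 : (y ∘ idx) ⁻¹' A = ⋃ l ∈ (Finset.univ.filter fun l => y l ∈ A), idx ⁻¹' {l} := by
    ext x
    simp
  rw [h1, measure_biUnion_finset]
  · rw [Finset.sum_filter]
    refine Finset.sum_congr rfl (fun l _ => ?_)
    by_cases hl : y l ∈ A
    · simp [hl]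
    · simp [hl]
  · intro a _ b _ hab
    simp only [Function.onFun]
    refine Set.disjoint_left.mpr (fun x hx hx' => hab ?_)
    simp only [Set.mem_preimage, Set.mem_singleton_iff] at hx hx'
    rw [← hx, hx']
  · intro l _
    exact hidxm (measurableSet_singleton l)

end main

end Crest.Agent.OT.Wedge
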