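import Crest.Agent.Lib.OT.Wedge

/-!
# The wedge example on the cube (S0110)
-/

set_option autoImplicit false
open MeasureTheory
open scoped ENNReal NNReal RealInnerProductSpace
open Crest.AnalysisR.OT

namespace Crest.Agent.OT.Wedge

variable {d : ℕ}

/-- The cube. -/
abbrev Q (d : ℕ) : Set (EuclideanSpace ℝ (Fin d)) :=
  {x : EuclideanSpace ℝ (Fin d) | ∀ i, |x i| ≤ 1}

/-- A general coordinate box. -/
def box (a b : Fin d → ℝ) : Set (Eu d) := {x | ∀ i, x i ∈ Set.Icc (a i) (b i)}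

lemma continuous_coord (i : Fin d) : Continuous fun x : Eu d => x i := by fun_prop

lemma measurableSet_box (a b : Fin d → ℝ) : MeasurableSet (box a b) := by
  have : box a b = ⋂ i, {x : Eu d | x i ∈ Set.Icc (a i) (b i)} := by
    ext x; simp [box]
  rw [this]
  refine MeasurableSet.iInter (fun i => ?_)
  exact (continuous_coord i).measurable measurableSet_Icc

lemma volume_box (a b : Fin d → ℝ) : volume (box a b) = ∏ i, ENNReal.ofReal (b i - a i) := by
  have h := PiLp.volume_preserving_ofLp (Fin d)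
  have : box a b = (WithLp.ofLp : Eu d → (Fin d → ℝ)) ⁻¹' Set.Icc a b := by
    ext x
    simp [box, Set.mem_Icc, Pi.le_def, forall_and]
  rw [this, h.measure_preimage measurableSet_Icc.nullMeasurableSet]
  exact Real.volume_Icc_pi

lemma Q_eq_box : Q d = box (fun _ => -1) (fun _ => 1) := by
  ext x
  simp [box, abs_le]

lemma measurableSet_Q : MeasurableSet (Q d) := by
  rw [Q_eq_box]; exact measurableSet_box _ _

lemma volume_Q : volume (Q d) = ENNReal.ofReal (∏ _i : Fin d, (2 : ℝ)) := by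
  rw [Q_eq_box, volume_box, ENNReal.ofReal_prod_of_nonneg (fun _ _ => by norm_num)]
  norm_num

lemma volume_Q_ne_zero : volume (Q d) ≠ 0 := by
  rw [volume_Q]
  simp

lemma volume_Q_ne_top : volume (Q d) ≠ ⊤ := by
  rw [volume_Q]
  exact ENNReal.ofReal_ne_top

instance isProb_rho : IsProbabilityMeasure (uniformProbOn (Q d)) := by
  constructor
  simp only [uniformProbOn, Measure.smul_apply, Measure.restrict_apply MeasurableSet.univ,
    Set.univ_inter, smul_eq_mul]
  exact ENNReal.inv_mul_cancel volume_Q_ne_zero volume_Q_ne_top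

lemma rho_compl : uniformProbOn (Q d) (Q d)ᶜ = 0 := by
  simp only [uniformProbOn, Measure.smul_apply, smul_eq_mul]
  rw [Measure.restrict_apply measurableSet_Q.compl]
  simp

lemma rho_ac : uniformProbOn (Q d) ≪ volume := by
  unfold uniformProbOn
  exact (Measure.absolutelyContinuous_of_le Measure.restrict_le_self).smul_left _

lemma ae_mem_Q : ∀ᵐ x ∂(uniformProbOn (Q d)), x ∈ Q d := by
  have : ∀ᵐ x ∂(uniformProbOn (Q d)), x ∉ (Q d)ᶜ := measure_eq_zero_iff_ae_notMem.mp rho_compl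
  filter_upwards [this] with x hx
  simpa using hx

lemma rho_box (a b : Fin d → ℝ) (h : ∀ i, -1 ≤ a i ∧ a i ≤ b i ∧ b i ≤ 1) :
    uniformProbOn (Q d) (box a b) = ENNReal.ofReal (∏ i, ((b i - a i) / 2)) := by
  have hsub : box a b ⊆ Q d := by
    intro x hx i
    have := hx i
    have h' := h i
    rw [abs_le]
    exact ⟨by linarith [this.1], by linarith [this.2]⟩
  simp only [uniformProbOn, Measure.smul_apply, smul_eq_mul]
  rw [Measure.restrict_apply (measurableSet_box a b), Set.inter_eq_left.mpr hsub, volume_Q,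
    volume_box, ← ENNReal.ofReal_prod_of_nonneg (fun i _ => by linarith [(h i).2.1]),
    ← ENNReal.ofReal_inv_of_pos (by positivity), ← ENNReal.ofReal_mul (by positivity),
    Finset.prod_div_distrib]
  congr 1
  field_simp

variable (hd : 2 ≤ d) {α : ℝ}

/-- first coordinate -/
def i0 : Fin d := ⟨0, by omega⟩
/-- second coordinate -/
def i1 : Fin d := ⟨1, by omega⟩

lemma i0_ne_i1 : i0 hd ≠ i1 hd := by
  simp [i0, i1, Fin.ext_iff]

/-- The slab-type box, constraining two coordinates. -/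
def box2 (a₀ b₀ a₁ b₁ : ℝ) : Set (Eu d) :=
  box (fun i => if i = i0 hd then a₀ else if i = i1 hd then a₁ else -1)
    (fun i => if i = i0 hd then b₀ else if i = i1 hd then b₁ else 1)

lemma mem_box2 {a₀ b₀ a₁ b₁ : ℝ} {x : Eu d} (hx : x ∈ Q d) (h0 : x (i0 hd) ∈ Set.Icc a₀ b₀)
    (h1 : x (i1 hd) ∈ Set.Icc a₁ b₁) : x ∈ box2 hd a₀ b₀ a₁ b₁ := by
  intro i
  by_cases hi0 : i = i0 hd
  · simpa [hi0] using h0
  · by_cases hi1 : i = i1 hd
    · simpa [hi1, (i0_ne_i1 hd).symm] using h1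
    · simpa [hi0, hi1, abs_le] using hx i

lemma box2_coord {a₀ b₀ a₁ b₁ : ℝ} {x : Eu d} (hx : x ∈ box2 hd a₀ b₀ a₁ b₁) :
    x (i0 hd) ∈ Set.Icc a₀ b₀ ∧ x (i1 hd) ∈ Set.Icc a₁ b₁ := by
  constructor
  · simpa using hx (i0 hd)
  · simpa [(i0_ne_i1 hd).symm] using hx (i1 hd)

lemma box2_sub_Q {a₀ b₀ a₁ b₁ : ℝ} (h₀ : -1 ≤ a₀) (h₀' : b₀ ≤ 1) (h₁ : -1 ≤ a₁) (h₁' : b₁ ≤ 1) :
    box2 hd a₀ b₀ a₁ b₁ ⊆ Q d := by
  intro x hx i
  have h := hx i
  rw [abs_le]
  by_cases hi0 : i = i0 hd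
  · simp only [hi0, if_true] at h
    subst hi0
    exact ⟨by linarith [h.1], by linarith [h.2]⟩
  · by_cases hi1 : i = i1 hd
    · simp only [hi1, (i0_ne_i1 hd).symm, if_true, if_false] at h
      subst hi1
      exact ⟨by linarith [h.1], by linarith [h.2]⟩
    · simp only [hi0, hi1, if_false] at h
      exact ⟨h.1, h.2⟩

lemma rho_box2 {a₀ b₀ a₁ b₁ : ℝ} (h₀ : -1 ≤ a₀) (h₀' : a₀ ≤ b₀) (h₀'' : b₀ ≤ 1)
    (h₁ : -1 ≤ a₁) (h₁' : a₁ ≤ b₁) (h₁'' : b₁ ≤ 1) :
    uniformProbOn (Q d) (box2 hd a₀ b₀ a₁ b₁) =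
      ENNReal.ofReal ((b₀ - a₀) / 2 * ((b₁ - a₁) / 2)) := by
  unfold box2
  rw [rho_box]
  · congr 1
    rw [Fintype.prod_eq_mul (i0 hd) (i1 hd) (i0_ne_i1 hd)]
    · simp [(i0_ne_i1 hd).symm]
    · intro i hi
      simp only [hi.1, hi.2, if_false]
      norm_num
  · intro i
    by_cases hi0 : i = i0 hd
    · simp only [hi0, if_true]
      exact ⟨h₀, h₀', h₀''⟩
    · by_cases hi1 : i = i1 hd
      · simp only [hi1, (i0_ne_i1 hd).symm, if_true, if_false]
        exact ⟨h₁, h₁', h₁''⟩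
      · simp only [hi0, hi1, if_false]
        norm_num

/-- Coordinate vector. -/
noncomputable def e (i : Fin d) : Eu d := EuclideanSpace.single i (1 : ℝ)

lemma e_apply (i j : Fin d) : (e i : Eu d) j = if j = i then 1 else 0 := by
  simp [e, PiLp.single_apply]

lemma inner_e (x : Eu d) (i : Fin d) : ⟪x, e i⟫ = x i := by
  simp [e, EuclideanSpace.inner_single_right]

lemma norm_e (i : Fin d) : ‖(e i : Eu d)‖ = 1 := by
  simp [e]

/-- The atoms. -/
noncomputable def atom (ε s : ℝ) : Fin 3 → Eu d :=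
  ![-e (i0 hd), e (i0 hd), (s * ε) • e (i1 hd)]

/-- The heights. -/
noncomputable def hgt (ε : ℝ) : Fin 3 → ℝ := ![0, 0, -ε]

/-- The index map. -/
noncomputable def idx (ε s : ℝ) (x : Eu d) : Fin 3 :=
  if |x (i0 hd)| ≤ ε * (1 + s * x (i1 hd)) then 2 else if x (i0 hd) < 0 then 0 else 1

/-- The optimal map. -/
noncomputable def TT (ε s : ℝ) : Eu d → Eu d := atom hd ε s ∘ idx hd ε s

lemma atom_zero (ε s : ℝ) : atom hd ε s 0 = -e (i0 hd) := rfl
lemma atom_one (ε s : ℝ) : atom hd ε s 1 = e (i0 hd) := rfl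
lemma atom_two (ε s : ℝ) : atom hd ε s 2 = (s * ε) • e (i1 hd) := rfl

lemma atom_coord0 (ε s : ℝ) (l : Fin 3) :
    atom hd ε s l (i0 hd) = ![(-1 : ℝ), 1, 0] l := by
  fin_cases l
  · simp [atom, e_apply]
  · simp [atom, e_apply]
  · simp [atom, e_apply, i0_ne_i1 hd]

lemma atom_injective (ε s : ℝ) : Function.Injective (atom hd ε s) := by
  intro a b hab
  have h := congrArg (fun v : Eu d => v (i0 hd)) hab
  simp only [atom_coord0] at h
  fin_cases a <;> fin_cases b <;> simp_all <;> norm_num at h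

lemma hgt_nonpos {ε : ℝ} (hε : 0 ≤ ε) (l : Fin 3) : hgt ε l ≤ 0 := by
  fin_cases l <;> simp [hgt, hε]

lemma ell_zero (ε s : ℝ) (x : Eu d) :
    ⟪x, atom hd ε s 0⟫ - hgt ε 0 = - x (i0 hd) := by
  simp [atom_zero, inner_neg_right, inner_e, hgt]

lemma ell_one (ε s : ℝ) (x : Eu d) :
    ⟪x, atom hd ε s 1⟫ - hgt ε 1 = x (i0 hd) := by
  simp [atom_one, inner_e, hgt]

lemma ell_two (ε s : ℝ) (x : Eu d) :
    ⟪x, atom hd ε s 2⟫ - hgt ε 2 = ε * (1 + s * x (i1 hd)) := by
  simp only [atom_two, inner_smul_right, inner_e, hgt]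
  simp
  ring

lemma idx_cell (ε s : ℝ) (x : Eu d) (hx : x ∈ Q d) :
    x ∈ cell (Q d) (atom hd ε s) (hgt ε) (idx hd ε s x) := by
  refine ⟨hx, fun j => ?_⟩
  unfold idx
  split_ifs with h1 h2
  · rw [ell_two]
    rw [abs_le] at h1
    fin_cases j
    · simpa [ell_zero] using (by linarith [h1.1] : -x (i0 hd) ≤ ε * (1 + s * x (i1 hd)))
    · simpa [ell_one] using h1.2
    · exact le_of_eq (ell_two hd ε s x)
  · rw [ell_zero]
    rw [abs_of_neg h2] at h1
    fin_cases j
    · exact le_of_eq (ell_zero hd ε s x)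
    · simpa [ell_one] using (by linarith : x (i0 hd) ≤ - x (i0 hd))
    · simpa [ell_two] using (by linarith : ε * (1 + s * x (i1 hd)) ≤ - x (i0 hd))
  · rw [ell_one]
    push Not at h2
    rw [abs_of_nonneg h2] at h1
    fin_cases j
    · simpa [ell_zero] using (by linarith : - x (i0 hd) ≤ x (i0 hd))
    · exact le_of_eq (ell_one hd ε s x)
    · simpa [ell_two] using (by linarith : ε * (1 + s * x (i1 hd)) ≤ x (i0 hd))

lemma measurable_idx (ε s : ℝ) : Measurable (idx hd ε s) := by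
  unfold idx
  refine Measurable.ite ?_ measurable_const (Measurable.ite ?_ measurable_const measurable_const)
  · have c0 := continuous_coord (d := d) (i0 hd)
    have c1 := continuous_coord (d := d) (i1 hd)
    exact (isClosed_le (continuous_abs.comp c0)
      (continuous_const.mul (continuous_const.add (continuous_const.mul c1)))).measurableSet
  · have c0 := continuous_coord (d := d) (i0 hd)
    exact (isOpen_lt c0 continuous_const).measurableSet

lemma measurable_TT (ε s : ℝ) : Measurable (TT hd ε s) :=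
  (Measurable.of_discrete).comp (measurable_idx hd ε s)

lemma atom_mem_Q {ε s : ℝ} (hε : 0 ≤ ε) (hε' : ε ≤ 1) (hs : s = 1 ∨ s = -1) (l : Fin 3) :
    atom hd ε s l ∈ Q d := by
  intro i
  fin_cases l
  · simp only [Fin.zero_eta, atom_zero]
    simp only [PiLp.neg_apply, e_apply, abs_neg]
    split_ifs <;> simp
  · simp only [Fin.mk_one, atom_one]
    simp only [e_apply]
    split_ifs <;> simp
  · simp only [Fin.reduceFinMk, atom_two]
    simp only [PiLp.smul_apply, e_apply, smul_eq_mul]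
    rw [abs_le]
    rcases hs with rfl | rfl <;> split_ifs <;> constructor <;> linarith

/-- The measures are probability measures on the cube. -/
lemma isProbabilityOn_TT {ε s : ℝ} (hε : 0 ≤ ε) (hε' : ε ≤ 1) (hs : s = 1 ∨ s = -1) :
    IsProbabilityOn (Q d) ((uniformProbOn (Q d)).map (TT hd ε s)) := by
  have hm := measurable_TT hd ε s
  refine ⟨Measure.isProbabilityMeasure_map hm.aemeasurable, ?_⟩
  rw [Measure.map_apply hm measurableSet_Q.compl]
  convert measure_empty (μ := uniformProbOn (Q d))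
  ext x
  simp only [Set.mem_preimage, Set.mem_compl_iff, Set.mem_empty_iff_false, iff_false, not_not]
  exact atom_mem_Q hd hε hε' hs _

/-- Three boxes show that each of the three masses is positive. -/
lemma mass_pos {ε s : ℝ} (hε : 0 < ε) (hε' : ε ≤ 1 / 8) (hs : s = 1 ∨ s = -1) (l : Fin 3) :
    0 < uniformProbOn (Q d) (idx hd ε s ⁻¹' {l}) := by
  have hsx : ∀ x : Eu d, x ∈ Q d → |s * x (i1 hd)| ≤ 1 := by
    intro x hx
    have := hx (i1 hd)
    rcases hs with rfl | rfl <;> simpa using this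
  have key : ∀ a₀ b₀ a₁ b₁ : ℝ, -1 ≤ a₀ → a₀ < b₀ → b₀ ≤ 1 → -1 ≤ a₁ → a₁ < b₁ → b₁ ≤ 1 →
      (∀ x ∈ box2 hd a₀ b₀ a₁ b₁, idx hd ε s x = l) →
      0 < uniformProbOn (Q d) (idx hd ε s ⁻¹' {l}) := by
    intro a₀ b₀ a₁ b₁ h1 h2 h3 h4 h5 h6 h7
    have hle : uniformProbOn (Q d) (box2 hd a₀ b₀ a₁ b₁) ≤
        uniformProbOn (Q d) (idx hd ε s ⁻¹' {l}) :=
      measure_mono (fun x hx => h7 x hx)
    refine lt_of_lt_of_le ?_ hle
    rw [rho_box2 hd h1 h2.le h3 h4 h5.le h6]
    have : 0 < (b₀ - a₀) / 2 * ((b₁ - a₁) / 2) := by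
      apply mul_pos <;> linarith
    exact ENNReal.ofReal_pos.mpr this
  fin_cases l
  · -- atom 0: left part
    refine key (-1) (-1 / 2) (-1) 1 (by norm_num) (by norm_num) (by norm_num) (by norm_num)
      (by norm_num) (by norm_num) (fun x hx => ?_)
    obtain ⟨h0, _⟩ := box2_coord hd hx
    have hxQ := box2_sub_Q hd (le_refl _) (by norm_num) (le_refl _) (le_refl _) hx
    have h1 := abs_le.mp (hsx x hxQ)
    unfold idx
    rw [if_neg, if_pos]
    · rfl
    · linarith [h0.2]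
    · rw [not_le, abs_of_neg (by linarith [h0.2])]
      nlinarith [h0.2, h1.2]
  · -- atom 1: right part
    refine key (1 / 2) 1 (-1) 1 (by norm_num) (by norm_num) (by norm_num) (by norm_num)
      (by norm_num) (by norm_num) (fun x hx => ?_)
    obtain ⟨h0, _⟩ := box2_coord hd hx
    have hxQ := box2_sub_Q hd (by norm_num) (le_refl _) (le_refl _) (le_refl _) hx
    have h1 := abs_le.mp (hsx x hxQ)
    unfold idx
    rw [if_neg, if_neg]
    · rfl
    · linarith [h0.1]
    · rw [not_le, abs_of_pos (by linarith [h0.1])]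
      nlinarith [h0.1, h1.2]
  · -- atom 2: thin central box
    refine key (-(ε / 2)) (ε / 2) (-1 / 2) (1 / 2) (by linarith) (by linarith) (by linarith)
      (by norm_num) (by norm_num) (by norm_num) (fun x hx => ?_)
    obtain ⟨h0, h1'⟩ := box2_coord hd hx
    have h2 : |s * x (i1 hd)| ≤ 1 / 2 := by
      rcases hs with rfl | rfl
      · rw [one_mul, abs_le]
        exact ⟨by linarith [h1'.1], by linarith [h1'.2]⟩
      · simp only [neg_mul, one_mul, abs_neg]
        rw [abs_le]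
        exact ⟨by linarith [h1'.1], by linarith [h1'.2]⟩
    have h3 := abs_le.mp h2
    unfold idx
    rw [if_pos]
    · rfl
    · rw [abs_le]
      constructor <;> nlinarith [h0.1, h0.2, h3.1]

/-- Three-atomicity. -/
lemma isThreeAtomic_TT {ε s : ℝ} (hε : 0 < ε) (hε' : ε ≤ 1 / 8) (hs : s = 1 ∨ s = -1) :
    IsThreeAtomic ((uniformProbOn (Q d)).map (TT hd ε s)) := by
  refine ⟨atom hd ε s, atom_injective hd ε s,
    fun l => (uniformProbOn (Q d) (idx hd ε s ⁻¹' {l})).toReal, fun l => ?_, ?_⟩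
  · exact ENNReal.toReal_pos (mass_pos hd hε hε' hs l).ne' (measure_ne_top _ _)
  · unfold TT
    rw [map_comp_eq (measurable_idx hd ε s) (atom hd ε s)]
    refine Finset.sum_congr rfl (fun l _ => ?_)
    rw [ENNReal.ofReal_toReal (measure_ne_top _ _)]

lemma norm_sq_le_of_mem_Q {x : Eu d} (hx : x ∈ Q d) : ‖x‖ ^ 2 ≤ d := by
  rw [EuclideanSpace.real_norm_sq_eq]
  calc ∑ i, x i ^ 2 ≤ ∑ _i : Fin d, (1 : ℝ) := by
        refine Finset.sum_le_sum (fun i _ => ?_)
        have := hx i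
        have h2 : x i ^ 2 = |x i| ^ 2 := (sq_abs _).symm
        rw [h2]
        have h3 := abs_nonneg (x i)
        nlinarith
    _ = d := by simp

lemma optimal_TT {ε s : ℝ} (hε : 0 ≤ ε) :
    IsOptimalMap (uniformProbOn (Q d)) ((uniformProbOn (Q d)).map (TT hd ε s)) (TT hd ε s) :=
  isOptimalMap_comp (K := Q d) rho_compl (atom_injective hd ε s) (hgt_nonpos hε)
    (measurable_idx hd ε s) (idx_cell hd ε s)

lemma ae_eq_TT {ε s : ℝ} (hε : 0 ≤ ε) (hε' : ε ≤ 1) (hs : s = 1 ∨ s = -1)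
    {S : Eu d → Eu d}
    (hS : IsOptimalMap (uniformProbOn (Q d)) ((uniformProbOn (Q d)).map (TT hd ε s)) S) :
    S =ᵐ[uniformProbOn (Q d)] TT hd ε s := by
  refine ae_eq_of_isOptimalMap (K := Q d) rho_compl rho_ac (atom_injective hd ε s) (hgt_nonpos hε)
    (measurable_idx hd ε s) (idx_cell hd ε s) ?_ hS
  -- finiteness of the cost
  have hb : ∀ᵐ x ∂(uniformProbOn (Q d)), ‖x - (atom hd ε s ∘ idx hd ε s) x‖ₑ ^ 2 ≤
      ENNReal.ofReal (4 * d) := by
    filter_upwards [ae_mem_Q] with x hx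
    have h1 := norm_sq_le_of_mem_Q hx
    have h2 := norm_sq_le_of_mem_Q (atom_mem_Q hd hε hε' hs (idx hd ε s x))
    rw [enorm_sq_eq]
    apply ENNReal.ofReal_le_ofReal
    simp only [Function.comp_apply]
    have h3 := norm_sub_le x (atom hd ε s (idx hd ε s x))
    have h4 := norm_nonneg (x - atom hd ε s (idx hd ε s x))
    have h5 := norm_nonneg x
    have h6 := norm_nonneg (atom hd ε s (idx hd ε s x))
    nlinarith [sq_nonneg (‖x‖ - ‖atom hd ε s (idx hd ε s x)‖)]
  refine ne_top_of_le_ne_top ?_ (lintegral_mono_ae hb)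
  rw [lintegral_const]
  simp only [measure_univ, mul_one]
  exact ENNReal.ofReal_ne_top

/-- The reflection in the second coordinate. -/
noncomputable def R : Eu d ≃ₗᵢ[ℝ] Eu d := (Submodule.span ℝ {e (i1 hd)})ᗮ.reflection

lemma R_apply (x : Eu d) (j : Fin d) : (R hd x) j = if j = i1 hd then - x j else x j := by
  unfold R
  rw [Submodule.reflection_orthogonal_apply, Submodule.reflection_singleton_apply]
  have hn : ((‖(e (i1 hd) : Eu d)‖ : ℝ) : ℝ) = 1 := norm_e _
  simp only [RCLike.ofReal_real_eq_id, id_eq, hn, one_pow, div_one, PiLp.neg_apply, PiLp.sub_apply,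
    PiLp.smul_apply, smul_eq_mul, e_apply]
  rw [real_inner_comm, inner_e]
  split_ifs with h
  · subst h; simp; ring
  · simp

lemma R_R (x : Eu d) : R hd (R hd x) = x := by
  ext j
  rw [R_apply, R_apply]
  split_ifs <;> simp

lemma R_mem_Q_iff (x : Eu d) : R hd x ∈ Q d ↔ x ∈ Q d := by
  constructor
  · intro h i
    have := h i
    rw [R_apply] at this
    split_ifs at this <;> simpa using this
  · intro h i
    rw [R_apply]
    split_ifs <;> simpa using h i

lemma measurable_R : Measurable (R hd : Eu d → Eu d) := (R hd).continuous.measurable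

lemma R_preserves_rho : (uniformProbOn (Q d)).map (R hd) = uniformProbOn (Q d) := by
  have hmp : MeasurePreserving (R hd : Eu d → Eu d) volume volume := (R hd).measurePreserving
  have hpre : (R hd : Eu d → Eu d) ⁻¹' (Q d) = Q d := by
    ext x
    exact R_mem_Q_iff hd x
  have h := hmp.restrict_preimage (measurableSet_Q (d := d))
  rw [hpre] at h
  unfold uniformProbOn
  rw [Measure.map_smul, h.map_eq]

lemma R_atom (ε : ℝ) (l : Fin 3) : R hd (atom hd ε 1 l) = atom hd ε (-1) l := by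
  ext j
  rw [R_apply]
  fin_cases l
  · simp only [Fin.zero_eta, atom_zero, PiLp.neg_apply, e_apply]
    by_cases h : j = i1 hd
    · subst h; simp [(i0_ne_i1 hd).symm]
    · simp [h]
  · simp only [Fin.mk_one, atom_one, e_apply]
    by_cases h : j = i1 hd
    · subst h; simp [(i0_ne_i1 hd).symm]
    · simp [h]
  · simp only [Fin.reduceFinMk, atom_two, PiLp.smul_apply, e_apply, smul_eq_mul]
    by_cases h : j = i1 hd
    · subst h; simp
    · simp [h]

lemma idx_R (ε : ℝ) (x : Eu d) : idx hd ε 1 (R hd x) = idx hd ε (-1) x := by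
  unfold idx
  simp only [R_apply, (i0_ne_i1 hd), if_false, if_true]
  simp

lemma TT_neg (ε : ℝ) (x : Eu d) : TT hd ε (-1) x = R hd (TT hd ε 1 (R hd x)) := by
  simp only [TT, Function.comp_apply]
  rw [R_atom, idx_R]

/-- The pushforward by `TT (-1)` is that of `R ∘ TT 1`. -/
lemma map_TT_neg (ε : ℝ) :
    (uniformProbOn (Q d)).map (TT hd ε (-1)) =
      (uniformProbOn (Q d)).map (fun x => R hd (TT hd ε 1 x)) := by
  have h1 : TT hd ε (-1) = (fun x => R hd (TT hd ε 1 x)) ∘ (R hd) := by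
    funext x; exact TT_neg hd ε x
  have hm : Measurable fun x => R hd (TT hd ε 1 x) := (measurable_R hd).comp (measurable_TT hd ε 1)
  rw [h1, ← Measure.map_map hm (measurable_R hd), R_preserves_rho]

/-- The coupling. -/
noncomputable def coupling (ε : ℝ) : Measure (Eu d × Eu d) :=
  (uniformProbOn (Q d)).map (fun x => (TT hd ε 1 x, R hd (TT hd ε 1 x)))

lemma measurable_coupling_fn (ε : ℝ) :
    Measurable (fun x => (TT hd ε 1 x, R hd (TT hd ε 1 x))) :=
  (measurable_TT hd ε 1).prodMk ((measurable_R hd).comp (measurable_TT hd ε 1))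

lemma isPairCoupling_coupling (ε : ℝ) :
    IsPairCoupling ((uniformProbOn (Q d)).map (TT hd ε 1)) ((uniformProbOn (Q d)).map (TT hd ε (-1)))
      (coupling hd ε) := by
  unfold coupling
  constructor
  · rw [Measure.map_map measurable_fst (measurable_coupling_fn hd ε)]
    rfl
  · rw [Measure.map_map measurable_snd (measurable_coupling_fn hd ε), map_TT_neg]
    rfl

lemma quadCost_coupling (ε : ℝ) :
    quadCost (coupling hd ε) = ∫⁻ x, ‖TT hd ε 1 x - R hd (TT hd ε 1 x)‖ₑ ^ 2 ∂(uniformProbOn (Q d)) := by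
  unfold quadCost coupling
  have hm : Measurable fun p : Eu d × Eu d => ‖p.1 - p.2‖ₑ ^ 2 :=
    (measurable_fst.sub measurable_snd).enorm.pow_const 2
  rw [lintegral_map hm (measurable_coupling_fn hd ε)]

/-- The cost of the coupling is cubic in `ε`. -/
lemma quadCost_le {ε : ℝ} (hε : 0 < ε) (hε' : ε ≤ 1 / 8) :
    quadCost (coupling hd ε) ≤ ENNReal.ofReal (8 * ε ^ 3) := by
  rw [quadCost_coupling]
  set W := box2 hd (-(2 * ε)) (2 * ε) (-1) 1 with hW
  have hWm : MeasurableSet W := measurableSet_box _ _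
  have hb : ∀ᵐ x ∂(uniformProbOn (Q d)), ‖TT hd ε 1 x - R hd (TT hd ε 1 x)‖ₑ ^ 2 ≤
      W.indicator (fun _ => ENNReal.ofReal (4 * ε ^ 2)) x := by
    filter_upwards [ae_mem_Q] with x hx
    by_cases hw : |x (i0 hd)| ≤ ε * (1 + 1 * x (i1 hd))
    · -- in the wedge
      have hxW : x ∈ W := by
        have h1 := abs_le.mp (hx (i1 hd))
        refine mem_box2 hd hx ?_ ⟨h1.1, h1.2⟩
        have : ε * (1 + 1 * x (i1 hd)) ≤ 2 * ε := by nlinarith [h1.2]
        have h3 := abs_le.mp (hw.trans this)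
        exact ⟨h3.1, h3.2⟩
      rw [Set.indicator_of_mem hxW, enorm_sq_eq]
      apply ENNReal.ofReal_le_ofReal
      have hT : TT hd ε 1 x = atom hd ε 1 2 := by
        simp only [TT, Function.comp_apply, idx, if_pos hw]
      rw [hT, R_atom, atom_two, atom_two]
      have hv : (1 * ε) • (e (i1 hd) : Eu d) - (-1 * ε) • e (i1 hd) = (2 * ε) • e (i1 hd) := by
        rw [← sub_smul]; congr 1; ring
      rw [hv, norm_smul, norm_e, Real.norm_of_nonneg (by positivity)]
      nlinarith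
    · -- outside the wedge, the map is fixed by the reflection
      have hfix : R hd (TT hd ε 1 x) = TT hd ε 1 x := by
        simp only [TT, Function.comp_apply, idx, if_neg hw]
        rw [R_atom]
        split_ifs <;> rfl
      rw [hfix]
      simp
  refine (lintegral_mono_ae hb).trans ?_
  rw [lintegral_indicator_const hWm]
  rw [hW, rho_box2 hd (by linarith) (by linarith) (by linarith) (le_refl _) (by norm_num) (le_refl _),
    ← ENNReal.ofReal_mul (by positivity)]
  apply ENNReal.ofReal_le_ofReal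
  have : (2 * ε - -(2 * ε)) / 2 * ((1 - -1) / 2) = 2 * ε := by ring
  rw [this]
  apply le_of_eq
  ring

/-- On a box of mass `ε / 16` the two maps are at distance at least one. -/
lemma gain {ε : ℝ} (hε : 0 < ε) (hε' : ε ≤ 1 / 8) {S₁ S₂ : Eu d → Eu d}
    (h₁ : S₁ =ᵐ[uniformProbOn (Q d)] TT hd ε 1) (h₂ : S₂ =ᵐ[uniformProbOn (Q d)] TT hd ε (-1)) :
    ENNReal.ofReal (ε / 16) ≤ ∫⁻ x, ‖S₁ x - S₂ x‖ₑ ^ 2 ∂(uniformProbOn (Q d)) := by
  set B := box2 hd ε (3 * ε / 2) (1 / 2) 1 with hB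
  have hBm : MeasurableSet B := measurableSet_box _ _
  have hρB : uniformProbOn (Q d) B = ENNReal.ofReal (ε / 16) := by
    rw [hB, rho_box2 hd (by linarith) (by linarith) (by linarith) (by norm_num) (by norm_num) (le_refl _)]
    congr 1
    ring
  rw [← hρB, ← lintegral_indicator_one hBm]
  refine lintegral_mono_ae ?_
  filter_upwards [h₁, h₂] with x hx1 hx2
  by_cases hxB : x ∈ B
  · rw [Set.indicator_of_mem hxB, hx1, hx2]
    obtain ⟨h0, h1⟩ := box2_coord hd hxB
    have h2 : TT hd ε 1 x = atom hd ε 1 2 := by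
      simp only [TT, Function.comp_apply, idx]
      rw [if_pos]
      rw [abs_of_pos (by linarith [h0.1])]
      nlinarith [h0.2, h1.1]
    have h3 : TT hd ε (-1) x = atom hd ε (-1) 1 := by
      simp only [TT, Function.comp_apply, idx]
      rw [if_neg, if_neg]
      · linarith [h0.1]
      · rw [abs_of_pos (by linarith [h0.1]), not_le]
        nlinarith [h0.1, h1.1]
    rw [h2, h3, enorm_sq_eq, Pi.one_apply, ← ENNReal.ofReal_one]
    apply ENNReal.ofReal_le_ofReal
    have h4 : ‖(atom hd ε 1 2 - atom hd ε (-1) 1 : Eu d) (i0 hd)‖ ≤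
        ‖atom hd ε 1 2 - atom hd ε (-1) 1‖ := PiLp.norm_apply_le _ _
    have h5 : (atom hd ε 1 2 - atom hd ε (-1) 1 : Eu d) (i0 hd) = -1 := by
      simp only [PiLp.sub_apply, atom_coord0]
      simp
    rw [h5] at h4
    simp only [norm_neg, norm_one] at h4
    nlinarith
  · rw [Set.indicator_of_notMem hxB]
    exact zero_le

/-- The elementary choice of the wedge width. -/
lemma exists_eps (α : ℝ) (hα : 1 / 3 < α) (C : ℝ≥0) :
    ∃ ε : ℝ, 0 < ε ∧ ε ≤ 1 / 8 ∧ (C : ℝ) * (8 * ε ^ 3) ^ α < ε / 16 := by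
  set β := 3 * α - 1 with hβ
  have hβpos : 0 < β := by rw [hβ]; linarith
  have hαpos : 0 < α := by linarith
  set A : ℝ := (C : ℝ) * (8 : ℝ) ^ α with hA
  have hA0 : 0 ≤ A := by positivity
  set η : ℝ := (1 / (16 * (A + 1))) ^ (1 / β) with hη
  have hηpos : 0 < η := by positivity
  refine ⟨min (1 / 8) η, lt_min (by norm_num) hηpos, min_le_left _ _, ?_⟩
  set ε := min (1 / 8) η with hε
  have hεpos : 0 < ε := lt_min (by norm_num) hηpos
  have h1 : ε ^ β ≤ 1 / (16 * (A + 1)) := by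
    have h2 : ε ^ β ≤ η ^ β := Real.rpow_le_rpow hεpos.le (min_le_right _ _) hβpos.le
    refine h2.trans (le_of_eq ?_)
    rw [hη, ← Real.rpow_mul (by positivity), one_div_mul_cancel hβpos.ne', Real.rpow_one]
  have h3 : (8 * ε ^ 3) ^ α = (8 : ℝ) ^ α * (ε * ε ^ β) := by
    rw [Real.mul_rpow (by norm_num) (by positivity)]
    congr 1
    rw [← Real.rpow_natCast, ← Real.rpow_mul hεpos.le, hβ]
    nth_rewrite 2 [← Real.rpow_one ε]
    rw [← Real.rpow_add hεpos]
    congr 1
    push_cast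
    ring
  rw [h3]
  have h4 : (C : ℝ) * ((8 : ℝ) ^ α * (ε * ε ^ β)) = ε * (A * ε ^ β) := by
    rw [hA]; ring
  rw [h4]
  have h5 : A * ε ^ β < 1 / 16 := by
    have hp : 0 < 16 * (A + 1) := by positivity
    calc A * ε ^ β ≤ A * (1 / (16 * (A + 1))) := by gcongr
      _ < 1 / 16 := by
        rw [mul_one_div, div_lt_div_iff₀ hp (by norm_num)]
        linarith
  calc ε * (A * ε ^ β) < ε * (1 / 16) := mul_lt_mul_of_pos_left h5 hεpos
    _ = ε / 16 := by ring

include hd in
/-- The main assembly. -/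
theorem main (hα : 1 / 3 < (α : ℝ)) (C : ℝ≥0) :
    ∃ μ ν : Measure (EuclideanSpace ℝ (Fin d)),
      IsProbabilityOn {x : EuclideanSpace ℝ (Fin d) | ∀ i, |x i| ≤ 1} μ ∧
      IsProbabilityOn {x : EuclideanSpace ℝ (Fin d) | ∀ i, |x i| ≤ 1} ν ∧
      IsThreeAtomic μ ∧ IsThreeAtomic ν ∧
      (∃ T, IsOptimalMap (uniformProbOn {x : EuclideanSpace ℝ (Fin d) | ∀ i, |x i| ≤ 1}) μ T) ∧
      (∃ T, IsOptimalMap (uniformProbOn {x : EuclideanSpace ℝ (Fin d) | ∀ i, |x i| ≤ 1}) ν T) ∧
      ∀ Tμ Tν : EuclideanSpace ℝ (Fin d) → EuclideanSpace ℝ (Fin d),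
        IsOptimalMap (uniformProbOn {x : EuclideanSpace ℝ (Fin d) | ∀ i, |x i| ≤ 1}) μ Tμ →
        IsOptimalMap (uniformProbOn {x : EuclideanSpace ℝ (Fin d) | ∀ i, |x i| ≤ 1}) ν Tν →
        ∃ π : Measure (EuclideanSpace ℝ (Fin d) × EuclideanSpace ℝ (Fin d)), IsPairCoupling μ ν π ∧
          (C : ℝ≥0∞) * quadCost π ^ α < ∫⁻ x, ‖Tμ x - Tν x‖ₑ ^ 2 ∂(uniformProbOn {x : EuclideanSpace ℝ (Fin d) | ∀ i, |x i| ≤ 1}) := by
  obtain ⟨ε, hε, hε', hsmall⟩ := exists_eps α hα C
  have hαpos : 0 < α := by linarith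
  have hplus : (1 : ℝ) = 1 ∨ (1 : ℝ) = -1 := Or.inl rfl
  have hminus : (-1 : ℝ) = 1 ∨ (-1 : ℝ) = -1 := Or.inr rfl
  refine ⟨(uniformProbOn (Q d)).map (TT hd ε 1), (uniformProbOn (Q d)).map (TT hd ε (-1)),
    isProbabilityOn_TT hd hε.le (by linarith) hplus,
    isProbabilityOn_TT hd hε.le (by linarith) hminus,
    isThreeAtomic_TT hd hε hε' hplus, isThreeAtomic_TT hd hε hε' hminus,
    ⟨_, optimal_TT hd hε.le⟩, ⟨_, optimal_TT hd hε.le⟩, fun Tμ Tν hμ hν => ?_⟩
  refine ⟨coupling hd ε, isPairCoupling_coupling hd ε, ?_⟩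
  have h1 := ae_eq_TT hd hε.le (by linarith) hplus hμ
  have h2 := ae_eq_TT hd hε.le (by linarith) hminus hν
  refine lt_of_lt_of_le ?_ (gain hd hε hε' h1 h2)
  have h3 := quadCost_le hd hε hε'
  have hpos : 0 < 8 * ε ^ 3 := by positivity
  calc (C : ℝ≥0∞) * quadCost (coupling hd ε) ^ α
      ≤ (C : ℝ≥0∞) * ENNReal.ofReal (8 * ε ^ 3) ^ α := by
        gcongr
    _ = ENNReal.ofReal ((C : ℝ) * (8 * ε ^ 3) ^ α) := by
        rw [ENNReal.ofReal_rpow_of_pos hpos, ENNReal.ofReal_mul (by positivity), ENNReal.ofReal_coe_nnreal]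
    _ < ENNReal.ofReal (ε / 16) := by
        exact (ENNReal.ofReal_lt_ofReal_iff (by positivity)).mpr hsmall

end Crest.Agent.OT.Wedge
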